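import Crest.Agent.R296.Can

/-!
# Row 296: choice for ordinal-indexed families is forced.
-/

set_option autoImplicit false

namespace Crest.Agent.R296

open CategoryTheory FirstOrder FirstOrder.Language Crest.LogicCS.SetTheory Elt Ob

universe u

theorem exists_maximal_pairwise {α : Type*} (G : Set α) (R : α → α → Prop)
    (hR : ∀ x y, R x y → R y x) :
    ∃ O ⊆ G, O.Pairwise R ∧ ∀ x ∈ G, x ∈ O ∨ ∃ y ∈ O, ¬ R x y := by
  obtain ⟨O, hO⟩ := zorn_subset {O : Set α | O ⊆ G ∧ O.Pairwise R} (fun c hc hch =>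
    ⟨⋃₀ c, ⟨Set.sUnion_subset fun s hs => (hc hs).1, by
      rintro x ⟨s, hs, hx⟩ y ⟨t, ht, hy⟩ hxy
      rcases hch.total hs ht with h | h
      · exact (hc ht).2 (h hx) hy hxy
      · exact (hc hs).2 hx (h hy) hxy⟩, fun s hs => Set.subset_sUnion_of_mem hs⟩)
  refine ⟨O, hO.prop.1, hO.prop.2, fun x hx => ?_⟩
  by_contra hn
  push Not at hn
  refine hn.1 (hO.mem_of_prop_insert ⟨Set.insert_subset hx hO.prop.1, ?_⟩)
  exact hO.prop.2.insert fun y hy _ => ⟨hn.2 y hy, hR _ _ (hn.2 y hy)⟩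

variable {C : MCat.{u}} {S : Spec C}

/-- Two conditions agree on their common domain. -/
def Cond.Compat {w : ℕ} (q q' : Cond S w) : Prop :=
  ∀ ⦃a : ℕ⦄ (u : C.Hom a w) (ξ : W1) (k k' : KK C), q.p u ξ k → q'.p u ξ k' → k = k'

/-- Any later stage can be copied into the object `n + 1` itself. -/
theorem exists_compress (X Y : Ob S) (h : Y ⟶ X.nxt) :
    ∃ (q : Cond S (X.w + 1)) (hq : X.nxt.cnd.Sub q) (κ : q.ob ⟶ Y),
      κ ≫ h ≫ X.nxtAr = Cond.incl hq ≫ X.nxtAr ∧ (Y.pull (ar h)).cnd.Sub q := by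
  obtain ⟨κ, k1, -, -, -, k5⟩ := S.top (Y.pull (ar h)).fresh (C.comp (S.e X.w) (ar h)) (C.id _)
    (fun _ => C.id X.w) (fun _ _ => rfl) (fun _ _ _ => MCat.le_id _)
  have k1' := k1 false
  rw [C.id_comp] at k1'
  let Z : Bool → Ob S := fun b => cond b Y (Y.pull (ar h))
  let m : ∀ b, C.Hom (Z b).w (X.w + 1) := fun b => match b with
    | true => κ false
    | false => C.id _
  have hmix : ∀ ⦃a : ℕ⦄ (u : C.Hom a Y.w) (ξ : W1) (c c' : KK C), Y.p u ξ c →
      (Y.pull (ar h)).p (C.comp u (κ false)) ξ c' → c = c' := by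
    intro a u ξ c c' h1 h2
    obtain ⟨j, rfl⟩ := k5 false u ((Y.pull (ar h)).lt_fresh h2).1
    rw [C.assoc, k1'] at h2
    exact Y.fn _ ξ c c' h1 (by simpa using h2)
  have hc : ∀ i j ⦃a : ℕ⦄ (u : C.Hom a (Z i).w) (u' : C.Hom a (Z j).w) (ξ : W1) (c c' : KK C),
      C.comp u (m i) = C.comp u' (m j) → (Z i).p u ξ c → (Z j).p u' ξ c' → c = c' := by
    rintro (_ | _) (_ | _) a u u' ξ c c' e h1 h2
    · obtain rfl := C.mono _ _ _ e
      exact (Z false).fn u ξ c c' h1 h2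
    · obtain rfl : u = C.comp u' (κ false) := (C.comp_id u).symm.trans e
      exact (hmix u' ξ c' c h2 h1).symm
    · obtain rfl : u' = C.comp u (κ false) := (C.comp_id u').symm.trans e.symm
      exact hmix u ξ c c' h1 h2
    · obtain rfl := C.mono _ _ _ e
      exact (Z true).fn u ξ c c' h1 h2
  have hs : (Y.pull (ar h)).cnd.Sub (glue _ Z m hc).cnd :=
    fun a u ξ c hu => ⟨false, u, C.comp_id u, hu⟩
  refine ⟨(glue _ Z m hc).cnd, fun a u ξ c hu => hs u ξ c (push h hu), glueAr _ Z m hc true,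
    hom_ext ?_, hs⟩
  change C.comp (C.comp (S.e X.w) (ar h)) (κ false) = C.comp (S.e X.w) (C.id _)
  rw [k1', C.comp_id]

/-- A condition at `n + 1` compatible with the pull-back can be amalgamated. -/
theorem exists_amalg_cond {w : ℕ} (q : Cond S w) (Y : Ob S) (m : C.Hom w Y.w)
    (h : (Y.pull m).cnd.Compat q) :
    ∃ (U : Ob S) (l : U ⟶ Y) (s : U ⟶ q.ob), ar s = C.comp m (ar l) := by
  let Z : Bool → Ob S := fun b => cond b q.ob Y
  let m' : ∀ b, C.Hom (Z b).w Y.w := fun b => match b with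
    | true => m
    | false => C.id _
  have hc : ∀ i j ⦃a : ℕ⦄ (u : C.Hom a (Z i).w) (u' : C.Hom a (Z j).w) (ξ : W1) (c c' : KK C),
      C.comp u (m' i) = C.comp u' (m' j) → (Z i).p u ξ c → (Z j).p u' ξ c' → c = c' := by
    rintro (_ | _) (_ | _) a u u' ξ c c' e h1 h2
    · obtain rfl := C.mono _ _ _ e
      exact (Z false).fn u ξ c c' h1 h2
    · obtain rfl : u = C.comp u' m := (C.comp_id u).symm.trans e
      exact h u' ξ c c' h1 h2
    · obtain rfl : u' = C.comp u m := (C.comp_id u').symm.trans e.symm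
      exact (h u ξ c' c h2 h1).symm
    · obtain rfl := C.mono _ _ _ e
      exact (Z true).fn u ξ c c' h1 h2
  exact ⟨glue _ Z m' hc, glueAr _ Z m' hc false, glueAr _ Z m' hc true, (C.comp_id m).symm⟩

theorem site_acwo (X₀ : Ob S) (v : Fin 0 → Elt X₀) : Force (n := 0) acwoAx X₀ v := by
  refine force_acwo (fun X o f H => ?_) X₀ v
  let G : Set (Cond S (X.w + 1) × o.ToType) := {x | ∃ h : X.nxt.cnd.Sub x.1, ∃ y : Elt x.1.ob,
    PM x.1.ob (f.res (Cond.incl h ≫ X.nxtAr)) (cord _ x.2) y}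
  obtain ⟨O, hOG, hO, hmax⟩ := exists_maximal_pairwise G
    (fun x y => x.2 = y.2 → ¬ x.1.Compat y.1)
    (fun x y h e hc => h e.symm fun a u ξ k k' h1 h2 => (hc u ξ k' k h2 h1).symm)
  have hG : ∀ i : O, ∃ h : X.nxt.cnd.Sub i.1.1, ∃ y : Elt i.1.1.ob,
      PM i.1.1.ob (f.res (Cond.incl h ≫ X.nxtAr)) (cord _ i.1.2) y := fun i => hOG i.2
  choose hs y hy using hG
  refine ⟨X.nxt, X.nxtAr, graphE X.nxt O (fun i => i.1.1.ob) (fun i => Cond.incl (hs i))
    (fun i => cord _ i.1.2) y, fun a ha Y h => ?_, fun Y h x z z' hz hz' => ?_⟩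
  · obtain ⟨Y', k, y₀, hy₀⟩ := H a ha Y (h ≫ X.nxtAr)
    obtain ⟨q, hq, κ, hκ, hsub⟩ := exists_compress X Y' (k ≫ h)
    have ea : ((Ordinal.ToType.mk ⟨a, ha⟩ : o.ToType) : Ordinal.{u}) = a := by simp
    have hg : (q, Ordinal.ToType.mk ⟨a, ha⟩) ∈ G := by
      refine ⟨hq, y₀.res κ, ?_⟩
      have := (hy₀.res κ).congr (FEq.refl _ _) (cord_res a κ) (FEq.refl _ _)
      rw [res_res] at this
      rw [← hκ, ea]
      simpa using this
    obtain ⟨i, hi1, hi2⟩ : ∃ i : O, i.1.2 = Ordinal.ToType.mk ⟨a, ha⟩ ∧ q.Compat i.1.1 := by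
      rcases hmax _ hg with h1 | ⟨x, hx, h1⟩
      · exact ⟨⟨_, h1⟩, rfl, q.fn⟩
      · push Not at h1
        exact ⟨⟨x, hx⟩, h1.1.symm, h1.2⟩
    obtain ⟨U, l, s, hls⟩ := exists_amalg_cond i.1.1 Y' (ar (k ≫ h))
      (fun b u ξ c c' h1 h2 => hi2 u ξ c c' (hsub u ξ c h1) h2)
    have e : s ≫ Cond.incl (hs i) = (l ≫ k) ≫ h := hom_ext (by
      change C.comp (C.id _) (ar s) = _
      rw [C.id_comp, hls]; simp)
    have ec : FEq U ((cord i.1.1.ob (i.1.2 : Ordinal.{u})).res s) (cord U a) := by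
      rw [hi1, ea]; exact cord_res a s
    refine ⟨U, l ≫ k, (y i).res s, ?_, ?_⟩
    · exact (pm_graphE_of (a := fun i : O => cord i.1.1.ob (i.1.2 : Ordinal.{u})) i s e).congr
        (FEq.refl _ _) ec (FEq.refl _ _)
    · have := ((hy i).res s).congr (FEq.refl _ _) ec (FEq.refl _ _)
      rw [res_res, ← Category.assoc, e] at this
      simpa using this
  · rw [pm_graphE] at hz
    refine FEq.of_dense (hz.bind ?_)
    rintro V k ⟨i, s, e, h1, h2⟩
    have hz2 := hz'.res k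
    rw [res_res, pm_graphE] at hz2
    obtain ⟨U, l, j, s', e', h1', h2'⟩ := hz2.exists
    have h3 := (h1.res l).symm.trans h1'
    rw [res_res] at h3
    have h4 : i.1.2 = j.1.2 := by
      have := (feq_cord_iff' _ _ _ _).1 h3
      exact Ordinal.ToType.mk.symm.injective (Subtype.ext this)
    have ea : ar (l ≫ s) = ar s' := by
      have e1 : C.comp (C.id _) (ar s) = _ := congrArg ar e
      have e2 : C.comp (C.id _) (ar s') = _ := congrArg ar e'
      rw [C.id_comp] at e1 e2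
      rw [ar_comp, e1, e2]; simp
    obtain rfl : i = j := by
      by_contra hne
      refine hO i.2 j.2 (fun h => hne (Subtype.ext h)) h4 fun a u ξ c c' k1 k2 => ?_
      have a1 := push (l ≫ s) k1
      rw [ea] at a1
      exact U.fn _ _ _ _ a1 (push s' k2)
    obtain rfl : l ≫ s = s' := hom_ext ea
    refine ⟨U, l, ?_⟩
    have := (h2.res l)
    simp only [res_res] at this h2'
    exact this.trans h2'.symm

end Crest.Agent.R296
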