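import Crest.Agent.R296.Cat

/-!
# Row 296: (B1), no meet-independent `ω₁`-sequence of subobjects.

RECIPE.  Choose the step data `s ζ` for every `ζ ≠ ⊥`; for `q` with `st q ≠ ⊥` write `t q`, `β q`
for its trace and `β` (from `NewOK` at `ζ = st q`).  `Indep u S := Unb S ∧ ∀ α ∈ S,
¬ Dep (u α) (u '' (S ∩ Iio α))`; it passes to unbounded subsets.  `Dep` is monotone, transitive
(`Dep a X`, all members of `X` `Dep` on `Y` ⇒ `Dep a Y`), `Dep a X → a ≤ b → Dep b X`.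
* `H η` : no `Indep u S` with all `st (u α) < η` (any `z`).  Strong induction on `η`; pigeonhole
  (`Unb.pigeon`, `countable_Iio`) makes `st = ζ` constant.  `ζ = ⊥`: pigeonhole on the domain and
  `base`.  `ζ ≠ ⊥`: pigeonhole on `dep`, induction on a bound `d` for `dep` (claim: no `Indep` family
  of arrows that have `st < ζ` or `st = ζ, dep < d`).  If a fibre of `(γ, l)` (from `decomp`) is
  unbounded, cancel the common monic `kk` (`le_comp_right_iff`) and use the induction hypothesis.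
  Otherwise all `γ`-fibres are countable, so `S'' = {α | ∀ β < α in S', γ β ≠ γ α}` is unbounded;
  thin it (`Unb.thin`) by `b β` := some element of `S''` above `β`.  For `β < β'` in `S''`,
  `¬ u β ≤ u β'` (independence), so by `meet_new`/`meet_old` every lower bound of `u β, u β'` is
  `≤ t (u β)`, i.e. `Dep (t (u β)) {u β, u (b β)}`.  `H ζ` gives `α` with `t (u α)` `Dep` on earlier
  traces, hence on earlier `u`s, and `t (u α) ≤ u α`.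
* Final stage.  `tr δ u` (`δ ≠ ⊥`): iterate `t` until `st < δ` (well-founded recursion on `st`); it
  is the largest arrow of stage `< δ` below `u`; `st (tr δ u)` lies in a finite set `ds u`.
  Pressing down: `∃ η, ∀ δ > η, ∀ γ, ∃ α > γ, st (tr δ (u α)) < η` (otherwise `η₀ < η₁ < …` and one
  `α` above all the `γ`s gives infinitely many elements of `ds (u α)`).  `exists_seq` gives
  `(δ ξ, α ξ)` with `α` strictly increasing, `δ ξ > η`, `δ ξ > st (u (α ξ'))` for `ξ' < ξ`,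
  `p ξ := tr (δ ξ) (u (α ξ))` of stage `< η`.
  Dichotomy (induction on `st u`; `Y` of stage `< δ`): `Dep (tr δ u) (Y ∪ {u})`, or some `q` has
  `Dep q (Y ∪ {u})`, `q ≤ u`, `q ≤ y` for `y ∈ Y`, `δ ≤ st q ≤ st u`, `tr δ q = tr δ u`.
  First case unboundedly often: `H η`.  Second case: `q ξ` and `p ξ` decrease; `H η` + `Unb.thin`
  make `p ξ` eventually equivalent to one `p`; take `ξ₁ < ξ₂ < …` beyond, `δ*` from `exists_lub`,
  and `i` of minimal stage with `p ≤ i`, `i ≤ q ξₙ` for all `n`, `¬ i ≤ p` (a later `q ξ*` is such an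
  `i`, else a still later `u` is dependent).  `st i < δ*` gives `i ≤ p`; otherwise `β i` is a
  smaller example (`β_le`, `tr_max`, `tr_le_β`, `β_not`).
-/

set_option autoImplicit false

namespace Crest.Agent.R296

universe u

open Set W1

namespace B1

variable {C : MCat.{u}}

instance (z : ℕ) : Nonempty (C.Pt z) := ⟨⟨z, C.id z⟩⟩

/-! ### `Dep` -/

theorem dep_mono {z : ℕ} {a : C.Pt z} {X Y : Set (C.Pt z)} (h : C.Dep a X) (hXY : X ⊆ Y) :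
    C.Dep a Y := by
  obtain ⟨F, h1, h2, h3, h4⟩ := h
  exact ⟨F, h1.trans hXY, h2, h3, h4⟩

theorem dep_le {z : ℕ} {a b : C.Pt z} {X : Set (C.Pt z)} (h : C.Dep a X) (hab : C.Le a.2 b.2) :
    C.Dep b X := by
  obtain ⟨F, h1, h2, h3, h4⟩ := h
  exact ⟨F, h1, h2, h3, fun i hi => (h4 i hi).trans hab⟩

theorem dep_of_mem {z : ℕ} {a : C.Pt z} {X : Set (C.Pt z)} (h : a ∈ X) : C.Dep a X :=
  ⟨{a}, by simpa using h, finite_singleton a, singleton_nonempty a, fun _ hi => hi a rfl⟩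

theorem dep_pair {z : ℕ} {a x y : C.Pt z} {X : Set (C.Pt z)} (hx : x ∈ X) (hy : y ∈ X)
    (h : ∀ i : C.Pt z, C.Le i.2 x.2 → C.Le i.2 y.2 → C.Le i.2 a.2) : C.Dep a X :=
  ⟨{x, y}, by rintro _ (rfl | rfl) <;> assumption, by simp, by simp,
    fun i hi => h i (hi x (by simp)) (hi y (by simp))⟩

theorem dep_trans {z : ℕ} {a : C.Pt z} {X Y : Set (C.Pt z)} (h : C.Dep a X)
    (hXY : ∀ x ∈ X, C.Dep x Y) : C.Dep a Y := by
  obtain ⟨F, h1, h2, ⟨x0, h3⟩, h4⟩ := h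
  choose! G g1 g2 g3 g4 using hXY
  refine ⟨⋃ x ∈ F, G x, ?_, h2.biUnion fun x hx => g2 x (h1 hx), ?_, fun i hi => h4 i ?_⟩
  · exact iUnion₂_subset fun x hx => g1 x (h1 hx)
  · obtain ⟨y, hy⟩ := g3 x0 (h1 h3)
    exact ⟨y, mem_biUnion h3 hy⟩
  · exact fun x hx => g4 x (h1 hx) i fun s hs => hi s (mem_biUnion hx hs)

theorem le_of_dep {z : ℕ} {a i : C.Pt z} {X : Set (C.Pt z)} (h : C.Dep a X)
    (hi : ∀ x ∈ X, C.Le i.2 x.2) : C.Le i.2 a.2 := by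
  obtain ⟨F, h1, -, -, h4⟩ := h
  exact h4 i fun s hs => hi s (h1 hs)

/-- composing a point with a fixed arrow -/
def push {w z : ℕ} (k : C.Hom w z) (p : C.Pt w) : C.Pt z := ⟨p.1, C.comp p.2 k⟩

theorem dep_push {w z : ℕ} (k : C.Hom w z) {a : C.Pt w} {X : Set (C.Pt w)} (h : C.Dep a X) :
    C.Dep (push k a) (push k '' X) := by
  obtain ⟨F, h1, h2, ⟨x0, h3⟩, h4⟩ := h
  refine ⟨push k '' F, image_mono h1, h2.image _, ⟨_, mem_image_of_mem _ h3⟩, fun i hi => ?_⟩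
  obtain ⟨g, hg⟩ := hi _ (mem_image_of_mem _ h3)
  have hg' : C.comp (C.comp g x0.2) k = i.2 := by rw [C.assoc]; exact hg
  have := h4 ⟨i.1, C.comp g x0.2⟩ fun s hs => by
    have := hi _ (mem_image_of_mem _ hs)
    rw [← hg'] at this
    exact (MCat.le_comp_right_iff k).1 this
  rw [← hg']
  exact this.comp_right k

/-- no independent family of points satisfying `P` -/
def NoInd (C : MCat.{u}) (P : ∀ z : ℕ, C.Pt z → Prop) : Prop :=
  ∀ (z : ℕ) (u : W1 → C.Pt z) (A : Set W1), Unb A → (∀ α ∈ A, P z (u α)) →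
    ∃ α ∈ A, C.Dep (u α) (u '' (A ∩ Iio α))

theorem of_subset {z : ℕ} {u : W1 → C.Pt z} {A B : Set W1} (hBA : B ⊆ A)
    (h : ∃ α ∈ B, C.Dep (u α) (u '' (B ∩ Iio α))) : ∃ α ∈ A, C.Dep (u α) (u '' (A ∩ Iio α)) := by
  obtain ⟨α, h1, h2⟩ := h
  exact ⟨α, hBA h1, dep_mono h2 (image_mono (inter_subset_inter_left _ hBA))⟩

/-! ### the step data -/

variable (S : Staged C)

theorem exists_sd (ζ : W1) : ∃ s : StepData C, ζ ≠ ⊥ → ∀ {a z : ℕ} (q : C.Hom a z),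
    S.st q = ζ → NewOK (fun _ _ f => S.st f < ζ) (fun _ _ f => S.st f ≤ ζ) s q := by
  by_cases h : ζ = ⊥
  · obtain ⟨ζ', h'⟩ := exists_gt (⊥ : W1)
    obtain ⟨s, -⟩ := S.step ζ' h'.ne'
    exact ⟨s, fun h' => absurd h h'⟩
  · obtain ⟨s, hs, -⟩ := S.step ζ h
    exact ⟨s, fun _ _ _ q hq => hs q hq.le hq.not_lt⟩

/-- the step data of stage `ζ` -/
noncomputable def sd (ζ : W1) : StepData C := (exists_sd S ζ).choose

theorem newOK {ζ : W1} (h : ζ ≠ ⊥) {a z : ℕ} (q : C.Hom a z) (hq : S.st q = ζ) :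
    NewOK (fun _ _ f => S.st f < ζ) (fun _ _ f => S.st f ≤ ζ) (sd S ζ) q :=
  (exists_sd S ζ).choose_spec h q hq

/-- the trace at stage `ζ` -/
noncomputable def tz (ζ : W1) {z : ℕ} (q : C.Pt z) : C.Pt z :=
  ⟨((sd S ζ).tg q.2).1, C.comp ((sd S ζ).tg q.2).2 q.2⟩

theorem tz_le (ζ : W1) {z : ℕ} (q : C.Pt z) : C.Le (tz S ζ q).2 q.2 := MCat.comp_le _ _

/-! ### bounded stages -/

theorem noInd_bot : NoInd C fun _ q => S.st q.2 = ⊥ := by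
  intro z u A hA h
  obtain ⟨a, -, hB⟩ := hA.pigeon (fun α => (u α).1) univ countable_univ fun _ _ => trivial
  obtain ⟨α, ⟨h1, h2⟩, -⟩ := hB ⊥
  obtain ⟨β, ⟨h3, h4⟩, hlt⟩ := hB α
  refine ⟨β, h3, dep_of_mem ⟨α, ⟨h1, hlt⟩, ?_⟩⟩
  have e1 := h α h1
  have e2 := h β h3
  generalize u α = p at h2 e1
  generalize u β = q at h4 e2
  obtain ⟨a1, f⟩ := p
  obtain ⟨a2, g⟩ := q
  dsimp only at h2 h4 e1 e2
  subst h2
  subst h4
  rw [S.base f g e1 e2]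

theorem noInd_dep {ζ : W1} (hζ : ζ ≠ ⊥) (H : NoInd C fun _ q => S.st q.2 < ζ) (d : ℕ) :
    NoInd C fun _ q => S.st q.2 < ζ ∨ (S.st q.2 = ζ ∧ (sd S ζ).dep q.2 < d) := by
  induction d with
  | zero =>
    intro z u A hA h
    exact H z u A hA fun α hα => (h α hα).resolve_right fun h => absurd h.2 (Nat.not_lt_zero _)
  | succ d ih =>
    intro z u A hA h
    rcases hA.or fun α => S.st (u α).2 < ζ with hB | hB
    · exact of_subset (fun _ h => h.1) (H z u _ hB fun α hα => hα.2)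
    refine of_subset (B := {α | α ∈ A ∧ ¬ S.st (u α).2 < ζ}) (fun _ h => h.1) ?_
    have hst : ∀ α ∈ {α | α ∈ A ∧ ¬ S.st (u α).2 < ζ},
        S.st (u α).2 = ζ ∧ (sd S ζ).dep (u α).2 < d + 1 :=
      fun α hα => (h α hα.1).resolve_left hα.2
    generalize {α | α ∈ A ∧ ¬ S.st (u α).2 < ζ} = B at hB hst
    by_cases hγ : ∃ g, Unb {α | α ∈ B ∧ (sd S ζ).γ (u α).2 = g}
    · obtain ⟨g, hg⟩ := hγ
      have h1 : ∀ α ∈ {α | α ∈ B ∧ (sd S ζ).γ (u α).2 = g}, ∃ l : Bool,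
          ∃ p : C.Pt ((sd S ζ).kk g l z).1, push ((sd S ζ).kk g l z).2 p = u α ∧
            (S.st p.2 < ζ ∨ (S.st p.2 = ζ ∧ (sd S ζ).dep p.2 < d)) := by
        rintro α ⟨hα, rfl⟩
        obtain ⟨l, f, e, k1, k2⟩ := (newOK S hζ (u α).2 (hst α hα).1).decomp
        refine ⟨l, ⟨_, f⟩, by simp only [push, e], ?_⟩
        rcases k1.lt_or_eq with k1 | k1
        · exact Or.inl k1
        · refine Or.inr ⟨k1, ?_⟩
          rcases k2 with k2 | k2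
          · exact absurd k1 (ne_of_lt k2)
          · exact k2.trans_le (Nat.lt_succ_iff.1 (hst α hα).2)
      choose! l hl using h1
      obtain ⟨l0, -, hB'⟩ := hg.pigeon l univ countable_univ fun _ _ => trivial
      have h2 : ∀ α ∈ {α | α ∈ {α | α ∈ B ∧ (sd S ζ).γ (u α).2 = g} ∧ l α = l0},
          ∃ p : C.Pt ((sd S ζ).kk g l0 z).1, push ((sd S ζ).kk g l0 z).2 p = u α ∧
            (S.st p.2 < ζ ∨ (S.st p.2 = ζ ∧ (sd S ζ).dep p.2 < d)) := by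
        rintro α ⟨hα, rfl⟩
        exact hl α hα
      choose! u' hu1 hu2 using h2
      obtain ⟨α, hα, hd⟩ := ih _ u' _ hB' hu2
      refine ⟨α, hα.1.1, ?_⟩
      have := dep_push ((sd S ζ).kk g l0 z).2 hd
      rw [hu1 α hα] at this
      refine dep_mono this ?_
      rintro _ ⟨_, ⟨β, hβ, rfl⟩, rfl⟩
      exact ⟨β, ⟨hβ.1.1.1, hβ.2⟩, (hu1 β hβ.1).symm⟩
    · by_contra hind
      push Not at hind
      have hb : ∀ β, ∃ b, ∀ α ∈ B, b < α → (sd S ζ).γ (u α).2 ≠ (sd S ζ).γ (u β).2 := by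
        intro β
        by_contra hn
        push Not at hn
        refine hγ ⟨(sd S ζ).γ (u β).2, fun b => ?_⟩
        obtain ⟨α, k1, k2, k3⟩ := hn b
        exact ⟨α, ⟨k1, k3⟩, k2⟩
      choose b hb using hb
      obtain ⟨B1, s1, u1, t1⟩ := hB.thin b
      choose c hc1 hc2 using u1
      obtain ⟨B2, s2, u2, t2⟩ := Unb.thin (S := B1) (fun x => ⟨c x, hc1 x, hc2 x⟩) c
      have key : ∀ β ∈ B1, ∀ β' ∈ B1, β < β' → ∀ i : C.Pt z, C.Le i.2 (u β).2 →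
          C.Le i.2 (u β').2 → C.Le i.2 (tz S ζ (u β)).2 := by
        intro β hβ β' hβ' hlt i k1 k2
        have N := newOK S hζ (u β).2 (hst β (s1 hβ)).1
        have N' := newOK S hζ (u β').2 (hst β' (s1 hβ')).1
        rcases N.meet_new (u β').2 (hst β' (s1 hβ')).1.le (hst β' (s1 hβ')).1.not_lt
          (hb β β' (s1 hβ') (t1 β' hβ' β hβ hlt)).symm i.2 k1 k2 with k | k
        · exact k
        · refine N.meet_old _ N'.old_tr (fun k3 => ?_) i.2 k1 k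
          exact hind β' (s1 hβ') (dep_le (dep_of_mem ⟨β, ⟨s1 hβ, hlt⟩, rfl⟩)
            (k3.trans (MCat.comp_le _ _)))
      obtain ⟨α, hα, hd⟩ := H z (fun α => tz S ζ (u α)) B2 u2 fun α hα =>
        (newOK S hζ (u α).2 (hst α (s1 (s2 hα))).1).old_tr
      refine hind α (s1 (s2 hα)) (dep_le (dep_trans hd ?_) (tz_le S ζ _))
      rintro _ ⟨β, ⟨hβ, hlt⟩, rfl⟩
      exact dep_pair ⟨β, ⟨s1 (s2 hβ), hlt⟩, rfl⟩ ⟨c β, ⟨s1 (hc1 β), t2 α hα β hβ hlt⟩, rfl⟩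
        (key β (s2 hβ) (c β) (hc1 β) (hc2 β))

theorem noInd_lt (η : W1) : NoInd C fun _ q => S.st q.2 < η := by
  induction η using WellFoundedLT.induction with
  | ind η ih =>
    intro z u A hA h
    obtain ⟨ζ, hζ, hB⟩ := hA.pigeon (fun α => S.st (u α).2) (Iio η) (countable_Iio η) h
    refine of_subset (B := {α | α ∈ A ∧ S.st (u α).2 = ζ}) (fun _ h => h.1) ?_
    by_cases h0 : ζ = ⊥
    · exact noInd_bot S z u _ hB fun α hα => hα.2.trans h0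
    · obtain ⟨d, -, hB'⟩ := hB.pigeon (fun α => (sd S ζ).dep (u α).2) univ countable_univ
        fun _ _ => trivial
      refine of_subset (fun _ h => h.1) (noInd_dep S h0 (ih ζ hζ) (d + 1) z u _ hB' ?_)
      exact fun α hα => Or.inr ⟨hα.1.2, Nat.lt_succ_iff.2 hα.2.le⟩

/-! ### iterated traces -/

/-- `p` is the largest point of stage `< δ` below `q` -/
def IsTr (δ : W1) {z : ℕ} (q p : C.Pt z) : Prop :=
  S.st p.2 < δ ∧ C.Le p.2 q.2 ∧ ∀ i : C.Pt z, S.st i.2 < δ → C.Le i.2 q.2 → C.Le i.2 p.2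

theorem ne_bot_of_le {δ ζ : W1} (h : δ ≠ ⊥) (h' : δ ≤ ζ) : ζ ≠ ⊥ :=
  ((bot_lt_iff_ne_bot.2 h).trans_le h').ne'

theorem exists_tr {z : ℕ} (q : C.Pt z) :
    ∃ D : Set W1, D.Finite ∧ ∀ δ, δ ≠ ⊥ → ∃ p, IsTr S δ q p ∧ S.st p.2 ∈ D := by
  generalize hζ : S.st q.2 = ζ
  induction ζ using WellFoundedLT.induction generalizing q with
  | ind ζ ih =>
    by_cases h0 : ζ = ⊥
    · refine ⟨{ζ}, finite_singleton _, fun δ hδ => ⟨q, ⟨?_, MCat.le_refl _, fun _ _ h => h⟩, hζ⟩⟩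
      rw [hζ, h0]
      exact bot_lt_iff_ne_bot.2 hδ
    · have N := newOK S h0 q.2 hζ
      obtain ⟨D, hD, h⟩ := ih _ N.old_tr (tz S ζ q) rfl
      refine ⟨insert ζ D, hD.insert _, fun δ hδ => ?_⟩
      rcases lt_or_ge ζ δ with hlt | hle
      · exact ⟨q, ⟨hζ ▸ hlt, MCat.le_refl _, fun _ _ h => h⟩, Or.inl hζ⟩
      · obtain ⟨p, ⟨k1, k2, k3⟩, k4⟩ := h δ hδ
        exact ⟨p, ⟨k1, k2.trans (tz_le S ζ q), fun i hi hle' =>
          k3 i hi (N.tr_max i.2 (hi.trans_le hle) hle')⟩, Or.inr k4⟩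

theorem dichotomy {δ : W1} (hδ : δ ≠ ⊥) {z : ℕ} {Y : Set (C.Pt z)} (hY : ∀ y ∈ Y, S.st y.2 < δ)
    {p : C.Pt z} (w : C.Pt z) (h : IsTr S δ w p) :
    C.Dep p (insert w Y) ∨ ∃ q : C.Pt z, C.Dep q (insert w Y) ∧ C.Le q.2 w.2 ∧
      (∀ y ∈ Y, C.Le q.2 y.2) ∧ δ ≤ S.st q.2 ∧ S.st q.2 ≤ S.st w.2 ∧ IsTr S δ q p := by
  generalize hζ : S.st w.2 = ζ
  induction ζ using WellFoundedLT.induction generalizing w with
  | ind ζ ih =>
    rcases lt_or_ge ζ δ with hlt | hle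
    · exact Or.inl (dep_le (dep_of_mem (mem_insert _ _)) (h.2.2 w (hζ ▸ hlt) (MCat.le_refl _)))
    by_cases hw : ∀ y ∈ Y, C.Le w.2 y.2
    · exact Or.inr ⟨w, dep_of_mem (mem_insert _ _), MCat.le_refl _, hw, hζ ▸ hle, hζ.le, h⟩
    push Not at hw
    obtain ⟨y, hy, hwy⟩ := hw
    have N := newOK S (ne_bot_of_le hδ hle) w.2 hζ
    have hd : ∀ x ∈ insert (tz S ζ w) Y, C.Dep x (insert w Y) := by
      rintro x (rfl | hx)
      · exact dep_pair (mem_insert _ _) (mem_insert_of_mem _ hy) fun i k1 k2 =>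
          N.meet_old y.2 ((hY y hy).trans_le hle) hwy i.2 k1 k2
      · exact dep_of_mem (mem_insert_of_mem _ hx)
    rcases ih _ N.old_tr (tz S ζ w) ⟨h.1, N.tr_max p.2 (h.1.trans_le hle) h.2.1,
      fun i k1 k2 => h.2.2 i k1 (k2.trans (tz_le S ζ w))⟩ rfl with k | ⟨q, k1, k2, k3, k4, k5, k6⟩
    · exact Or.inl (dep_trans k hd)
    · exact Or.inr ⟨q, dep_trans k1 hd, k2.trans (tz_le S ζ w), k3, k4, k5.trans N.old_tr.le, k6⟩

/-- pressing down -/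
theorem press {z : ℕ} (u : W1 → C.Pt z) : ∃ η, ∀ δ, η < δ → ∀ γ, ∃ α, γ < α ∧
    ∃ p, IsTr S δ (u α) p ∧ S.st p.2 < η := by
  by_contra hn
  push Not at hn
  choose δ hδ γ h using hn
  let η : ℕ → W1 := fun n => δ^[n] ⊥
  have hη : ∀ n, η (n + 1) = δ (η n) := fun n => Function.iterate_succ_apply' _ _ _
  obtain ⟨α, hα⟩ := bdd_fun fun n => γ (η n)
  obtain ⟨D, hD, hp⟩ := exists_tr S (u α)
  choose p hp1 hp2 using fun n => hp (δ (η n)) (ne_bot_of_gt (hδ (η n)))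
  have hmono : StrictMono fun n => S.st (p n).2 := by
    refine strictMono_nat_of_lt_succ fun n => ?_
    refine (hp1 n).1.trans_le ?_
    rw [← hη]
    exact h _ α (hα (n + 1)) _ (hp1 (n + 1))
  exact hD.not_infinite (infinite_of_injective_forall_mem hmono.injective hp2)

/-- a decreasing family of bounded stage is eventually constant -/
theorem ev_const {η : W1} {z : ℕ} (p : W1 → C.Pt z) {A : Set W1} (hA : Unb A)
    (hst : ∀ ξ ∈ A, S.st (p ξ).2 < η)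
    (hdec : ∀ ξ ∈ A, ∀ ξ' ∈ A, ξ ≤ ξ' → C.Le (p ξ').2 (p ξ).2) :
    ∃ ξ0 ∈ A, ∀ ξ ∈ A, ξ0 < ξ → C.Le (p ξ0).2 (p ξ).2 := by
  by_contra hn
  push Not at hn
  choose! b hb1 hb2 hb3 using hn
  obtain ⟨B, s1, u1, t1⟩ := hA.thin b
  obtain ⟨ξ, hξ, F, h1, h2, h3, h4⟩ := noInd_lt S η z p B u1 fun ξ hξ => hst ξ (s1 hξ)
  obtain ⟨G, g1, g2, rfl⟩ := h2.exists_subset_finite_image_eq h1
  obtain ⟨m, hm, hmax⟩ := exists_max_image G id g2 h3.of_image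
  have hmA := s1 (g1 hm).1
  refine hb3 m hmA ((h4 (p m) ?_).trans ?_)
  · rintro _ ⟨x, hx, rfl⟩
    exact hdec x (s1 (g1 hx).1) m hmA (hmax x hx)
  · exact hdec _ (hb1 m hmA) ξ (s1 hξ) (t1 ξ hξ m (g1 hm).1 (g1 hm).2).le

theorem final {η : W1} {z : ℕ} (U p : W1 → C.Pt z) (δ : W1 → W1) (hη : ∀ ξ, η < δ ξ)
    (hU : ∀ ξ ξ', ξ' < ξ → S.st (U ξ').2 < δ ξ) (hp : ∀ ξ, IsTr S (δ ξ) (U ξ) (p ξ))
    (hst : ∀ ξ, S.st (p ξ).2 < η) : ∃ ξ, C.Dep (U ξ) (U '' Iio ξ) := by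
  by_contra hind
  push Not at hind
  have hsub : ∀ ξ ξ', ξ' < ξ → insert (U ξ') (U '' Iio ξ') ⊆ U '' Iio ξ := by
    rintro ξ ξ' h _ (rfl | ⟨x, hx, rfl⟩)
    · exact ⟨ξ', h, rfl⟩
    · exact ⟨x, lt_trans hx h, rfl⟩
  rcases unb_univ.or fun ξ => C.Dep (p ξ) (insert (U ξ) (U '' Iio ξ)) with hA | hA
  · obtain ⟨ξ, -, hd⟩ := noInd_lt S η z p _ hA fun ξ _ => hst ξ
    refine hind ξ (dep_le (dep_trans hd ?_) (hp ξ).2.1)
    rintro _ ⟨ξ', ⟨k1, k2⟩, rfl⟩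
    exact dep_mono k1.2 (hsub ξ ξ' k2)
  have hq : ∀ ξ ∈ {ξ | ξ ∈ univ ∧ ¬ C.Dep (p ξ) (insert (U ξ) (U '' Iio ξ))},
      ∃ q : C.Pt z, C.Dep q (insert (U ξ) (U '' Iio ξ)) ∧ C.Le q.2 (U ξ).2 ∧
        (∀ y ∈ U '' Iio ξ, C.Le q.2 y.2) ∧ δ ξ ≤ S.st q.2 ∧ S.st q.2 ≤ S.st (U ξ).2 ∧
          IsTr S (δ ξ) q (p ξ) := fun ξ hξ =>
    (dichotomy S (ne_bot_of_gt (hη ξ)) (by
      rintro _ ⟨x, hx, rfl⟩
      exact hU ξ x hx) (U ξ) (hp ξ)).resolve_left hξ.2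
  generalize {ξ | ξ ∈ univ ∧ ¬ C.Dep (p ξ) (insert (U ξ) (U '' Iio ξ))} = A at hA hq
  choose! q q1 q2 q3 q4 q5 q6 using hq
  have qdec : ∀ ξ ∈ A, ∀ ξ' ∈ A, ξ < ξ' → C.Le (q ξ').2 (q ξ).2 := fun ξ hξ ξ' hξ' h =>
    le_of_dep (q1 ξ hξ) fun x hx => q3 ξ' hξ' x (hsub ξ' ξ h hx)
  have pdec : ∀ ξ ∈ A, ∀ ξ' ∈ A, ξ ≤ ξ' → C.Le (p ξ').2 (p ξ).2 := by
    intro ξ hξ ξ' hξ' h
    rcases h.lt_or_eq with h | rfl
    · exact (q6 ξ hξ).2.2 _ ((hst ξ').trans (hη ξ)) ((q6 ξ' hξ').2.1.trans (qdec ξ hξ ξ' hξ' h))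
    · exact MCat.le_refl _
  obtain ⟨ξ0, h0, hconst⟩ := ev_const S p hA (fun ξ _ => hst ξ) pdec
  choose c hc1 hc2 using hA
  let x : ℕ → W1 := fun n => c^[n] ξ0
  have hx : ∀ n, x (n + 1) = c (x n) := fun n => Function.iterate_succ_apply' _ _ _
  have hxA : ∀ n, x n ∈ A := by
    rintro (_ | n)
    · exact h0
    · rw [hx]; exact hc1 _
  have hxm : StrictMono x := strictMono_nat_of_lt_succ fun n => by rw [hx]; exact hc2 _
  have hx0 : ∀ n, ξ0 ≤ x n := fun n => hxm.monotone (Nat.zero_le n)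
  obtain ⟨d, hd1, hd2⟩ := exists_lub fun n => δ (x n)
  have hne : ∃ i : C.Pt z, C.Le (p ξ0).2 i.2 ∧ (∀ n, C.Le i.2 (q (x n)).2) ∧
      ¬ C.Le i.2 (p ξ0).2 := by
    obtain ⟨b, hb⟩ := bdd_fun x
    have hb' : ∀ n, x n < c b := fun n => (hb n).trans (hc2 b)
    have k0 : ξ0 < c b := hb' 0
    refine ⟨q (c b), (hconst _ (hc1 b) k0).trans (q6 _ (hc1 b)).2.1,
      fun n => qdec _ (hxA n) _ (hc1 b) (hb' n), fun k => ?_⟩
    refine hind (c (c b)) (dep_le (dep_mono (q1 _ (hc1 b)) (hsub _ _ (hc2 _))) ?_)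
    exact k.trans ((hconst _ (hc1 _) (k0.trans (hc2 _))).trans (hp _).2.1)
  obtain ⟨i, k⟩ := hne
  generalize hζ : S.st i.2 = ζ
  induction ζ using WellFoundedLT.induction generalizing i with
  | ind ζ ih =>
    obtain ⟨k1, k2, k3⟩ := k
    rcases lt_or_ge ζ d with hlt | hle
    · obtain ⟨n, hn⟩ := hd2 ζ hlt
      exact k3 (((q6 _ (hxA n)).2.2 i (hζ ▸ hn) (k2 n)).trans (pdec _ h0 _ (hxA n) (hx0 n)))
    · have hηζ : η < ζ := (hη _).trans_le ((hd1 0).trans hle)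
      have N := newOK S (ne_bot_of_gt hηζ) i.2 hζ
      have k4 := N.tr_max (p ξ0).2 ((hst ξ0).trans hηζ) k1
      refine ih _ N.old_β ((sd S ζ).β i.2) ⟨k4.trans N.tr_le_β, fun n => ?_,
        fun k5 => N.β_not (k5.trans k4)⟩ rfl
      refine N.β_le _ ?_ (k2 n)
      exact (q5 _ (hxA n)).trans_lt ((hU _ _ (hxm (Nat.lt_succ_self n))).trans_le
        ((hd1 (n + 1)).trans hle))

end B1

theorem Staged.b1 {C : MCat.{u}} (S : Staged C) (z : ℕ) (u : W1 → C.Pt z) :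
    ∃ α, C.Dep (u α) (u '' Set.Iio α) := by
  obtain ⟨η, hη⟩ := B1.press S u
  obtain ⟨f, hf⟩ := exists_seq (A := W1 × W1)
    (fun ξ f a => η < a.1 ∧ (∀ ξ' < ξ, (f ξ').2 < a.2 ∧ S.st (u (f ξ').2).2 < a.1) ∧
      ∃ p, B1.IsTr S a.1 (u a.2) p ∧ S.st p.2 < η)
    (fun ξ f g a hfg ha => ⟨ha.1, fun ξ' h => hfg ξ' h ▸ ha.2.1 ξ' h, ha.2.2⟩)
    (fun ξ f _ => by
      have : Countable (Iio ξ) := (countable_Iio ξ).to_subtype
      obtain ⟨b, hb⟩ := bdd_fun fun ξ' : Iio ξ => S.st (u (f ξ').2).2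
      obtain ⟨γ, hγ⟩ := bdd_fun fun ξ' : Iio ξ => (f ξ').2
      obtain ⟨δ, hδ⟩ := exists_gt (max η b)
      obtain ⟨α, h1, h2⟩ := hη δ (max_lt_iff.1 hδ).1 γ
      exact ⟨(δ, α), (max_lt_iff.1 hδ).1, fun ξ' h =>
        ⟨(hγ ⟨ξ', h⟩).trans h1, (hb ⟨ξ', h⟩).trans (max_lt_iff.1 hδ).2⟩, h2⟩)
  choose h1 h2 p h3 h4 using hf
  obtain ⟨ξ, hξ⟩ := B1.final S (fun ξ => u (f ξ).2) p (fun ξ => (f ξ).1) h1
    (fun ξ ξ' h => (h2 ξ ξ' h).2) h3 h4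
  refine ⟨(f ξ).2, B1.dep_mono hξ ?_⟩
  rintro _ ⟨ξ', h, rfl⟩
  exact ⟨_, (h2 ξ ξ' h).1, rfl⟩

end Crest.Agent.R296
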