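import Crest.Agent.R296.Site

/-!
# Row 296: canonical supports.

For an element `τ` at `Z` and a base point `μ`, after strengthening the condition there is a
directed bounded family `T` of points above `μ` that decides exactly when two instances of `τ`
over `μ` are forced to be equal.
-/

set_option autoImplicit false

namespace Crest.Agent.R296

open CategoryTheory Elt Ob

universe u

variable {C : MCat.{u}} {S : Spec C}

/-- Instances of `τ` agreeing on `u` are forced to be equal. -/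
def Inv (Z : Ob S) (τ : Elt Z) {a : ℕ} (u : C.Hom a Z.w) : Prop :=
  ∀ (Y : Ob S) (h h' : Y ⟶ Z), C.comp u (ar h) = C.comp u (ar h') → FEq Y (τ.res h) (τ.res h')

theorem Inv.mono {Z : Ob S} {τ : Elt Z} {a b : ℕ} {u : C.Hom a Z.w} {u' : C.Hom b Z.w}
    (H : Inv Z τ u) (hle : C.Le u u') : Inv Z τ u' :=
  fun Y h h' e => H Y h h' (hle.eq_comp e)

theorem Inv.res {Z Z' : Ob S} {τ : Elt Z} {a : ℕ} {u : C.Hom a Z.w} (H : Inv Z τ u)
    (l : Z' ⟶ Z) : Inv Z' (τ.res l) (C.comp u (ar l)) := by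
  intro Y h h' e
  simpa using H Y (h ≫ l) (h' ≫ l) (by simpa using e)

/-- It suffices to look at independent pairs of instances. -/
theorem inv_of_indep {Z : Ob S} {τ : Elt Z} {a : ℕ} {u : C.Hom a Z.w}
    (H : ∀ (Y : Ob S) (g g' : Y ⟶ Z), C.comp u (ar g) = C.comp u (ar g') →
      (∀ {d : ℕ} (j j' : C.Hom d Z.w), C.comp j (ar g) = C.comp j' (ar g') → C.Le j u) →
      ∃ (V : Ob S) (e : V ⟶ Y), FEq V (τ.res (e ≫ g)) (τ.res (e ≫ g'))) : Inv Z τ u := by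
  have H' : ∀ (Y : Ob S) (g g' : Y ⟶ Z), C.comp u (ar g) = C.comp u (ar g') →
      (∀ {d : ℕ} (j j' : C.Hom d Z.w), C.comp j (ar g) = C.comp j' (ar g') → C.Le j u) →
      FEq Y (τ.res g) (τ.res g') := by
    intro Y g g' e hi
    refine FEq.of_dense fun W l => ?_
    obtain ⟨V, k, hk⟩ := H W (l ≫ g) (l ≫ g') (by rw [ar_comp, ar_comp, ← C.assoc, ← C.assoc, e])
      (fun j j' e' => hi j j' (C.mono _ _ (ar l) (by simpa using e')))
    exact ⟨V, k, by simpa using hk⟩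
  have key : ∀ (Y : Ob S) (h h' : Y ⟶ Z), C.comp u (ar h) = C.comp u (ar h') →
      ∃ (V : Ob S) (e : V ⟶ Y), FEq V (τ.res (e ≫ h)) (τ.res (e ≫ h')) := by
    intro Y h h' e
    obtain ⟨V, ε, k, k1, -, -, k4⟩ := amalg Z Y u (C.id _) (fun _ => C.comp u (ar h))
      (fun _ _ j ξ c hc => by simpa using push h hc) (fun _ _ => rfl) (fun _ _ _ => MCat.le_id _)
    have e1 := H' V (k false) (ε ≫ h) (by simpa using k1 false)
      (fun j j' e' => k4 false j ⟨C.comp j' (ar h), by simpa using e'.symm⟩)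
    have e2 := H' V (k false) (ε ≫ h') (by rw [k1 false, e]; simp)
      (fun j j' e' => k4 false j ⟨C.comp j' (ar h'), by simpa using e'.symm⟩)
    exact ⟨V, ε, e1.symm.trans e2⟩
  intro Y h h' e
  refine FEq.of_dense fun W l => ?_
  obtain ⟨V, k, hk⟩ := key W (l ≫ h) (l ≫ h') (by rw [ar_comp, ar_comp, ← C.assoc, ← C.assoc, e])
  exact ⟨V, k, by simpa using hk⟩

theorem Inv.meet {Z : Ob S} {τ : Elt Z} {a b c : ℕ} {u : C.Hom a Z.w} {u' : C.Hom b Z.w}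
    {i : C.Hom c Z.w} (H : Inv Z τ u) (H' : Inv Z τ u') (hi : C.IsMeet i u u') : Inv Z τ i := by
  refine inv_of_indep fun Y g g' e hind => ?_
  obtain ⟨V, ε, k, k1, k2, -, -⟩ := amalg Z Y u u' (fun l => C.comp u (ar (cond l g' g)))
    (fun _ _ j ξ c hc => by simpa using push _ hc)
    (fun j hj => by
      simpa using (hi.2.2 _ (MCat.comp_le j u) hj).eq_comp e)
    (fun j j' e' => (hind _ (C.comp j' u) (by simpa using e')).trans hi.2.1)
  have e0 := H V (k false) (ε ≫ g) (by simpa using k1 false)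
  have e1 := H V (k true) (ε ≫ g') (by simpa using k1 true)
  exact ⟨V, ε, (e0.symm.trans (H' V _ _ k2)).trans e1⟩

/-- Conditions at a fixed object of `C`. -/
structure Cond (S : Spec C) (w : ℕ) : Type u where
  p : ∀ ⦃a : ℕ⦄, C.Hom a w → W1 → KK C → Prop
  fn : ∀ ⦃a : ℕ⦄ (u : C.Hom a w) (ξ : W1) (k k' : KK C), p u ξ k → p u ξ k' → k = k'
  bd : ∃ δ, ∀ ⦃a : ℕ⦄ (u : C.Hom a w) (ξ : W1) (k : KK C), p u ξ k → S.st u < δ ∧ ξ < δ

/-- The object of a condition. -/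
@[reducible] def Cond.ob {w : ℕ} (q : Cond S w) : Ob S := ⟨w, q.p, q.fn, q.bd⟩

/-- The condition of an object. -/
@[reducible] def Ob.cnd (Z : Ob S) : Cond S Z.w := ⟨Z.p, Z.fn, Z.bd⟩

/-- Inclusion of conditions. -/
def Cond.Sub {w : ℕ} (q q' : Cond S w) : Prop :=
  ∀ ⦃a : ℕ⦄ (u : C.Hom a w) (ξ : W1) (k : KK C), q.p u ξ k → q'.p u ξ k

theorem Cond.Sub.trans {w : ℕ} {q q' q'' : Cond S w} (h : q.Sub q') (h' : q'.Sub q'') :
    q.Sub q'' := fun _ u ξ k hk => h' u ξ k (h u ξ k hk)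

/-- The arrow of an inclusion. -/
def Cond.incl {w : ℕ} {q q' : Cond S w} (h : q.Sub q') : q'.ob ⟶ q.ob :=
  mkAr (C.id w) fun _ u ξ k hk => by rw [C.comp_id]; exact h u ξ k hk

@[simp] theorem Cond.ar_incl {w : ℕ} {q q' : Cond S w} (h : q.Sub q') :
    ar (Cond.incl h) = C.id w := rfl

/-- Invariance after strengthening the condition. -/
def InvAt {w : ℕ} {q : Cond S w} (τ : Elt q.ob) (q' : Cond S w) {a : ℕ} (u : C.Hom a w) : Prop :=
  ∃ h : q.Sub q', Inv q'.ob (τ.res (Cond.incl h)) u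

theorem InvAt.up {w : ℕ} {q q' q'' : Cond S w} {τ : Elt q.ob} {a : ℕ} {u : C.Hom a w}
    (H : InvAt τ q' u) (h : q'.Sub q'') : InvAt τ q'' u := by
  obtain ⟨h0, H⟩ := H
  refine ⟨h0.trans h, ?_⟩
  have := H.res (Cond.incl h)
  rw [res_res, Cond.ar_incl, C.comp_id] at this
  have e : Cond.incl h ≫ Cond.incl h0 = Cond.incl (h0.trans h) := hom_ext (by simp)
  rwa [e] at this

theorem exists_lower_of_finite {w : ℕ} (P : C.Pt w → Prop)
    (hP : ∀ s s', P s → P s' → ∃ t, P t ∧ C.Le t.2 s.2 ∧ C.Le t.2 s'.2) {F : Set (C.Pt w)}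
    (hF : F.Finite) (hne : F.Nonempty) (h : ∀ s ∈ F, P s) : ∃ t, P t ∧ ∀ s ∈ F, C.Le t.2 s.2 := by
  obtain ⟨s₀, hs₀⟩ := hne
  have h0 := h s₀ hs₀
  clear hs₀
  induction F, hF using Set.Finite.induction_on with
  | empty => exact ⟨s₀, h0, fun _ h => h.elim⟩
  | @insert s F _ _ ih =>
    obtain ⟨t, ht, hle⟩ := ih fun s hs => h s (Or.inr hs)
    obtain ⟨t', ht', h1, h2⟩ := hP t s ht (h s (Or.inl rfl))
    refine ⟨t', ht', ?_⟩
    rintro s' (rfl | hs')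
    · exact h2
    · exact h1.trans (hle s' hs')

theorem invAt_directed {w : ℕ} {q : Cond S w} (τ : Elt q.ob) (q' : Cond S w) {n : ℕ}
    (μ : C.Hom n w) (δ : W1) (s s' : C.Pt w)
    (hs : C.Le μ s.2 ∧ InvAt τ q' s.2 ∧ S.st s.2 < δ)
    (hs' : C.Le μ s'.2 ∧ InvAt τ q' s'.2 ∧ S.st s'.2 < δ) :
    ∃ t : C.Pt w, (C.Le μ t.2 ∧ InvAt τ q' t.2 ∧ S.st t.2 < δ) ∧ C.Le t.2 s.2 ∧ C.Le t.2 s'.2 := by
  obtain ⟨c, i, hi, hst⟩ := S.st_meet s.2 s'.2
  obtain ⟨h0, H⟩ := hs.2.1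
  obtain ⟨_, H'⟩ := hs'.2.1
  exact ⟨⟨c, i⟩, ⟨hi.2.2 _ hs.1 hs'.1, ⟨h0, H.meet H' hi⟩,
    hst.trans_lt (max_lt hs.2.2 hs'.2.2)⟩, hi.1, hi.2.1⟩

/-- The filter of invariant points stabilises. -/
theorem exists_stable {w : ℕ} {q : Cond S w} (τ : Elt q.ob) {n : ℕ} (μ : C.Hom n w) :
    ∃ (q' : Cond S w) (δ : W1), q.Sub q' ∧ ∀ q'' : Cond S w, q'.Sub q'' →
      ∀ u : C.Pt w, C.Le μ u.2 → InvAt τ q'' u.2 →
        ∃ t : C.Pt w, (C.Le μ t.2 ∧ InvAt τ q' t.2 ∧ S.st t.2 < δ) ∧ C.Le t.2 u.2 := by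
  by_contra hn
  push Not at hn
  have : Nonempty (Cond S w × C.Pt w) := ⟨(q, ⟨w, C.id w⟩)⟩
  obtain ⟨f, hf⟩ := W1.exists_seq (A := Cond S w × C.Pt w)
    (fun α f a => (∀ β < α, (f β).1.Sub a.1) ∧ C.Le μ a.2.2 ∧ InvAt τ a.1 a.2.2 ∧
      ¬ C.Dep a.2 ((fun β => (f β).2) '' Set.Iio α))
    (fun α f g a hfg ha => by
      refine ⟨fun β hβ => hfg β hβ ▸ ha.1 β hβ, ha.2.1, ha.2.2.1, ?_⟩
      have : (fun β => (g β).2) '' Set.Iio α = (fun β => (f β).2) '' Set.Iio α :=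
        Set.image_congr fun β hβ => by rw [hfg β hβ]
      rw [this]
      exact ha.2.2.2)
    (fun α f ih => by
      have : Countable (Set.Iio α) := (W1.countable_Iio α).to_subtype
      let Y : Option (Set.Iio α) → Cond S w := fun o => o.elim q (fun β => (f β).1)
      have hch : ∀ i j, (Y i).Sub (Y j) ∨ (Y j).Sub (Y i) := by
        rintro (_ | ⟨β, hβ⟩) (_ | ⟨γ, hγ⟩)
        · exact Or.inl fun _ _ _ _ h => h
        · exact Or.inl (ih γ hγ).2.2.1.1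
        · exact Or.inr (ih β hβ).2.2.1.1
        · rcases lt_trichotomy β γ with h | rfl | h
          · exact Or.inl ((ih γ hγ).1 β h)
          · exact Or.inl fun _ _ _ _ h => h
          · exact Or.inr ((ih β hβ).1 γ h)
      let Q : Cond S w := (glue w (fun i => (Y i).ob) (fun _ => C.id w) (by
        intro i j a u u' ξ k k' e h h'
        obtain rfl : u = u' := by simpa using e
        rcases hch i j with hs | hs
        · exact (Y j).fn u ξ k k' (hs u ξ k h) h'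
        · exact (Y i).fn u ξ k k' h (hs u ξ k' h'))).cnd
      have hQ : ∀ i, (Y i).Sub Q := fun i a u ξ k h => ⟨i, u, C.comp_id u, h⟩
      obtain ⟨δ, hδ⟩ := W1.bdd_fun (fun β : Set.Iio α => S.st (f β).2.2)
      obtain ⟨q'', h1, u, h2, h3, h4⟩ := hn Q δ (hQ none)
      refine ⟨(q'', u), fun β hβ => (hQ (some ⟨β, hβ⟩)).trans h1, h2, h3, ?_⟩
      rintro ⟨F, hF, hfin, hne, hdep⟩
      obtain ⟨t, ht, hle⟩ := exists_lower_of_finite
        (fun t => C.Le μ t.2 ∧ InvAt τ Q t.2 ∧ S.st t.2 < δ) (invAt_directed τ Q μ δ) hfin hne (by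
          intro s hs
          obtain ⟨β, hβ, rfl⟩ := hF hs
          exact ⟨(ih β hβ).2.1, (ih β hβ).2.2.1.up (hQ (some ⟨β, hβ⟩)), hδ ⟨β, hβ⟩⟩)
      exact h4 t ht (hdep t hle))
  obtain ⟨α, hα⟩ := S.b1 w (fun β => (f β).2)
  exact (hf α).2.2.2 hα

/-- `T` decides the equality of instances of `τ` over `μ`. -/
structure Canon (Z : Ob S) (τ : Elt Z) {n : ℕ} (μ : C.Hom n Z.w) (T : Set (C.Pt Z.w)) : Prop where
  ne : T.Nonempty
  dir : ∀ t ∈ T, ∀ t' ∈ T, ∃ t'' ∈ T, C.Le t''.2 t.2 ∧ C.Le t''.2 t'.2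
  le : ∀ t ∈ T, C.Le μ t.2
  bdd : ∃ δ, ∀ t ∈ T, S.st t.2 < δ
  inv : ∀ t ∈ T, Inv Z τ t.2
  agree : ∀ (Y : Ob S) (h h' : Y ⟶ Z), C.comp μ (ar h) = C.comp μ (ar h') →
    FEq Y (τ.res h) (τ.res h') → ∃ t ∈ T, C.comp t.2 (ar h) = C.comp t.2 (ar h')
  cof : ∀ (Y : Ob S) (h h' : Y ⟶ Z),
    (∀ t ∈ T, ∃ t' ∈ T, C.Le (C.comp t'.2 (ar h')) (C.comp t.2 (ar h))) →
    (∀ t ∈ T, ∃ t' ∈ T, C.Le (C.comp t'.2 (ar h)) (C.comp t.2 (ar h'))) →
    ∃ t ∈ T, C.comp t.2 (ar h) = C.comp t.2 (ar h')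

theorem exists_canon' {w : ℕ} {q : Cond S w} (τ : Elt q.ob) {n : ℕ} (μ : C.Hom n w) :
    ∃ (q' : Cond S w) (hq : q.Sub q') (T : Set (C.Pt w)),
      Canon q'.ob (τ.res (Cond.incl hq)) μ T := by
  obtain ⟨q₁, δ, hq₁, hst⟩ := exists_stable τ μ
  let T : Set (C.Pt w) := {t | C.Le μ t.2 ∧ InvAt τ q₁ t.2 ∧ S.st t.2 < δ}
  let q₂ : Cond S w := (q₁.ob.add {t | S.st t.2 < δ} ⟨δ, fun _ h => h⟩ (KK.leaf w)).cnd
  have h12 : q₁.Sub q₂ := fun _ _ _ _ h => Or.inl h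
  have hne : T.Nonempty := by
    obtain ⟨t, ht, -⟩ := hst q₁ (fun _ _ _ _ h => h) ⟨w, C.id w⟩ (MCat.le_id _)
      ⟨hq₁, fun Y h h' e => by
        have : h = h' := hom_ext (by simpa using e)
        exact FEq.of_eq (by rw [this])⟩
    exact ⟨t, ht⟩
  have hinv : ∀ t ∈ T, Inv q₂.ob (τ.res (Cond.incl (hq₁.trans h12))) t.2 :=
    fun t ht => (ht.2.1.up h12).2
  have hcof : ∀ (Y : Ob S) (h h' : Y ⟶ q₂.ob),
      (∀ t ∈ T, ∃ t' ∈ T, C.Le (C.comp t'.2 (ar h')) (C.comp t.2 (ar h))) →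
      (∀ t ∈ T, ∃ t' ∈ T, C.Le (C.comp t'.2 (ar h)) (C.comp t.2 (ar h'))) →
      ∃ t ∈ T, C.comp t.2 (ar h) = C.comp t.2 (ar h') := by
    intro Y h h' H H'
    obtain ⟨c, p, p', hp, hu⟩ := C.meet (ar h) (ar h')
    obtain ⟨d, g, ⟨t, ht, hle⟩, s1, s2⟩ := S.b4 δ w T (fun t ht => ht.2.2) p p' (by
        obtain ⟨t₀, ht₀⟩ := hne
        obtain ⟨t, ht, j, hj⟩ := H' t₀ ht₀
        exact ⟨t, ht, hu t.2 (C.comp j t₀.2) (by simpa using hj.symm)⟩) (by
        intro d g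
        have e : C.comp (C.comp g p) (ar h) = C.comp (C.comp g p') (ar h') := by simp [hp]
        constructor
        · rintro ⟨t, ht, hle⟩
          obtain ⟨t', ht', hle'⟩ := H t ht
          refine ⟨t', ht', (MCat.le_comp_right_iff (ar h')).1 ?_⟩
          exact e ▸ hle'.trans (hle.comp_right _)
        · rintro ⟨t, ht, hle⟩
          obtain ⟨t', ht', hle'⟩ := H' t ht
          refine ⟨t', ht', (MCat.le_comp_right_iff (ar h)).1 ?_⟩
          exact e ▸ hle'.trans (hle.comp_right _))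
    have e : C.comp (C.comp g p) (ar h) = C.comp (C.comp g p') (ar h') := by simp [hp]
    have a1 := push h (u := C.comp g p) (Or.inr ⟨s1, rfl, rfl⟩)
    have a2 := push h' (u := C.comp g p') (Or.inr ⟨s2, rfl, rfl⟩)
    rw [← e] at a2
    have a3 := Y.fn _ _ _ _ a1 a2
    simp only [KK.leaf.injEq, heq_eq_eq, Sigma.mk.injEq, true_and] at a3
    exact ⟨t, ht, hle.eq_comp (by rw [e, a3])⟩
  have hone : ∀ (Y : Ob S) (h h' : Y ⟶ q₂.ob), C.comp μ (ar h) = C.comp μ (ar h') →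
      FEq Y ((τ.res (Cond.incl (hq₁.trans h12))).res h)
        ((τ.res (Cond.incl (hq₁.trans h12))).res h') →
      ∀ t ∈ T, ∃ t' ∈ T, C.Le (C.comp t'.2 (ar h')) (C.comp t.2 (ar h)) := by
    intro Y h h' e he t ht
    obtain ⟨c, y, j, hy, hu⟩ := C.meet (ar h') (C.comp t.2 (ar h))
    have h23 : q₂.Sub (Y.pull (ar h')).cnd := fun _ u ξ k hk => push h' hk
    suffices hI : Inv (Y.pull (ar h')).cnd.ob
        (τ.res (Cond.incl ((hq₁.trans h12).trans h23))) y by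
      obtain ⟨t', ht', hle⟩ := hst (Y.pull (ar h')).cnd (h12.trans h23) ⟨c, y⟩ (by
        obtain ⟨g, hg⟩ := ht.1
        exact hu μ g (by rw [← e, ← hg]; simp)) ⟨(hq₁.trans h12).trans h23, hI⟩
      exact ⟨t', ht', (hle.comp_right _).trans ⟨j, hy.symm⟩⟩
    refine inv_of_indep fun W g g' e' hind => ?_
    obtain ⟨V, ε, k, k1, k2, -, -⟩ := amalg Y W (ar h') (C.comp t.2 (ar h))
      (fun l => @ar C S W (Y.pull (ar h')) (cond l g' g))
      (fun l _ i ξ c hc => @push C S W (Y.pull (ar h')) (cond l g' g) _ _ _ _ hc)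
      (fun i ⟨i', hi⟩ => MCat.Le.eq_comp (hu i i' hi.symm) e')
      (fun i i' hi => ((hind i i' hi).comp_right _).trans ⟨j, hy.symm⟩)
    refine ⟨V, ε, ?_⟩
    have b0 : (ε ≫ g) ≫ Cond.incl ((hq₁.trans h12).trans h23) =
        (k false ≫ h') ≫ Cond.incl (hq₁.trans h12) := hom_ext (by simpa using (k1 false).symm)
    have b1 : (ε ≫ g') ≫ Cond.incl ((hq₁.trans h12).trans h23) =
        (k true ≫ h') ≫ Cond.incl (hq₁.trans h12) := hom_ext (by simpa using (k1 true).symm)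
    rw [res_res, res_res, b0, b1]
    have c0 := he.res (k false)
    have c1 := he.res (k true)
    have c2 := hinv t ht V (k false ≫ h) (k true ≫ h) (by simpa using k2)
    simp only [res_res, Category.assoc] at c0 c1 c2 ⊢
    exact (c0.symm.trans c2).trans c1
  refine ⟨q₂, hq₁.trans h12, T, hne, fun t ht t' ht' => ?_, fun t ht => ht.1,
    ⟨δ, fun t ht => ht.2.2⟩, hinv, fun Y h h' e he => ?_, hcof⟩
  · obtain ⟨t'', h1, h2, h3⟩ := invAt_directed τ q₁ μ δ t t' ht ht'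
    exact ⟨t'', h1, h2, h3⟩
  · exact hcof Y h h' (hone Y h h' e he) (hone Y h' h e.symm he.symm)

theorem exists_canon (Z : Ob S) (τ : Elt Z) {n : ℕ} (μ : C.Hom n Z.w) :
    ∃ (Z' : Ob S) (ι : Z' ⟶ Z) (T : Set (C.Pt Z'.w)),
      Canon Z' (τ.res ι) (C.comp μ (ar ι)) T := by
  obtain ⟨q', hq, T, H⟩ := exists_canon' (q := Z.cnd) τ μ
  refine ⟨q'.ob, Cond.incl hq, T, ?_⟩
  have : C.comp μ (ar (Cond.incl hq)) = μ := C.comp_id μ
  exact this.symm ▸ H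

end Crest.Agent.R296
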