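import Crest.Agent.R296.W1

/-!
# Row 296: the combinatorial core, definitions.

`MCat` is a small category on the object set `ℕ` in which every arrow is monic and the
subobject preorders `Pt z` have binary meets.  Composition is written diagrammatically:
`C.comp f g` is "first `f`, then `g`".

* `Task`: the data of one free adjunction of two arrows `k false, k true : v → w`.
* `StepOK`: what one step of the construction guarantees (intrinsically, inside a bigger category).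
* `Staged`: the result of the `ω₁`-step construction.
* `Spec`: the three consequences (B1), (B4), (B*) used by the forcing argument.
-/

set_option autoImplicit false

namespace Crest.Agent.R296

universe u

/-- A category on the objects `ℕ`, all arrows monic, with meets of subobjects. -/
structure MCat : Type (u + 1) where
  Hom : ℕ → ℕ → Type u
  id : ∀ a, Hom a a
  comp : ∀ {a b c : ℕ}, Hom a b → Hom b c → Hom a c
  id_comp : ∀ {a b : ℕ} (f : Hom a b), comp (id a) f = f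
  comp_id : ∀ {a b : ℕ} (f : Hom a b), comp f (id b) = f
  assoc : ∀ {a b c d : ℕ} (f : Hom a b) (g : Hom b c) (h : Hom c d),
    comp (comp f g) h = comp f (comp g h)
  mono : ∀ {a b c : ℕ} (f g : Hom a b) (h : Hom b c), comp f h = comp g h → f = g
  meet : ∀ {a b z : ℕ} (u : Hom a z) (v : Hom b z), ∃ (c : ℕ) (p : Hom c a) (q : Hom c b),
    comp p u = comp q v ∧ ∀ {d : ℕ} (i : Hom d a) (j : Hom d b), comp i u = comp j v →
      ∃ k : Hom d c, comp k p = i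

attribute [simp] MCat.id_comp MCat.comp_id MCat.assoc

namespace MCat

variable (C : MCat.{u})

/-- Points (subobjects) of `z`. -/
abbrev Pt (z : ℕ) : Type u := Σ a : ℕ, C.Hom a z

/-- `u` factors through `v`. -/
def Le {a b z : ℕ} (u : C.Hom a z) (v : C.Hom b z) : Prop := ∃ g : C.Hom a b, C.comp g v = u

/-- `i` is a meet of `u` and `v`. -/
def IsMeet {a b c z : ℕ} (i : C.Hom c z) (u : C.Hom a z) (v : C.Hom b z) : Prop :=
  C.Le i u ∧ C.Le i v ∧ ∀ {d : ℕ} (j : C.Hom d z), C.Le j u → C.Le j v → C.Le j i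

variable {C}

theorem le_refl {a z : ℕ} (u : C.Hom a z) : C.Le u u := ⟨C.id a, by simp⟩

theorem Le.trans {a b c z : ℕ} {u : C.Hom a z} {v : C.Hom b z} {w : C.Hom c z}
    (h : C.Le u v) (h' : C.Le v w) : C.Le u w := by
  obtain ⟨g, rfl⟩ := h
  obtain ⟨g', rfl⟩ := h'
  exact ⟨C.comp g g', by simp⟩

theorem le_id {a z : ℕ} (u : C.Hom a z) : C.Le u (C.id z) := ⟨u, by simp⟩

theorem comp_le {a b z : ℕ} (g : C.Hom a b) (u : C.Hom b z) : C.Le (C.comp g u) u := ⟨g, rfl⟩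

theorem Le.comp_right {a b z z' : ℕ} {u : C.Hom a z} {v : C.Hom b z} (h : C.Le u v)
    (m : C.Hom z z') : C.Le (C.comp u m) (C.comp v m) := by
  obtain ⟨g, rfl⟩ := h
  exact ⟨g, by simp⟩

theorem le_comp_right_iff {a b z z' : ℕ} {u : C.Hom a z} {v : C.Hom b z} (m : C.Hom z z') :
    C.Le (C.comp u m) (C.comp v m) ↔ C.Le u v := by
  refine ⟨fun ⟨g, hg⟩ => ⟨g, C.mono _ _ m (by simpa using hg)⟩, fun h => h.comp_right m⟩

/-- If two arrows agree on `v`, they agree on everything below `v`. -/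
theorem Le.eq_comp {a b z z' : ℕ} {u : C.Hom a z} {v : C.Hom b z} (h : C.Le u v)
    {m m' : C.Hom z z'} (e : C.comp v m = C.comp v m') : C.comp u m = C.comp u m' := by
  obtain ⟨g, rfl⟩ := h
  simp [e]

theorem exists_isMeet {a b z : ℕ} (u : C.Hom a z) (v : C.Hom b z) :
    ∃ (c : ℕ) (i : C.Hom c z), C.IsMeet i u v := by
  obtain ⟨c, p, q, h, hu⟩ := C.meet u v
  refine ⟨c, C.comp p u, ⟨p, rfl⟩, ⟨q, h.symm⟩, ?_⟩
  rintro d j ⟨i, hi⟩ ⟨i', hi'⟩
  obtain ⟨k, hk⟩ := hu i i' (hi.trans hi'.symm)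
  exact ⟨k, by rw [← C.assoc, hk, hi]⟩

variable (C)

/-- `u` lies above the meet of a non-empty finite subfamily of `S`. -/
def Dep {z : ℕ} (u : C.Pt z) (S : Set (C.Pt z)) : Prop :=
  ∃ F : Set (C.Pt z), F ⊆ S ∧ F.Finite ∧ F.Nonempty ∧
    ∀ i : C.Pt z, (∀ s ∈ F, C.Le i.2 s.2) → C.Le i.2 u.2

/-- A predicate on all arrows. -/
abbrev APred : Type u := ∀ ⦃a z : ℕ⦄, C.Hom a z → Prop

end MCat

/-- One task: two copies of `v` are glued along `x'`, the copy `l` is attached along `x` to the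
arrow `ρ l` into `w`, and both are placed below every member of the directed family `T`. -/
structure Task (C : MCat.{u}) : Type u where
  v : ℕ
  w : ℕ
  ax : ℕ
  ax' : ℕ
  am : ℕ
  x : C.Hom ax v
  x' : C.Hom ax' v
  ρ : Bool → C.Hom ax w
  m : C.Hom am w
  T : Set (C.Pt w)
  T_ne : T.Nonempty
  T_dir : ∀ t ∈ T, ∀ t' ∈ T, ∃ t'' ∈ T, C.Le t''.2 t.2 ∧ C.Le t''.2 t'.2
  m_le : ∀ t ∈ T, C.Le m t.2
  ρ_le : ∀ l, C.Le (ρ l) m
  m_not : ∀ l, ¬ C.Le m (ρ l)
  h1 : ∀ {d : ℕ} (i : C.Hom d ax), C.Le (C.comp i x) x' → C.comp i (ρ false) = C.comp i (ρ true)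
  h2 : ∀ {d : ℕ} (i i' : C.Hom d ax), C.comp i (ρ false) = C.comp i' (ρ true) →
    C.Le (C.comp i x) x'

namespace Task

variable {C : MCat.{u}}

/-- All the data of the task satisfy `old`. -/
def Old (τ : Task C) (old : C.APred) : Prop :=
  old τ.x ∧ old τ.x' ∧ (∀ l, old (τ.ρ l)) ∧ old τ.m ∧ ∀ t ∈ τ.T, old t.2

/-- The pair `k` solves the task, freely over the arrows satisfying `old`. -/
structure Solved (τ : Task C) (old : C.APred) (k : Bool → C.Hom τ.v τ.w) : Prop where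
  root : ∀ l, C.comp τ.x (k l) = τ.ρ l
  glue : C.comp τ.x' (k false) = C.comp τ.x' (k true)
  inter : ∀ {d : ℕ} (i i' : C.Hom d τ.v), C.comp i (k false) = C.comp i' (k true) → C.Le i τ.x'
  le_T : ∀ l, ∀ t ∈ τ.T, C.Le (k l) t.2
  sep : ∀ l, ∀ {a : ℕ} (u : C.Hom a τ.w), old u → (∃ t ∈ τ.T, C.Le t.2 u) ∨
    ∀ {d : ℕ} (i : C.Hom d τ.w), C.Le i (k l) → C.Le i u → C.Le i (τ.ρ l)
  trace : ∀ l, ∀ {d : ℕ} (i : C.Hom d τ.w), old i → C.Le i (k l) → C.Le i (τ.ρ l)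

end Task

/-- The bookkeeping data attached to the new arrows of one step. -/
structure StepData (C : MCat.{u}) : Type (u + 1) where
  /-- gates -/
  Γ : Type u
  γ : ∀ {a z : ℕ}, C.Hom a z → Γ
  dep : ∀ {a z : ℕ}, C.Hom a z → ℕ
  /-- the trace of `q` is `comp (tg q).2 q` -/
  tg : ∀ {a z : ℕ}, C.Hom a z → C.Pt a
  β : ∀ {a z : ℕ}, C.Hom a z → C.Pt z
  kk : Γ → Bool → ∀ z : ℕ, C.Pt z

/-- The properties of one new arrow `q`. -/
structure NewOK {C : MCat.{u}} (old cur : C.APred) (s : StepData C) {a z : ℕ} (q : C.Hom a z) :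
    Prop where
  old_tg : old (s.tg q).2
  old_tr : old (C.comp (s.tg q).2 q)
  old_β : old (s.β q).2
  tr_le_β : C.Le (C.comp (s.tg q).2 q) (s.β q).2
  β_not : ¬ C.Le (s.β q).2 (C.comp (s.tg q).2 q)
  tr_max : ∀ {d : ℕ} (i : C.Hom d z), old i → C.Le i q → C.Le i (C.comp (s.tg q).2 q)
  β_le : ∀ {b : ℕ} (u : C.Hom b z), old u → C.Le q u → C.Le (s.β q).2 u
  meet_old : ∀ {b : ℕ} (u : C.Hom b z), old u → ¬ C.Le q u →
    ∀ {d : ℕ} (i : C.Hom d z), C.Le i q → C.Le i u → C.Le i (C.comp (s.tg q).2 q)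
  meet_new : ∀ {b : ℕ} (q' : C.Hom b z), cur q' → ¬ old q' → s.γ q ≠ s.γ q' →
    ∀ {d : ℕ} (i : C.Hom d z), C.Le i q → C.Le i q' →
      C.Le i (C.comp (s.tg q).2 q) ∨ C.Le i (C.comp (s.tg q').2 q')
  decomp : ∃ (l : Bool) (f : C.Hom a (s.kk (s.γ q) l z).1),
    C.comp f (s.kk (s.γ q) l z).2 = q ∧ cur f ∧ (old f ∨ s.dep f < s.dep q)

/-- One step from the arrows `old` to the arrows `cur`, seen inside the category `C`. -/
def StepOK (C : MCat.{u}) (old cur : C.APred) : Prop :=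
  ∃ s : StepData C,
    (∀ {a z : ℕ} (q : C.Hom a z), cur q → ¬ old q → NewOK old cur s q) ∧
    ∀ τ : Task C, τ.Old old → ∃ k : Bool → C.Hom τ.v τ.w, (∀ l, cur (k l)) ∧ τ.Solved old k ∧
      ∀ l, C.Le (k l) (τ.ρ l) ∨ (¬ old (k l) ∧ ∀ {b : ℕ} (q : C.Hom b τ.w), cur q → ¬ old q →
        s.γ q = s.γ (k l) → C.Le (s.β q).2 τ.m)

/-- An identity-on-objects embedding whose image is closed under factorisation and meets. -/
structure Emb (C D : MCat.{u}) : Type u where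
  ι : ∀ {a z : ℕ}, C.Hom a z → D.Hom a z
  inj : ∀ {a z : ℕ} (f g : C.Hom a z), ι f = ι g → f = g
  map_id : ∀ a, ι (C.id a) = D.id a
  map_comp : ∀ {a b c : ℕ} (f : C.Hom a b) (g : C.Hom b c), ι (C.comp f g) = D.comp (ι f) (ι g)
  fac : ∀ {a b c : ℕ} (f : D.Hom a b) (g : C.Hom b c) (h : C.Hom a c),
    D.comp f (ι g) = ι h → ∃ f', ι f' = f
  meet : ∀ {a b c z : ℕ} (i : C.Hom c z) (u : C.Hom a z) (v : C.Hom b z),
    C.IsMeet i u v → D.IsMeet (ι i) (ι u) (ι v)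

/-- The range of an embedding. -/
def Emb.rng {C D : MCat.{u}} (j : Emb C D) : D.APred := fun _ _ f => ∃ g, j.ι g = f

/-- The result of the construction in `ω₁` steps. -/
structure Staged (C : MCat.{u}) : Type u where
  st : ∀ {a z : ℕ}, C.Hom a z → W1
  st_id : ∀ a, st (C.id a) = ⊥
  st_comp : ∀ {a b c : ℕ} (f : C.Hom a b) (g : C.Hom b c), st (C.comp f g) ≤ max (st f) (st g)
  st_fac : ∀ {a b c : ℕ} (f : C.Hom a b) (g : C.Hom b c), st f ≤ max (st g) (st (C.comp f g))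
  st_meet : ∀ {a b z : ℕ} (u : C.Hom a z) (v : C.Hom b z),
    ∃ (c : ℕ) (i : C.Hom c z), C.IsMeet i u v ∧ st i ≤ max (st u) (st v)
  base : ∀ {a z : ℕ} (f g : C.Hom a z), st f = ⊥ → st g = ⊥ → f = g
  e : ∀ n, C.Hom n (n + 1)
  e_not : ∀ n, ¬ C.Le (C.id (n + 1)) (e n)
  step : ∀ ζ : W1, ζ ≠ ⊥ → StepOK C (fun _ _ f => st f < ζ) (fun _ _ f => st f ≤ ζ)

/-- What the forcing argument uses. -/
structure Spec (C : MCat.{u}) : Type u where
  st : ∀ {a z : ℕ}, C.Hom a z → W1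
  st_comp : ∀ {a b c : ℕ} (f : C.Hom a b) (g : C.Hom b c), st (C.comp f g) ≤ max (st f) (st g)
  st_fac : ∀ {a b c : ℕ} (f : C.Hom a b) (g : C.Hom b c), st f ≤ max (st g) (st (C.comp f g))
  st_meet : ∀ {a b z : ℕ} (u : C.Hom a z) (v : C.Hom b z),
    ∃ (c : ℕ) (i : C.Hom c z), C.IsMeet i u v ∧ st i ≤ max (st u) (st v)
  e : ∀ n, C.Hom n (n + 1)
  e_not : ∀ n, ¬ C.Le (C.id (n + 1)) (e n)
  /-- (B1) no meet-independent `ω₁`-sequence -/
  b1 : ∀ (z : ℕ) (u : W1 → C.Pt z), ∃ α, C.Dep (u α) (u '' Set.Iio α)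
  /-- (B4) a germ preserving the filter generated by `T` is represented at the stage of `T` -/
  b4 : ∀ (δ : W1) (w : ℕ) (T : Set (C.Pt w)), (∀ t ∈ T, st t.2 < δ) →
    ∀ {a : ℕ} (u u' : C.Hom a w), (∃ t ∈ T, C.Le t.2 u) →
    (∀ {d : ℕ} (g : C.Hom d a),
      (∃ t ∈ T, C.Le t.2 (C.comp g u)) ↔ (∃ t ∈ T, C.Le t.2 (C.comp g u'))) →
    ∃ (d : ℕ) (g : C.Hom d a), (∃ t ∈ T, C.Le t.2 (C.comp g u)) ∧
      st (C.comp g u) < δ ∧ st (C.comp g u') < δ
  /-- (B*) every task with a bounded gate is solved, freely over any given stage -/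
  bs : ∀ (δ : W1) (τ : Task C), (∀ t ∈ τ.T, st t.2 < δ) →
    ∃ k : Bool → C.Hom τ.v τ.w, τ.Solved (fun _ _ f => st f < δ) k ∧
      ∀ l, ∀ {a d : ℕ} (u : C.Hom a τ.w) (j : C.Hom d τ.v), C.Le τ.m u → ¬ C.Le j τ.x →
        C.Le (C.comp j (k l)) u → ∃ t ∈ τ.T, C.Le t.2 u

end Crest.Agent.R296
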