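import Crest.Agent.R296.Step

/-!
# Row 296: iterating `exists_step` along `ω₁`.

RECIPE.  Ambient type `Ω := W1 × Ordinal.{0}` (in `Type 1`), stage := first coordinate.
`structure Pre` := `(H : ℕ → ℕ → Set Ω) (comp : ℕ → ℕ → ℕ → Ω → Ω → Ω) (id : ℕ → Ω)` (no proofs).
`Good P` : closure, category laws, mono, `id` has stage `⊥`, `st_comp`, `st_fac`, `st_meet`,
`(⊥, o) ∈ H a z ↔ (o = 0 ∧ a ≤ z)`; a good `P` gives an `MCat.{1}` with `Hom a z := H a z`.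
Define `A : W1 → Pre` by `WellFounded.fix`: at `η = ⊥` the poset `ℕ`; at `η ≠ ⊥` glue the earlier
`A ζ` (`H a z := {x | x.1 < η ∧ x ∈ (A x.1).H a z}`, `comp f g := (A (max f.1 g.1)).comp f g`), and
if the glued `P` is good with small hom-sets choose (`exists_step`) `D, j` and transport `D` to `Ω`:
`j g ↦ g`, a new arrow `q ↦ (η, code q)` with an injective `code : D.Hom a z → Ordinal.{0}`
(`Small.{0}`, `equivShrink`, `Ordinal.typein WellOrderingRel`).  State the step as one existence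
lemma: good small `P` with stages `< η` has a good small `P'` with stages `≤ η`, `P'.H ∩ {x.1 < η} =
P.H`, same `comp`/`id` on `P`, and `StepOK (cat P') (st < η) True` (by `StepOK.transfer` along the
isomorphism, or directly).  Induction on `η`: `A η` is good, small, extends all earlier `A ζ`.
The final category is the glue of all `A ζ`; the inclusion `cat (A ζ) → cat final` is an `Emb`
(`fac` from `st_fac`, `meet` from `st_meet`), so `StepOK.transfer` gives `step`.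
`e n := (⊥, 0)`; `e_not`: a factor of the identity has stage `⊥` by `st_fac`, so `n + 1 ≤ n`.
-/

set_option autoImplicit false

namespace Crest.Agent.R296

namespace Chain

open Set

/-- the ambient type of arrows; the first coordinate is the stage -/
abbrev Om : Type 1 := W1 × Ordinal.{0}

/-- the arrows of the poset `ℕ` -/
noncomputable def o : Om := (⊥, 0)

/-- raw data of a category inside `Om` -/
structure Pre : Type 1 where
  H : ℕ → ℕ → Set Om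
  comp : ℕ → ℕ → ℕ → Om → Om → Om

theorem low {S : Set W1} (hS : IsLowerSet S) {x a b : W1} (h : x ≤ max a b) (ha : a ∈ S)
    (hb : b ∈ S) : x ∈ S := by
  rcases le_max_iff.1 h with h | h
  · exact hS h ha
  · exact hS h hb

namespace Pre

def Le (P : Pre) (a b z : ℕ) (u v : Om) : Prop := ∃ g ∈ P.H a b, P.comp a b z g v = u

def IsMeet (P : Pre) (a b c z : ℕ) (i u v : Om) : Prop :=
  P.Le c a z i u ∧ P.Le c b z i v ∧
    ∀ d, ∀ j ∈ P.H d z, P.Le d a z j u → P.Le d b z j v → P.Le d c z j i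

structure Good (P : Pre) : Prop where
  mem : ∀ {a b c f g}, f ∈ P.H a b → g ∈ P.H b c → P.comp a b c f g ∈ P.H a c
  bot : ∀ {a z} {x : Om}, x.1 = ⊥ → (x ∈ P.H a z ↔ x = o ∧ a ≤ z)
  id_comp : ∀ {a b f}, f ∈ P.H a b → P.comp a a b o f = f
  comp_id : ∀ {a b f}, f ∈ P.H a b → P.comp a b b f o = f
  assoc : ∀ {a b c d f g h}, f ∈ P.H a b → g ∈ P.H b c → h ∈ P.H c d →
    P.comp a c d (P.comp a b c f g) h = P.comp a b d f (P.comp b c d g h)
  mono : ∀ {a b c f g h}, f ∈ P.H a b → g ∈ P.H a b → h ∈ P.H b c →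
    P.comp a b c f h = P.comp a b c g h → f = g
  st_comp : ∀ {a b c f g}, f ∈ P.H a b → g ∈ P.H b c → (P.comp a b c f g).1 ≤ max f.1 g.1
  st_fac : ∀ {a b c f g}, f ∈ P.H a b → g ∈ P.H b c → f.1 ≤ max g.1 (P.comp a b c f g).1
  meet : ∀ {a b z u v}, u ∈ P.H a z → v ∈ P.H b z →
    ∃ c, ∃ i ∈ P.H c z, P.IsMeet a b c z i u v ∧ i.1 ≤ max u.1 v.1
  small : ∀ a z, Small.{0} (P.H a z)

variable {P P' : Pre} {S : Set W1}

theorem Good.o_mem (h : P.Good) {a z : ℕ} (e : a ≤ z) : o ∈ P.H a z := (h.bot rfl).2 ⟨rfl, e⟩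

/-- the category of a good `P` -/
noncomputable def Good.cat (h : P.Good) : MCat.{1} where
  Hom a z := P.H a z
  id _ := ⟨o, h.o_mem le_rfl⟩
  comp {a b c} f g := ⟨P.comp a b c f g, h.mem f.2 g.2⟩
  id_comp f := Subtype.ext (h.id_comp f.2)
  comp_id f := Subtype.ext (h.comp_id f.2)
  assoc f g k := Subtype.ext (h.assoc f.2 g.2 k.2)
  mono f g k e := Subtype.ext (h.mono f.2 g.2 k.2 (congrArg Subtype.val e))
  meet u v := by
    obtain ⟨c, i, -, ⟨⟨p, hp, e1⟩, ⟨q, hq, e2⟩, hm⟩, -⟩ := h.meet u.2 v.2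
    refine ⟨c, ⟨p, hp⟩, ⟨q, hq⟩, Subtype.ext (e1.trans e2.symm), fun {d} i' j' e => ?_⟩
    obtain ⟨k, hk, e3⟩ := hm d _ (h.mem i'.2 u.2) ⟨i', i'.2, rfl⟩
      ⟨j', j'.2, (congrArg Subtype.val e).symm⟩
    refine ⟨⟨k, hk⟩, Subtype.ext (h.mono (h.mem hk hp) i'.2 u.2 ?_)⟩
    rw [h.assoc hk hp u.2, e1, e3]

theorem Good.le_iff (h : P.Good) {a b z : ℕ} (u : h.cat.Hom a z) (v : h.cat.Hom b z) :
    h.cat.Le u v ↔ P.Le a b z u.1 v.1 :=
  ⟨fun ⟨g, e⟩ => ⟨g.1, g.2, congrArg Subtype.val e⟩, fun ⟨g, hg, e⟩ => ⟨⟨g, hg⟩, Subtype.ext e⟩⟩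

theorem Good.isMeet_iff (h : P.Good) {a b c z : ℕ} (i : h.cat.Hom c z) (u : h.cat.Hom a z)
    (v : h.cat.Hom b z) : h.cat.IsMeet i u v ↔ P.IsMeet a b c z i.1 u.1 v.1 := by
  simp only [MCat.IsMeet, IsMeet, h.le_iff]
  exact and_congr_right fun _ => and_congr_right fun _ =>
    ⟨fun H d j hj => H ⟨j, hj⟩, fun H d j => H d j.1 j.2⟩

theorem Good.le_trans (h : P.Good) {a b c z : ℕ} {u v w : Om} (hw : w ∈ P.H c z)
    (h1 : P.Le a b z u v) (h2 : P.Le b c z v w) : P.Le a c z u w := by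
  obtain ⟨g, hg, rfl⟩ := h1
  obtain ⟨g', hg', rfl⟩ := h2
  exact ⟨_, h.mem hg hg', h.assoc hg hg' hw⟩

/-- `P` is the part of `P'` of stages in `S` -/
structure Ext (P P' : Pre) (S : Set W1) : Prop where
  mem : ∀ {a z x}, x ∈ P.H a z ↔ x ∈ P'.H a z ∧ x.1 ∈ S
  comp : ∀ {a b c f g}, f ∈ P.H a b → g ∈ P.H b c → P'.comp a b c f g = P.comp a b c f g

theorem Ext.up (e : Ext P P' S) {a z x} (h : x ∈ P.H a z) : x ∈ P'.H a z := (e.mem.1 h).1

theorem Ext.le_up (e : Ext P P' S) {a b z u v} (hv : v ∈ P.H b z) (h : P.Le a b z u v) :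
    P'.Le a b z u v := by
  obtain ⟨g, hg, rfl⟩ := h
  exact ⟨g, e.up hg, e.comp hg hv⟩

theorem Ext.fac (e : Ext P P' S) (hS : IsLowerSet S) (h' : P'.Good) {a b z f v}
    (hf : f ∈ P'.H a b) (hv : v ∈ P.H b z) (hu : P'.comp a b z f v ∈ P.H a z) : f ∈ P.H a b :=
  e.mem.2 ⟨hf, low hS (h'.st_fac hf (e.up hv)) (e.mem.1 hv).2 (e.mem.1 hu).2⟩

theorem Ext.le_down (e : Ext P P' S) (hS : IsLowerSet S) (h' : P'.Good) {a b z u v}
    (hu : u ∈ P.H a z) (hv : v ∈ P.H b z) (h : P'.Le a b z u v) : P.Le a b z u v := by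
  obtain ⟨g, hg, rfl⟩ := h
  have := e.fac hS h' hg hv hu
  exact ⟨g, this, (e.comp this hv).symm⟩

theorem Ext.isMeet (e : Ext P P' S) (hS : IsLowerSet S) (h' : P'.Good) {a b c z i u v}
    (hi : i ∈ P.H c z) (hu : u ∈ P.H a z) (hv : v ∈ P.H b z) (h : P.IsMeet a b c z i u v) :
    P'.IsMeet a b c z i u v := by
  refine ⟨e.le_up hu h.1, e.le_up hv h.2.1, fun d j hj h1 h2 => ?_⟩
  obtain ⟨c', i', hi', hm, hs⟩ := h'.meet (e.up hu) (e.up hv)
  have h3 : i' ∈ P.H c' z := e.mem.2 ⟨hi', low hS hs (e.mem.1 hu).2 (e.mem.1 hv).2⟩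
  exact h'.le_trans (e.up hi) (hm.2.2 d j hj h1 h2) (e.le_up hi (h.2.2 c' i' h3
    (e.le_down hS h' h3 hu hm.1) (e.le_down hS h' h3 hv hm.2.1)))

/-- the inclusion -/
noncomputable def Ext.emb (e : Ext P P' S) (hS : IsLowerSet S) (h : P.Good) (h' : P'.Good) :
    Emb h.cat h'.cat where
  ι f := ⟨f.1, e.up f.2⟩
  inj {a z} _ _ H := Subtype.ext (congrArg (Subtype.val : P'.H a z → Om) H)
  map_id _ := rfl
  map_comp f g := Subtype.ext (e.comp f.2 g.2).symm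
  fac f g k H := ⟨⟨f.1, e.fac hS h' f.2 g.2 (by
    have : P'.comp _ _ _ f.1 g.1 = k.1 := congrArg Subtype.val H
    rw [this]
    exact k.2)⟩, rfl⟩
  meet i u v H := (h'.isMeet_iff _ _ _).2 (e.isMeet hS h' i.2 u.2 v.2 ((h.isMeet_iff _ _ _).1 H))

end Pre

open Pre

/-- the poset `ℕ` -/
noncomputable def base : Pre := ⟨fun a z => {x | x = o ∧ a ≤ z}, fun _ _ _ _ _ => o⟩

theorem base_good : base.Good where
  mem hf hg := ⟨rfl, hf.2.trans hg.2⟩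
  bot _ := Iff.rfl
  id_comp hf := hf.1.symm
  comp_id hf := hf.1.symm
  assoc _ _ _ := rfl
  mono hf hg _ _ := hf.1.trans hg.1.symm
  st_comp _ _ := bot_le
  st_fac hf _ := by rw [hf.1]; exact bot_le
  meet {a b z u v} hu hv := ⟨min a b, o, ⟨rfl, (min_le_left _ _).trans hu.2⟩,
    ⟨⟨o, ⟨rfl, min_le_left _ _⟩, rfl⟩, ⟨o, ⟨rfl, min_le_right _ _⟩, rfl⟩,
      fun _ _ hj ⟨_, h1, _⟩ ⟨_, h2, _⟩ => ⟨o, ⟨rfl, le_min h1.2 h2.2⟩, hj.1.symm⟩⟩, bot_le⟩
  small a z := small_subset (s := {o}) fun _ hx => hx.1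

/-- the union of a chain -/
noncomputable def glue (S : Set W1) (A : W1 → Pre) : Pre :=
  ⟨fun a z => {x | x.1 ∈ S ∧ x ∈ (A x.1).H a z},
    fun a b c f g => (A (max f.1 g.1)).comp a b c f g⟩

section glue
variable {S : Set W1} {A : W1 → Pre}

theorem glue_ext (hS : IsLowerSet S) (hE : ∀ β ∈ S, ∀ γ ≤ β, Ext (A γ) (A β) (Iic γ)) {β : W1}
    (hβ : β ∈ S) : Ext (A β) (glue S A) (Iic β) where
  mem {a z x} := by
    constructor
    · intro h
      have h1 : x.1 ≤ β := ((hE β hβ β le_rfl).mem.1 h).2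
      exact ⟨⟨hS h1 hβ, (hE β hβ _ h1).mem.2 ⟨h, mem_Iic.2 le_rfl⟩⟩, h1⟩
    · rintro ⟨⟨-, h1⟩, h2⟩
      exact (hE β hβ _ h2).up h1
  comp {a b c f g} hf hg := by
    have h1 : f.1 ≤ β := ((hE β hβ β le_rfl).mem.1 hf).2
    have h2 : g.1 ≤ β := ((hE β hβ β le_rfl).mem.1 hg).2
    have e := hE β hβ _ (max_le h1 h2)
    exact (e.comp (e.mem.2 ⟨hf, mem_Iic.2 (le_max_left _ _)⟩)
      (e.mem.2 ⟨hg, mem_Iic.2 (le_max_right _ _)⟩)).symm

theorem glue_good (hS : IsLowerSet S) (h0 : ⊥ ∈ S) (hG : ∀ β ∈ S, (A β).Good)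
    (hE : ∀ β ∈ S, ∀ γ ≤ β, Ext (A γ) (A β) (Iic γ)) : (glue S A).Good := by
  have E := fun β hβ => glue_ext hS hE (β := β) hβ
  have key : ∀ {a b c d a' b' : ℕ} {f g k : Om}, f ∈ (glue S A).H a b → g ∈ (glue S A).H c d →
      k ∈ (glue S A).H a' b' → ∃ β ∈ S, f ∈ (A β).H a b ∧ g ∈ (A β).H c d ∧ k ∈ (A β).H a' b' ∧
        β = max f.1 (max g.1 k.1) := fun {a b c d a' b' f g k} hf hg hk => by
    have hβ : max f.1 (max g.1 k.1) ∈ S := low hS le_rfl hf.1 (low hS le_rfl hg.1 hk.1)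
    exact ⟨_, hβ, (E _ hβ).mem.2 ⟨hf, mem_Iic.2 (le_max_left _ _)⟩,
      (E _ hβ).mem.2 ⟨hg, mem_Iic.2 (le_max_of_le_right (le_max_left _ _))⟩,
      (E _ hβ).mem.2 ⟨hk, mem_Iic.2 (le_max_of_le_right (le_max_right _ _))⟩, rfl⟩
  refine ⟨fun hf hg => ?_, fun {a z x} hx => ?_, fun hf => ?_, fun hf => ?_, fun hf hg hk => ?_,
    fun hf hg hk => ?_, fun hf hg => ?_, fun hf hg => ?_, fun {a b z u v} hu hv => ?_,
    fun a z => ?_⟩
  · obtain ⟨β, hβ, hf, hg, -⟩ := key hf hg hg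
    rw [(E β hβ).comp hf hg]
    exact (E β hβ).up ((hG β hβ).mem hf hg)
  · rw [← (hG ⊥ h0).bot hx, (E ⊥ h0).mem]
    exact ⟨fun h => ⟨h, hx.le⟩, fun h => h.1⟩
  · obtain ⟨β, hβ, hf, -⟩ := key hf hf hf
    rw [(E β hβ).comp ((hG β hβ).o_mem le_rfl) hf, (hG β hβ).id_comp hf]
  · obtain ⟨β, hβ, hf, -⟩ := key hf hf hf
    rw [(E β hβ).comp hf ((hG β hβ).o_mem le_rfl), (hG β hβ).comp_id hf]
  · obtain ⟨β, hβ, hf, hg, hk, -⟩ := key hf hg hk
    rw [(E β hβ).comp hf hg, (E β hβ).comp hg hk, (E β hβ).comp ((hG β hβ).mem hf hg) hk,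
      (E β hβ).comp hf ((hG β hβ).mem hg hk), (hG β hβ).assoc hf hg hk]
  · obtain ⟨β, hβ, hf, hg, hk, -⟩ := key hf hg hk
    rw [(E β hβ).comp hf hk, (E β hβ).comp hg hk]
    exact (hG β hβ).mono hf hg hk
  · obtain ⟨β, hβ, hf, hg, -⟩ := key hf hg hg
    rw [(E β hβ).comp hf hg]
    exact (hG β hβ).st_comp hf hg
  · obtain ⟨β, hβ, hf, hg, -⟩ := key hf hg hg
    rw [(E β hβ).comp hf hg]
    exact (hG β hβ).st_fac hf hg
  · obtain ⟨β, hβ, hu', hv', -, e⟩ := key hu hv hv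
    obtain ⟨c, i, hi, hm, hs⟩ := (hG β hβ).meet hu' hv'
    refine ⟨c, i, (E β hβ).up hi, ⟨(E β hβ).le_up hu' hm.1, (E β hβ).le_up hv' hm.2.1, ?_⟩, hs⟩
    rintro d j - ⟨g, hg, rfl⟩ ⟨g', hg', e'⟩
    obtain ⟨β₀, hβ₀, hg, hg', -⟩ := key hg hg' hg'
    have hγ : max β β₀ ∈ S := low hS le_rfl hβ hβ₀
    have e1 := hE _ hγ _ (le_max_left β β₀)
    have e2 := hE _ hγ _ (le_max_right β β₀)
    rw [(E _ hγ).comp (e2.up hg) (e1.up hu')] at e' ⊢
    rw [(E _ hγ).comp (e2.up hg') (e1.up hv')] at e'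
    exact (E _ hγ).le_up (e1.up hi) ((e1.isMeet (isLowerSet_Iic _) (hG _ hγ) hi hu' hv' hm).2.2 d _
      ((hG _ hγ).mem (e2.up hg) (e1.up hu')) ⟨g, e2.up hg, rfl⟩ ⟨g', e2.up hg', e'⟩)
  · have := fun β : S => (hG β β.2).small a z
    exact small_subset (s := ⋃ β : S, (A β).H a z) fun x hx => mem_iUnion.2 ⟨⟨x.1, hx.1⟩, hx.2⟩

end glue

section trans
variable (D : MCat.{1}) (φ : ∀ {a z : ℕ}, D.Hom a z → Om)

/-- transport of a category along an injection into `Om` -/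
noncomputable def trans : Pre :=
  ⟨fun a z => range (φ : D.Hom a z → Om), fun a b c x y =>
    Function.extend (Prod.map (φ : D.Hom a b → Om) (φ : D.Hom b c → Om))
      (fun p => φ (D.comp p.1 p.2)) (fun _ => o) (x, y)⟩

variable {D φ} (hφ : ∀ a z, Function.Injective (φ : D.Hom a z → Om))
include hφ

theorem trans_comp {a b c : ℕ} (f : D.Hom a b) (g : D.Hom b c) :
    (trans D φ).comp a b c (φ f) (φ g) = φ (D.comp f g) :=
  ((hφ a b).prodMap (hφ b c)).extend_apply (fun p => φ (D.comp p.1 p.2)) (fun _ => o) (f, g)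

theorem trans_le {a b z : ℕ} (u : D.Hom a z) (v : D.Hom b z) :
    (trans D φ).Le a b z (φ u) (φ v) ↔ D.Le u v := by
  constructor
  · rintro ⟨_, ⟨g, rfl⟩, e⟩
    rw [trans_comp hφ] at e
    exact ⟨g, hφ _ _ e⟩
  · rintro ⟨g, rfl⟩
    exact ⟨_, ⟨g, rfl⟩, trans_comp hφ _ _⟩

theorem trans_isMeet {a b c z : ℕ} {i : D.Hom c z} {u : D.Hom a z} {v : D.Hom b z}
    (h : D.IsMeet i u v) : (trans D φ).IsMeet a b c z (φ i) (φ u) (φ v) := by
  refine ⟨(trans_le hφ _ _).2 h.1, (trans_le hφ _ _).2 h.2.1, ?_⟩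
  rintro d _ ⟨j, rfl⟩ h1 h2
  exact (trans_le hφ _ _).2 (h.2.2 j ((trans_le hφ _ _).1 h1) ((trans_le hφ _ _).1 h2))

theorem trans_good (hid : ∀ a, φ (D.id a) = o)
    (hbot : ∀ {a z} {x : Om}, x.1 = ⊥ → (x ∈ range (φ : D.Hom a z → Om) ↔ x = o ∧ a ≤ z))
    (h1 : ∀ {a b c : ℕ} (f : D.Hom a b) (g : D.Hom b c), (φ (D.comp f g)).1 ≤ max (φ f).1 (φ g).1)
    (h2 : ∀ {a b c : ℕ} (f : D.Hom a b) (g : D.Hom b c), (φ f).1 ≤ max (φ g).1 (φ (D.comp f g)).1)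
    (h3 : ∀ {a b z : ℕ} (u : D.Hom a z) (v : D.Hom b z),
      ∃ (c : ℕ) (i : D.Hom c z), D.IsMeet i u v ∧ (φ i).1 ≤ max (φ u).1 (φ v).1)
    (h4 : ∀ a z, Small.{0} (D.Hom a z)) : (trans D φ).Good where
  mem := by
    rintro a b c _ _ ⟨f, rfl⟩ ⟨g, rfl⟩
    exact ⟨_, (trans_comp hφ f g).symm⟩
  bot := hbot
  id_comp := by
    rintro a b _ ⟨f, rfl⟩
    rw [← hid a, trans_comp hφ, D.id_comp]
  comp_id := by
    rintro a b _ ⟨f, rfl⟩
    rw [← hid b, trans_comp hφ, D.comp_id]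
  assoc := by
    rintro a b c d _ _ _ ⟨f, rfl⟩ ⟨g, rfl⟩ ⟨k, rfl⟩
    simp only [trans_comp hφ, D.assoc]
  mono := by
    rintro a b c _ _ _ ⟨f, rfl⟩ ⟨g, rfl⟩ ⟨k, rfl⟩ e
    rw [trans_comp hφ, trans_comp hφ] at e
    rw [D.mono _ _ _ (hφ _ _ e)]
  st_comp := by
    rintro a b c _ _ ⟨f, rfl⟩ ⟨g, rfl⟩
    rw [trans_comp hφ]
    exact h1 f g
  st_fac := by
    rintro a b c _ _ ⟨f, rfl⟩ ⟨g, rfl⟩
    rw [trans_comp hφ]
    exact h2 f g
  meet := by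
    rintro a b z _ _ ⟨u, rfl⟩ ⟨v, rfl⟩
    obtain ⟨c, i, hm, hs⟩ := h3 u v
    exact ⟨c, _, ⟨i, rfl⟩, trans_isMeet hφ hm, hs⟩
  small a z := by
    have := h4 a z
    exact small_range _

/-- the isomorphism onto the transported category -/
noncomputable def transEmb (hid : ∀ a, φ (D.id a) = o) (h : (trans D φ).Good) : Emb D h.cat where
  ι f := ⟨φ f, f, rfl⟩
  inj _ _ H := hφ _ _ (congrArg Subtype.val H)
  map_id a := Subtype.ext (hid a)
  map_comp f g := Subtype.ext (trans_comp hφ f g).symm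
  fac f _ _ _ := f.2.imp fun _ e => Subtype.ext e
  meet _ _ _ H := (h.isMeet_iff _ _ _).2 (trans_isMeet hφ H)

end trans

theorem exists_code (X : Type 1) [Small.{0} X] : ∃ c : X → Ordinal.{0}, Function.Injective c :=
  ⟨fun x => Ordinal.typein WellOrderingRel (equivShrink X x),
    (Ordinal.typein_injective _).comp (equivShrink X).injective⟩

theorem step {P : Pre} (h : P.Good) {η : W1} (hη : η ≠ ⊥) (hs : ∀ {a z x}, x ∈ P.H a z → x.1 < η) :
    ∃ (P' : Pre) (h' : P'.Good), (∀ {a z x}, x ∈ P'.H a z → x.1 ≤ η) ∧ Ext P P' (Iio η) ∧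
      StepOK h'.cat (fun _ _ f => f.1.1 < η) (fun _ _ _ => True) := by
  classical
  obtain ⟨D, j, hsm, hok⟩ := exists_step h.cat h.small
  choose code hcode using fun a z => @exists_code (D.Hom a z) (hsm a z)
  let φ : ∀ {a z : ℕ}, D.Hom a z → Om := fun {a z} q =>
    if H : ∃ g, j.ι g = q then H.choose.1 else (η, code a z q)
  have old : ∀ {a z : ℕ} (g : h.cat.Hom a z), φ (j.ι g) = g.1 := fun g => by
    have H : ∃ g', j.ι g' = j.ι g := ⟨g, rfl⟩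
    simp only [φ, dif_pos H]
    rw [j.inj _ _ H.choose_spec]
  have cases : ∀ {a z : ℕ} (q : D.Hom a z), (∃ g, j.ι g = q) ∨ φ q = (η, code a z q) := fun q => by
    by_cases H : ∃ g, j.ι g = q
    · exact Or.inl H
    · exact Or.inr (dif_neg H)
  have hle : ∀ {a z : ℕ} (q : D.Hom a z), (φ q).1 ≤ η := fun q => by
    rcases cases q with ⟨g, rfl⟩ | H
    · rw [old]; exact (hs g.2).le
    · rw [H]
  have hlt : ∀ {a z : ℕ} (q : D.Hom a z), (φ q).1 < η ↔ ∃ g, j.ι g = q := fun q => by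
    refine ⟨fun H => (cases q).resolve_right fun e => ?_, ?_⟩
    · rw [e] at H; exact lt_irrefl _ H
    · rintro ⟨g, rfl⟩
      rw [old]; exact hs g.2
  have hφ : ∀ a z, Function.Injective (φ : D.Hom a z → Om) := fun a z q q' e => by
    rcases cases q with ⟨g, rfl⟩ | H
    · obtain ⟨g', rfl⟩ := (hlt q').1 (e ▸ (hlt _).2 ⟨g, rfl⟩)
      rw [old, old] at e
      rw [Subtype.ext e]
    · rcases cases q' with ⟨g', rfl⟩ | H'
      · have := (hlt _).2 ⟨g', rfl⟩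
        rw [← e, H] at this
        exact absurd this (lt_irrefl _)
      · rw [H, H'] at e
        exact hcode a z (congrArg Prod.snd e)
  have hmem : ∀ {a z : ℕ} {x : Om}, x ∈ P.H a z ↔ x ∈ range (φ : D.Hom a z → Om) ∧ x.1 < η := by
    refine ⟨fun H => ⟨⟨j.ι ⟨_, H⟩, old _⟩, hs H⟩, ?_⟩
    rintro ⟨⟨q, rfl⟩, H⟩
    obtain ⟨g, rfl⟩ := (hlt q).1 H
    rw [old]; exact g.2
  have hid : ∀ a, φ (D.id a) = o := fun a => by rw [← j.map_id, old]; rfl
  have hG : (trans D φ).Good := by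
    refine trans_good hφ hid (fun hx => ?_) (fun f g => ?_) (fun f g => ?_) (fun u v => ?_) hsm
    · rw [← h.bot hx, hmem, hx, and_iff_left (bot_lt_iff_ne_bot.2 hη)]
    · rcases cases f with ⟨f, rfl⟩ | H
      · rcases cases g with ⟨g, rfl⟩ | H
        · rw [← j.map_comp, old, old, old]
          exact h.st_comp f.2 g.2
        · rw [H]; exact le_max_of_le_right (hle _)
      · rw [H]; exact le_max_of_le_left (hle _)
    · rcases cases g with ⟨g, rfl⟩ | H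
      · rcases cases (D.comp f (j.ι g)) with ⟨k, e⟩ | H
        · obtain ⟨f, rfl⟩ := j.fac f g k e.symm
          rw [← j.map_comp, old, old, old]
          exact h.st_fac f.2 g.2
        · rw [H]; exact le_max_of_le_right (hle _)
      · rw [H]; exact le_max_of_le_left (hle _)
    · obtain ⟨c, i, hi⟩ := MCat.exists_isMeet u v
      rcases cases u with ⟨u, rfl⟩ | H
      · rcases cases v with ⟨v, rfl⟩ | H
        · obtain ⟨c, i, hi, hm, hs⟩ := h.meet u.2 v.2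
          refine ⟨c, j.ι ⟨i, hi⟩, j.meet _ _ _ ((h.isMeet_iff _ _ _).2 hm), ?_⟩
          rw [old u, old v]
          exact (congrArg Prod.fst (old ⟨i, hi⟩)).trans_le hs
        · exact ⟨c, i, hi, by rw [H]; exact le_max_of_le_right (hle _)⟩
      · exact ⟨c, i, hi, by rw [H]; exact le_max_of_le_left (hle _)⟩
  refine ⟨trans D φ, hG, ?_, ⟨hmem, fun {a b c f g} hf hg => ?_⟩, ?_⟩
  · rintro a z _ ⟨q, rfl⟩
    exact hle q
  · have : ∀ (f : h.cat.Hom a b) (g : h.cat.Hom b c),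
        (trans D φ).comp a b c f.1 g.1 = (h.cat.comp f g).1 := fun f g => by
      have := trans_comp hφ (j.ι f) (j.ι g)
      rwa [← j.map_comp, old, old, old] at this
    exact this ⟨f, hf⟩ ⟨g, hg⟩
  · refine StepOK.transfer (transEmb hφ hid hG) j.rng hok _ _ (fun f => ?_) fun f => ?_
    · obtain ⟨_, q, rfl⟩ := f
      refine (hlt q).trans ⟨fun H => ⟨q, H, rfl⟩, ?_⟩
      rintro ⟨q', H, e⟩
      rwa [← hφ _ _ (congrArg Subtype.val e)]
    · exact iff_of_true trivial (f.2.imp fun _ e => Subtype.ext e)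

theorem exists_chain : ∃ A : W1 → Pre, ∀ α, ∃ h : (A α).Good,
    (∀ {a z x}, x ∈ (A α).H a z → x.1 ≤ α) ∧ (∀ β < α, Ext (A β) (A α) (Iic β)) ∧
      (α ≠ ⊥ → StepOK h.cat (fun _ _ f => f.1.1 < α) (fun _ _ _ => True)) := by
  have : Nonempty Pre := ⟨base⟩
  refine W1.exists_seq (A := Pre) (fun α A (P : Pre) => ∃ h : P.Good, (∀ {a z x}, x ∈ P.H a z → x.1 ≤ α) ∧
    (∀ β < α, Ext (A β) P (Iic β)) ∧
      (α ≠ ⊥ → StepOK h.cat (fun _ _ f => f.1.1 < α) (fun _ _ _ => True))) ?_ ?_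
  · rintro α f g P e ⟨h, h1, h2, h3⟩
    exact ⟨h, h1, fun β hβ => e β hβ ▸ h2 β hβ, h3⟩
  · intro α A ih
    by_cases hα : α = ⊥
    · subst hα
      exact ⟨base, base_good, fun hx => by rw [hx.1]; exact le_rfl,
        fun β hβ => absurd hβ not_lt_bot, fun h => absurd rfl h⟩
    have hE : ∀ β ∈ Iio α, ∀ γ ≤ β, Ext (A γ) (A β) (Iic γ) := fun β hβ γ hγ => by
      obtain ⟨-, h1, h2, -⟩ := ih β hβ
      rcases hγ.eq_or_lt with rfl | hγ
      · exact ⟨⟨fun h => ⟨h, h1 h⟩, fun h => h.1⟩, fun _ _ => rfl⟩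
      · exact h2 γ hγ
    have hG := glue_good (isLowerSet_Iio α) (bot_lt_iff_ne_bot.2 hα) (fun β hβ => (ih β hβ).1) hE
    obtain ⟨P, h, h1, h2, h3⟩ := step hG hα fun hx => hx.1
    refine ⟨P, h, h1, fun β hβ => ?_, fun _ => h3⟩
    have e := glue_ext (isLowerSet_Iio α) hE hβ
    refine ⟨?_, fun hf hg => (h2.comp (e.up hf) (e.up hg)).trans (e.comp hf hg)⟩
    intro a z x
    rw [e.mem, h2.mem, and_assoc]
    exact and_congr_right fun _ => and_iff_right_of_imp fun hx => lt_of_le_of_lt hx hβ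

end Chain

open Chain Chain.Pre in
theorem exists_staged : ∃ C : MCat.{1}, Nonempty (Staged C) := by
  obtain ⟨A, hA⟩ := exists_chain
  have hE : ∀ β ∈ (Set.univ : Set W1), ∀ γ ≤ β, Ext (A γ) (A β) (Set.Iic γ) := fun β _ γ hγ => by
    obtain ⟨-, h1, h2, -⟩ := hA β
    rcases hγ.eq_or_lt with rfl | hγ
    · exact ⟨⟨fun h => ⟨h, h1 h⟩, fun h => h.1⟩, fun _ _ => rfl⟩
    · exact h2 γ hγ
  have hG := glue_good isLowerSet_univ trivial (fun β _ => (hA β).1) hE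
  refine ⟨hG.cat, ⟨⟨fun f => f.1.1, fun _ => rfl, fun f g => hG.st_comp f.2 g.2,
    fun f g => hG.st_fac f.2 g.2, fun u v => ?_, fun f g hf hg => ?_,
    fun n => ⟨o, hG.o_mem (Nat.le_succ n)⟩, ?_, fun ζ hζ => ?_⟩⟩⟩
  · obtain ⟨c, i, hi, hm, hs⟩ := hG.meet u.2 v.2
    exact ⟨c, ⟨i, hi⟩, (hG.isMeet_iff _ _ _).2 hm, hs⟩
  · exact Subtype.ext (((hG.bot hf).1 f.2).1.trans ((hG.bot hg).1 g.2).1.symm)
  · rintro n ⟨g, e⟩
    have h1 := hG.st_fac g.2 (hG.o_mem (Nat.le_succ n))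
    have h2 : (glue Set.univ A).comp _ _ _ g.1 o = o := congrArg Subtype.val e
    rw [h2] at h1
    exact Nat.not_succ_le_self n ((hG.bot (le_bot_iff.1 (h1.trans_eq (max_self _)))).1 g.2).2
  · obtain ⟨h, -, -, h3⟩ := hA ζ
    have e := glue_ext isLowerSet_univ hE (β := ζ) trivial
    refine StepOK.transfer (e.emb (isLowerSet_Iic ζ) h hG) _ (h3 hζ) _ _ (fun f => ?_) fun f => ?_
    · refine ⟨fun H => ⟨⟨f.1, e.mem.2 ⟨f.2, H.le⟩⟩, H, rfl⟩, ?_⟩
      rintro ⟨g, H, rfl⟩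
      exact H
    · refine ⟨fun H => ⟨⟨f.1, e.mem.2 ⟨f.2, H⟩⟩, rfl⟩, ?_⟩
      rintro ⟨g, rfl⟩
      exact (e.mem.1 g.2).2

end Crest.Agent.R296
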