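import Crest.Agent.R296.Pairs

/-!
# Forcing over a small category: canonical names, ordinals.
-/

set_option autoImplicit false

namespace Crest.Agent.R296

open CategoryTheory Elt

universe u

variable {C : Type u} [SmallCategory C] {X Y W : C}

/-- The canonical name of a ground set. -/
def chk : PSet.{u} → (X : C) → Name X
  | ⟨ι, A⟩, X => Name.mk X ι (fun _ => X) (fun _ => 𝟙 X) (fun _ => X) (fun _ => 𝟙 X)
      (fun i => chk (A i) X)

/-- The canonical element of a ground set. -/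
def check (X : C) (x : PSet.{u}) : Elt X := ⟨X, chk x X, 𝟙 X⟩

theorem ch_check (h : Y ⟶ X) (x : PSet.{u}) (c : Elt Y) :
    Ch ((check X x).res h) c ↔ ∃ i : x.Type, c = (check X (x.Func i)).res h := by
  obtain ⟨ι, A⟩ := x
  constructor
  · rintro ⟨i, s, hs, rfl⟩
    have hs' : @CategoryStruct.comp C _ Y X X s (𝟙 X) = h ≫ 𝟙 X := hs
    exact ⟨i, by simp only [check, res]; rw [← hs']; rfl⟩
  · rintro ⟨i, rfl⟩
    exact ⟨i, h, rfl, rfl⟩

theorem feq_check_iff {X' : C} (x x' : PSet.{u}) (h : Y ⟶ X) (h' : Y ⟶ X') :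
    FEq Y ((check X x).res h) ((check X' x').res h') ↔ PSet.Equiv x x' := by
  induction x generalizing x' Y with
  | mk ι A ih =>
    rw [feq_iff', PSet.equiv_iff]
    simp only [res_res, ch_check]
    constructor
    · rintro ⟨h1, h2⟩
      constructor
      · intro i
        obtain ⟨V, k, d, ⟨j, rfl⟩, he⟩ := h1 Y (𝟙 Y) _ ⟨i, rfl⟩
        rw [res_res] at he
        exact ⟨j, (ih i _ _ _).1 he⟩
      · intro j
        obtain ⟨V, k, d, ⟨i, rfl⟩, he⟩ := h2 Y (𝟙 Y) _ ⟨j, rfl⟩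
        rw [res_res] at he
        exact ⟨i, (ih i _ _ _).1 he⟩
    · rintro ⟨h1, h2⟩
      constructor
      · rintro W k c ⟨i, rfl⟩
        obtain ⟨j, hj⟩ := h1 i
        refine ⟨W, 𝟙 W, _, ⟨j, rfl⟩, ?_⟩
        rw [res_res]
        exact (ih i _ _ _).2 hj
      · rintro W k c ⟨j, rfl⟩
        obtain ⟨i, hi⟩ := h2 j
        refine ⟨W, 𝟙 W, _, ⟨i, rfl⟩, ?_⟩
        rw [res_res]
        exact (ih i _ _ _).2 hi

/-- The canonical element of an ordinal. -/
noncomputable def cord (X : C) (o : Ordinal.{u}) : Elt X := check X o.toPSet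

theorem toPSet_equiv_iff {o o' : Ordinal.{u}} : PSet.Equiv o.toPSet o'.toPSet ↔ o = o' := by
  constructor
  · intro h
    apply Ordinal.toZFSet_injective
    exact ZFSet.sound h
  · rintro rfl; exact PSet.Equiv.rfl

theorem feq_cord_iff' {X' : C} (o o' : Ordinal.{u}) (h : Y ⟶ X) (h' : Y ⟶ X') :
    FEq Y ((cord X o).res h) ((cord X' o').res h') ↔ o = o' :=
  (feq_check_iff _ _ h h').trans toPSet_equiv_iff

theorem cord_res (o : Ordinal.{u}) (h : Y ⟶ X) : FEq Y ((cord X o).res h) (cord Y o) := by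
  simpa using (feq_cord_iff' o o h (𝟙 Y)).2 rfl

theorem feq_cord_iff (o o' : Ordinal.{u}) : FEq X (cord X o) (cord X o') ↔ o = o' := by
  simpa using feq_cord_iff' o o' (𝟙 X) (𝟙 X)

theorem fmem_cord (c : Elt X) (o : Ordinal.{u}) : FMem X c (cord X o) ↔
    Dense X (fun V k => ∃ a < o, FEq V (c.res k) (cord V a)) := by
  rw [fmem_iff_dense]
  constructor
  · intro H
    refine H.mono ?_
    rintro V k ⟨d, hd, he⟩
    obtain ⟨i, rfl⟩ := (ch_check k _ _).1 hd
    obtain ⟨a, ha, hi⟩ := Ordinal.mem_toPSet_iff.1 (PSet.func_mem o.toPSet i)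
    refine ⟨a, ha, he.trans ?_⟩
    simpa [cord] using (feq_check_iff _ _ k (𝟙 V)).2 hi
  · intro H
    refine H.mono ?_
    rintro V k ⟨a, ha, he⟩
    obtain ⟨i, hi⟩ := PSet.mem_def.1 (Ordinal.mem_toPSet_iff.2 ⟨a, ha, PSet.Equiv.rfl⟩)
    refine ⟨_, (ch_check k _ _).2 ⟨i, rfl⟩, he.trans ?_⟩
    simpa [cord] using (feq_check_iff _ _ (𝟙 V) k).2 hi

theorem fmem_cord_cord (a o : Ordinal.{u}) : FMem X (cord X a) (cord X o) ↔ a < o := by
  rw [fmem_cord]
  constructor
  · intro H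
    obtain ⟨V, k, b, hb, he⟩ := H.exists
    rwa [(feq_cord_iff _ _).1 ((cord_res a k).symm.trans he)]
  · intro h
    exact Dense.of_forall fun V k => ⟨a, h, cord_res a k⟩

/-- `a` is forced to be transitive. -/
def IsTr (X : C) (a : Elt X) : Prop :=
  ∀ (Y : C) (h : Y ⟶ X) (b c : Elt Y), FMem Y c b → FMem Y b (a.res h) → FMem Y c (a.res h)

/-- `a` is forced to be an ordinal. -/
def IsOrd (X : C) (a : Elt X) : Prop :=
  IsTr X a ∧ ∀ (Y : C) (h : Y ⟶ X) (b : Elt Y), FMem Y b (a.res h) → IsTr Y b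

theorem IsOrd.mem {a : Elt X} (H : IsOrd X a) (h : Y ⟶ X) {b : Elt Y} (hb : FMem Y b (a.res h)) :
    IsOrd Y b := by
  refine ⟨H.2 Y h b hb, fun W k c hc => H.2 W (k ≫ h) c ?_⟩
  exact H.1 W (k ≫ h) _ c hc (by simpa using hb.res k)

theorem IsOrd.res {a : Elt X} (H : IsOrd X a) (h : Y ⟶ X) : IsOrd Y (a.res h) := by
  refine ⟨fun W k b c h1 h2 => ?_, fun W k b hb => H.2 W (k ≫ h) b (by simpa using hb)⟩
  simpa using H.1 W (k ≫ h) b c h1 (by simpa using h2)

/-- A forced ordinal is densely a ground ordinal. -/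
theorem IsOrd.exists_cord {a : Elt X} (H : IsOrd X a) :
    ∃ (V : C) (k : V ⟶ X) (o : Ordinal.{u}), FEq V (a.res k) (cord V o) := by
  induction X, a using Elt.induction with
  | step X a ih =>
    have hmem : ∀ (Y : C) (h : Y ⟶ X) (b : Elt Y), FMem Y b (a.res h) →
        ∃ (V : C) (k : V ⟶ Y) (o : Ordinal.{u}), FEq V (b.res k) (cord V o) := by
      intro Y h b hb
      obtain ⟨V, k, d, hd, he⟩ := hb.exists
      rw [res_res] at hd
      obtain ⟨U, l, o, ho⟩ := ih V _ d hd (H.mem _ hd.fmem)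
      exact ⟨U, l ≫ k, o, FEq.trans (by simpa using he.res l) ho⟩
    -- the ordinals that may be members are bounded
    have hbd : ∃ o : Ordinal.{u}, ∀ (Y : C) (h : Y ⟶ X), ¬ FMem Y (cord Y o) (a.res h) := by
      classical
      let g : Occ a → Ordinal.{u} := fun p =>
        if hp : ∃ o, FEq p.Y (cord p.Y o) p.c then hp.choose else 0
      obtain ⟨b, hb⟩ := Ordinal.bddAbove_of_small (s := Set.range g)
      refine ⟨b + 1, fun Y h hm => ?_⟩
      obtain ⟨p, k, -, he⟩ := hm.exists_occ'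
      have he' := (cord_res _ k).symm.trans he
      have hp : ∃ o, FEq p.Y (cord p.Y o) p.c := ⟨_, he'⟩
      have h1 : g p = b + 1 := by
        simp only [g, dif_pos hp]
        exact (feq_cord_iff _ _).1 (hp.choose_spec.trans he'.symm)
      have h2 : g p ≤ b := hb ⟨p, rfl⟩
      rw [h1] at h2
      exact absurd h2 (not_le.mpr (lt_add_one b))
    obtain ⟨o, ⟨V, k, hV⟩, hmin⟩ := (wellFounded_lt (α := Ordinal.{u})).has_min
      {o | ∃ (V : C) (k : V ⟶ X), ∀ (U : C) (l : U ⟶ V), ¬ FMem U (cord U o) (a.res (l ≫ k))}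
      (by obtain ⟨o, ho⟩ := hbd; exact ⟨o, X, 𝟙 X, fun U l => ho U _⟩)
    have hlt : ∀ b < o, ∀ (U : C) (l : U ⟶ X), FMem U (cord U b) (a.res l) := by
      intro b hb U l
      apply FMem.of_dense
      intro U' l'
      by_contra hn
      push Not at hn
      refine hmin b ⟨U', l' ≫ l, fun U'' l'' hm => hn U'' l'' ?_⟩ hb
      simpa using hm.congr_left (cord_res b (l'' ≫ l')).symm
    refine ⟨V, k, o, FEq.ext fun U l c => ⟨fun hc => ?_, fun hc => ?_⟩⟩
    · refine FMem.congr_right ?_ (cord_res o l).symm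
      rw [fmem_cord]
      intro U' l'
      rw [res_res] at hc
      obtain ⟨U'', l'', b, hb⟩ := hmem U' (l' ≫ l ≫ k) (c.res l') (by simpa using hc.res l')
      refine ⟨U'', l'', b, ?_, by simpa using hb⟩
      have hbm : FMem U'' (cord U'' b) (a.res ((l'' ≫ l' ≫ l) ≫ k)) := by
        have := (hc.res (l'' ≫ l')).congr_left (by simpa using hb)
        simpa using this
      by_contra hn
      rcases (not_lt.mp hn).eq_or_lt with rfl | hlt'
      · exact hV _ _ hbm
      · exact hV _ _ (H.1 _ _ _ _ ((fmem_cord_cord _ _).2 hlt') hbm)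
    · have hc' := hc.congr_right (cord_res o l)
      rw [fmem_cord] at hc'
      refine FMem.of_dense (hc'.mono ?_)
      rintro U' l' ⟨b, hb, he⟩
      simpa using (hlt b hb U' (l' ≫ l ≫ k)).congr_left he.symm

end Crest.Agent.R296
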