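import Mathlib
import Crest.Prelude.Def_SetTheory

/-!
# Forcing over a small category: names, forced equality and membership.

`C` is a small category; an arrow `Y ⟶ X` means that `Y` is a later stage than `X`.
A name at `X` is a family of stages `Y i ⟶ X`, each with an element at `Y i`; an element at `X`
is a name at some `Z` together with an arrow `X ⟶ Z`.
-/

set_option autoImplicit false

namespace Crest.Agent.R296

open CategoryTheory

universe u

variable {C : Type u} [SmallCategory C]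

/-- Names over the small category `C`. -/
inductive Name : C → Type (u + 1)
  | mk (X : C) (ι : Type u) (Y : ι → C) (g : ∀ i, Y i ⟶ X) (Z : ι → C) (r : ∀ i, Y i ⟶ Z i)
      (τ : ∀ i, Name (Z i)) : Name X

namespace Name

def ι : {X : C} → Name X → Type u | _, mk _ ι _ _ _ _ _ => ι
def Y : {X : C} → (n : Name X) → n.ι → C | _, mk _ _ Y _ _ _ _ => Y
def g : {X : C} → (n : Name X) → (i : n.ι) → (n.Y i ⟶ X) | _, mk _ _ _ g _ _ _ => g
def Z : {X : C} → (n : Name X) → n.ι → C | _, mk _ _ _ _ Z _ _ => Z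
def r : {X : C} → (n : Name X) → (i : n.ι) → (n.Y i ⟶ n.Z i) | _, mk _ _ _ _ _ r _ => r
def τ : {X : C} → (n : Name X) → (i : n.ι) → Name (n.Z i) | _, mk _ _ _ _ _ _ τ => τ

/-- Forced equality of names. -/
def EqN : {A : C} → Name A → {B : C} → Name B → (X : C) → (X ⟶ A) → (X ⟶ B) → Prop
  | _, mk _ ι Y g _ r τ, _, n', X, f, f' =>
    (∀ (W : C) (h : W ⟶ X) (i : ι) (s : W ⟶ Y i), s ≫ g i = h ≫ f →
      ∃ (V : C) (k : V ⟶ W) (j : n'.ι) (s' : V ⟶ n'.Y j), s' ≫ n'.g j = k ≫ h ≫ f' ∧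
        EqN (τ i) (n'.τ j) V (k ≫ s ≫ r i) (s' ≫ n'.r j)) ∧
    (∀ (W : C) (h : W ⟶ X) (j : n'.ι) (s' : W ⟶ n'.Y j), s' ≫ n'.g j = h ≫ f' →
      ∃ (V : C) (k : V ⟶ W) (i : ι) (s : V ⟶ Y i), s ≫ g i = k ≫ h ≫ f ∧
        EqN (τ i) (n'.τ j) V (s ≫ r i) (k ≫ s' ≫ n'.r j))

end Name

/-- Elements at the stage `X`. -/
structure Elt (X : C) : Type (u + 1) where
  Z : C
  n : Name Z
  f : X ⟶ Z

namespace Elt

variable {X Y W : C}

/-- Restriction to a later stage. -/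
def res (a : Elt X) (h : Y ⟶ X) : Elt Y := ⟨a.Z, a.n, h ≫ a.f⟩

@[simp] theorem res_id (a : Elt X) : a.res (𝟙 X) = a := by simp [res]

@[simp] theorem res_res (a : Elt X) (h : Y ⟶ X) (k : W ⟶ Y) :
    (a.res h).res k = a.res (k ≫ h) := by simp [res]

/-- `c` is a child of `a` at the present stage. -/
def Ch (a c : Elt X) : Prop :=
  ∃ (i : a.n.ι) (s : X ⟶ a.n.Y i), s ≫ a.n.g i = a.f ∧ c = ⟨a.n.Z i, a.n.τ i, s ≫ a.n.r i⟩

theorem Ch.res {a c : Elt X} (hc : Ch a c) (h : Y ⟶ X) : Ch (a.res h) (c.res h) := by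
  obtain ⟨i, s, hs, rfl⟩ := hc
  exact ⟨i, h ≫ s, by simp [Elt.res, hs], by simp [Elt.res]⟩

/-- Induction along children. -/
theorem induction {P : ∀ X : C, Elt X → Prop}
    (step : ∀ (X : C) (a : Elt X), (∀ (Y : C) (h : Y ⟶ X) (c : Elt Y), Ch (a.res h) c → P Y c) →
      P X a) (X : C) (a : Elt X) : P X a := by
  obtain ⟨Z, n, f⟩ := a
  induction n generalizing X with
  | mk Z ι Y g Z' r τ ih =>
    apply step
    rintro W h c ⟨i, s, -, rfl⟩
    exact ih i W _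

/-- The element with the given family of children. -/
def mkE (X : C) (ι : Type u) (Y : ι → C) (g : ∀ i, Y i ⟶ X) (a : ∀ i, Elt (Y i)) : Elt X :=
  ⟨X, Name.mk X ι Y g (fun i => (a i).Z) (fun i => (a i).f) (fun i => (a i).n), 𝟙 X⟩

theorem ch_mkE {ι : Type u} {Y : ι → C} {g : ∀ i, Y i ⟶ X} {a : ∀ i, Elt (Y i)} (h : W ⟶ X)
    (c : Elt W) : Ch ((mkE X ι Y g a).res h) c ↔
      ∃ (i : ι) (s : W ⟶ Y i), s ≫ g i = h ∧ c = (a i).res s := by
  simp only [Ch, mkE, res, Category.comp_id]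
  rfl

/-- The small type of all occurrences of children of `a` at later stages. -/
structure Occ (a : Elt X) : Type u where
  Y : C
  h : Y ⟶ X
  i : a.n.ι
  s : Y ⟶ a.n.Y i
  hs : s ≫ a.n.g i = h ≫ a.f

/-- The child at an occurrence. -/
def Occ.c {a : Elt X} (o : Occ a) : Elt o.Y := ⟨a.n.Z o.i, a.n.τ o.i, o.s ≫ a.n.r o.i⟩

theorem Occ.ch {a : Elt X} (o : Occ a) : Ch (a.res o.h) o.c := ⟨o.i, o.s, o.hs, rfl⟩

theorem Ch.exists_occ {a : Elt X} {h : Y ⟶ X} {c : Elt Y} (hc : Ch (a.res h) c) :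
    ∃ (i : a.n.ι) (s : Y ⟶ a.n.Y i) (hs : s ≫ a.n.g i = h ≫ a.f),
      c = (⟨Y, h, i, s, hs⟩ : Occ a).c := by
  obtain ⟨i, s, hs, rfl⟩ := hc
  exact ⟨i, s, hs, rfl⟩

/-- Restriction of an occurrence. -/
def Occ.res {a : Elt X} (o : Occ a) (k : W ⟶ o.Y) : Occ a :=
  ⟨W, k ≫ o.h, o.i, k ≫ o.s, by simp [o.hs]⟩

theorem Occ.res_c {a : Elt X} (o : Occ a) (k : W ⟶ o.Y) : (o.res k).c = o.c.res k := by
  simp [Occ.res, Occ.c, Elt.res]

end Elt

open Elt

/-- Forced equality. -/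
def FEq (X : C) (a b : Elt X) : Prop := Name.EqN a.n b.n X a.f b.f

/-- Forced membership. -/
def FMem (X : C) (c b : Elt X) : Prop :=
  ∀ (W : C) (h : W ⟶ X), ∃ (V : C) (k : V ⟶ W) (d : Elt V),
    Ch (b.res (k ≫ h)) d ∧ FEq V (c.res (k ≫ h)) d

variable {X Y W : C}

theorem feq_iff' (a b : Elt X) : FEq X a b ↔
    (∀ (W : C) (h : W ⟶ X) (c : Elt W), Ch (a.res h) c → ∃ (V : C) (k : V ⟶ W) (d : Elt V),
      Ch (b.res (k ≫ h)) d ∧ FEq V (c.res k) d) ∧
    (∀ (W : C) (h : W ⟶ X) (d : Elt W), Ch (b.res h) d → ∃ (V : C) (k : V ⟶ W) (c : Elt V),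
      Ch (a.res (k ≫ h)) c ∧ FEq V c (d.res k)) := by
  obtain ⟨A, n, f⟩ := a
  obtain ⟨B, n', f'⟩ := b
  cases n with
  | mk _ ι Y g Z r τ =>
    unfold FEq
    simp only [Name.EqN]
    constructor
    · rintro ⟨h1, h2⟩
      constructor
      · rintro W h c ⟨i, s, hs, rfl⟩
        obtain ⟨V, k, j, s', hs', he⟩ := h1 W h i s hs
        exact ⟨V, k, _, ⟨j, s', by simpa [res] using hs', rfl⟩, he⟩
      · rintro W h d ⟨j, s', hs', rfl⟩
        obtain ⟨V, k, i, s, hs, he⟩ := h2 W h j s' hs'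
        exact ⟨V, k, _, ⟨i, s, hs.trans (by simp [res]), rfl⟩, he⟩
    · rintro ⟨h1, h2⟩
      constructor
      · intro W h i s hs
        obtain ⟨V, k, d, ⟨j, s', hs', rfl⟩, he⟩ := h1 W h _ ⟨i, s, hs, rfl⟩
        exact ⟨V, k, j, s', by simpa [res] using hs', he⟩
      · intro W h j s' hs'
        obtain ⟨V, k, c, ⟨i, s, hs, rfl⟩, he⟩ := h2 W h _ ⟨j, s', hs', rfl⟩
        exact ⟨V, k, i, s, hs.trans (by simp [res]), he⟩

theorem FEq.res {a b : Elt X} (e : FEq X a b) (h : Y ⟶ X) : FEq Y (a.res h) (b.res h) := by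
  rw [feq_iff'] at e ⊢
  constructor
  · intro W k c hc
    obtain ⟨V, l, d, hd, he⟩ := e.1 W (k ≫ h) c (by simpa using hc)
    exact ⟨V, l, d, by simpa using hd, he⟩
  · intro W k c hc
    obtain ⟨V, l, d, hd, he⟩ := e.2 W (k ≫ h) c (by simpa using hc)
    exact ⟨V, l, d, by simpa using hd, he⟩

theorem FEq.refl (X : C) (a : Elt X) : FEq X a a := by
  induction X, a using Elt.induction with
  | step X a ih =>
    rw [feq_iff']
    constructor
    · intro W h c hc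
      exact ⟨W, 𝟙 W, c, by simpa using hc, by simpa using ih W h c hc⟩
    · intro W h c hc
      exact ⟨W, 𝟙 W, c, by simpa using hc, by simpa using ih W h c hc⟩

theorem FEq.of_eq {a b : Elt X} (h : a = b) : FEq X a b := h ▸ FEq.refl X a

theorem FEq.symm {a b : Elt X} (e : FEq X a b) : FEq X b a := by
  induction X, a using Elt.induction with
  | step X a ih =>
    rw [feq_iff'] at e ⊢
    constructor
    · intro W h d hd
      obtain ⟨V, k, c, hc, he⟩ := e.2 W h d hd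
      exact ⟨V, k, c, hc, ih V _ c hc he⟩
    · intro W h c hc
      obtain ⟨V, k, d, hd, he⟩ := e.1 W h c hc
      exact ⟨V, k, d, hd, ih V _ _ (by simpa using hc.res k) he⟩

theorem FEq.trans {a b c : Elt X} (e : FEq X a b) (e' : FEq X b c) : FEq X a c := by
  induction X, a using Elt.induction with
  | step X a ih =>
    rw [feq_iff'] at e e' ⊢
    constructor
    · intro W h x hx
      obtain ⟨V, k, y, hy, h1⟩ := e.1 W h x hx
      obtain ⟨U, l, z, hz, h2⟩ := e'.1 V _ y hy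
      refine ⟨U, l ≫ k, z, by simpa using hz, ?_⟩
      exact ih U ((l ≫ k) ≫ h) _ (by simpa using hx.res (l ≫ k)) (by simpa using h1.res l) h2
    · intro W h z hz
      obtain ⟨V, k, y, hy, h2⟩ := e'.2 W h z hz
      obtain ⟨U, l, x, hx, h1⟩ := e.2 V _ y hy
      refine ⟨U, l ≫ k, x, by simpa using hx, ?_⟩
      exact ih U _ x hx h1 (by simpa using h2.res l)

/-- `P` holds densely below `X`. -/
def Dense (X : C) (P : ∀ V : C, (V ⟶ X) → Prop) : Prop :=
  ∀ (W : C) (h : W ⟶ X), ∃ (V : C) (k : V ⟶ W), P V (k ≫ h)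

theorem Dense.exists {P : ∀ V : C, (V ⟶ X) → Prop} (h : Dense X P) : ∃ V k, P V k := by
  obtain ⟨V, k, hk⟩ := h X (𝟙 X)
  exact ⟨V, _, hk⟩

theorem Dense.mono {P Q : ∀ V : C, (V ⟶ X) → Prop} (h : Dense X P)
    (hPQ : ∀ V k, P V k → Q V k) : Dense X Q := fun W l => by
  obtain ⟨V, k, hk⟩ := h W l
  exact ⟨V, k, hPQ _ _ hk⟩

theorem Dense.res {P : ∀ V : C, (V ⟶ X) → Prop} (h : Dense X P) (l : Y ⟶ X) :
    Dense Y (fun V k => P V (k ≫ l)) := fun W m => by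
  obtain ⟨V, k, hk⟩ := h W (m ≫ l)
  exact ⟨V, k, by simpa using hk⟩

theorem Dense.bind {P Q : ∀ V : C, (V ⟶ X) → Prop} (h : Dense X P)
    (hPQ : ∀ V k, P V k → ∃ (U : C) (l : U ⟶ V), Q U (l ≫ k)) : Dense X Q := fun W m => by
  obtain ⟨V, k, hk⟩ := h W m
  obtain ⟨U, l, hl⟩ := hPQ _ _ hk
  exact ⟨U, l ≫ k, by simpa using hl⟩

theorem FEq.of_dense {a b : Elt X} (h : Dense X (fun V k => FEq V (a.res k) (b.res k))) :
    FEq X a b := by
  rw [feq_iff']
  constructor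
  · intro W l c hc
    obtain ⟨V, k, e⟩ := h W l
    obtain ⟨U, m, d, hd, he⟩ := ((feq_iff' _ _).1 e).1 V (𝟙 V) (c.res k) (by simpa using hc.res k)
    exact ⟨U, m ≫ k, d, by simpa using hd, by simpa using he⟩
  · intro W l c hc
    obtain ⟨V, k, e⟩ := h W l
    obtain ⟨U, m, d, hd, he⟩ := ((feq_iff' _ _).1 e).2 V (𝟙 V) (c.res k) (by simpa using hc.res k)
    exact ⟨U, m ≫ k, d, by simpa using hd, by simpa using he⟩

theorem fmem_iff_dense (c b : Elt X) :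
    FMem X c b ↔ Dense X (fun V k => ∃ d, Ch (b.res k) d ∧ FEq V (c.res k) d) := Iff.rfl

theorem FMem.res {c b : Elt X} (e : FMem X c b) (h : Y ⟶ X) : FMem Y (c.res h) (b.res h) := by
  intro W l
  obtain ⟨V, k, d, hd, he⟩ := e W (l ≫ h)
  exact ⟨V, k, d, by simpa using hd, by simpa using he⟩

theorem FMem.of_dense {c b : Elt X} (h : Dense X (fun V k => FMem V (c.res k) (b.res k))) :
    FMem X c b := by
  intro W l
  obtain ⟨V, k, e⟩ := h W l
  obtain ⟨U, m, d, hd, he⟩ := e V (𝟙 V)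
  exact ⟨U, m ≫ k, d, by simpa using hd, by simpa using he⟩

theorem Elt.Ch.fmem {b c : Elt X} (h : Ch b c) : FMem X c b := fun W l =>
  ⟨W, 𝟙 W, c.res l, by simpa using h.res l, by simpa using FEq.refl _ _⟩

theorem FMem.exists {c b : Elt X} (e : FMem X c b) :
    ∃ (V : C) (k : V ⟶ X) (d : Elt V), Ch (b.res k) d ∧ FEq V (c.res k) d := by
  obtain ⟨V, k, d, hd, he⟩ := e X (𝟙 X)
  exact ⟨V, k, d, by simpa using hd, by simpa using he⟩

theorem FMem.congr_left {c c' b : Elt X} (e : FMem X c b) (h : FEq X c c') : FMem X c' b := by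
  intro W l
  obtain ⟨V, k, d, hd, he⟩ := e W l
  exact ⟨V, k, d, hd, (h.res _).symm.trans he⟩

theorem FMem.congr_right {c b b' : Elt X} (e : FMem X c b) (h : FEq X b b') : FMem X c b' := by
  intro W l
  obtain ⟨V, k, d, hd, he⟩ := e W l
  obtain ⟨U, m, d', hd', he'⟩ := ((feq_iff' _ _).1 h).1 V _ d hd
  refine ⟨U, m ≫ k, d', by simpa using hd', ?_⟩
  exact FEq.trans (by simpa using he.res m) he'

/-- Extensionality, with children. -/
theorem FEq.ext_ch {a b : Elt X}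
    (h1 : ∀ (W : C) (h : W ⟶ X) (c : Elt W), Ch (a.res h) c → FMem W c (b.res h))
    (h2 : ∀ (W : C) (h : W ⟶ X) (c : Elt W), Ch (b.res h) c → FMem W c (a.res h)) :
    FEq X a b := by
  rw [feq_iff']
  constructor
  · intro W h c hc
    obtain ⟨V, k, d, hd, he⟩ := (h1 W h c hc).exists
    exact ⟨V, k, d, by simpa using hd, he⟩
  · intro W h c hc
    obtain ⟨V, k, d, hd, he⟩ := (h2 W h c hc).exists
    exact ⟨V, k, d, by simpa using hd, he.symm⟩

/-- Extensionality. -/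
theorem FEq.ext {a b : Elt X}
    (h : ∀ (W : C) (h : W ⟶ X) (c : Elt W), FMem W c (a.res h) ↔ FMem W c (b.res h)) :
    FEq X a b :=
  FEq.ext_ch (fun W l c hc => (h W l c).1 hc.fmem) (fun W l c hc => (h W l c).2 hc.fmem)

theorem fmem_mkE {ι : Type u} {Y : ι → C} {g : ∀ i, Y i ⟶ X} {a : ∀ i, Elt (Y i)} (h : W ⟶ X)
    (c : Elt W) : FMem W c ((mkE X ι Y g a).res h) ↔
      Dense W (fun V k => ∃ (i : ι) (s : V ⟶ Y i), s ≫ g i = k ≫ h ∧
        FEq V (c.res k) ((a i).res s)) := by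
  rw [fmem_iff_dense]
  constructor
  · intro H
    refine H.mono ?_
    rintro V k ⟨d, hd, he⟩
    rw [res_res, ch_mkE] at hd
    obtain ⟨i, s, hs, rfl⟩ := hd
    exact ⟨i, s, hs, he⟩
  · intro H
    refine H.mono ?_
    rintro V k ⟨i, s, hs, he⟩
    refine ⟨_, ?_, he⟩
    rw [res_res, ch_mkE]
    exact ⟨i, s, hs, rfl⟩

theorem fmem_mkE_of {ι : Type u} {Y : ι → C} {g : ∀ i, Y i ⟶ X} {a : ∀ i, Elt (Y i)} {h : W ⟶ X}
    (i : ι) (s : W ⟶ Y i) (hs : s ≫ g i = h) : FMem W ((a i).res s) ((mkE X ι Y g a).res h) :=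
  Ch.fmem ((ch_mkE h _).2 ⟨i, s, hs, rfl⟩)

end Crest.Agent.R296
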