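import Crest.Agent.R296.Force

/-!
# Forcing over a small category: formulas.
-/

set_option autoImplicit false

namespace Crest.Agent.R296

open CategoryTheory FirstOrder FirstOrder.Language Crest.LogicCS.SetTheory Elt

universe u

variable {C : Type u} [SmallCategory C]

/-- A term of the language of set theory is a variable. -/
def tv {n : ℕ} : setL.Term (Empty ⊕ Fin n) → Fin n
  | .var (.inl e) => e.elim
  | .var (.inr i) => i
  | .func f _ => Empty.elim f

/-- Restriction of a valuation. -/
def vres {X Y : C} {n : ℕ} (v : Fin n → Elt X) (h : Y ⟶ X) : Fin n → Elt Y := fun i => (v i).res h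

@[simp] theorem vres_apply {X Y : C} {n : ℕ} (v : Fin n → Elt X) (h : Y ⟶ X) (i : Fin n) :
    vres v h i = (v i).res h := rfl

@[simp] theorem vres_id {X : C} {n : ℕ} (v : Fin n → Elt X) : vres v (𝟙 X) = v := by
  funext i; simp

@[simp] theorem vres_vres {X Y W : C} {n : ℕ} (v : Fin n → Elt X) (h : Y ⟶ X) (k : W ⟶ Y) :
    vres (vres v h) k = vres v (k ≫ h) := by
  funext i; simp

/-- Extension of a valuation. -/
def snc {X : C} {n : ℕ} (v : Fin n → Elt X) (a : Elt X) : Fin (n + 1) → Elt X := Fin.snoc v a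

@[simp] theorem snc_last {X : C} {n : ℕ} (v : Fin n → Elt X) (a : Elt X) :
    snc v a (Fin.last n) = a := by simp [snc]

@[simp] theorem snc_castSucc {X : C} {n : ℕ} (v : Fin n → Elt X) (a : Elt X) (i : Fin n) :
    snc v a i.castSucc = v i := by simp [snc]

@[simp] theorem vres_snc {X Y : C} {n : ℕ} (v : Fin n → Elt X) (a : Elt X) (h : Y ⟶ X) :
    vres (snc v a) h = snc (vres v h) (a.res h) := by
  funext i
  refine Fin.lastCases ?_ (fun i => ?_) i <;> simp

/-- Forcing of an atomic relation. -/
def FRel (X : C) : {l : ℕ} → setL.Relations l → (Fin l → Elt X) → Prop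
  | _, SetRel.mem, x => FMem X (x 0) (x 1)

/-- The forcing relation. -/
def Force : {n : ℕ} → setL.BoundedFormula Empty n → (X : C) → (Fin n → Elt X) → Prop
  | _, .falsum, _, _ => False
  | _, .equal t₁ t₂, X, v => FEq X (v (tv t₁)) (v (tv t₂))
  | _, .rel R ts, X, v => FRel X R (fun i => v (tv (ts i)))
  | _, .imp f g, X, v => ∀ (Y : C) (h : Y ⟶ X), Force f Y (vres v h) → Force g Y (vres v h)
  | _, .all f, X, v => ∀ (Y : C) (h : Y ⟶ X) (a : Elt Y), Force f Y (snc (vres v h) a)

variable {n : ℕ} {X Y W : C}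

theorem force_imp (f g : setL.BoundedFormula Empty n) (v : Fin n → Elt X) :
    Force (f ⟹ g) X v ↔
      ∀ (Y : C) (h : Y ⟶ X), Force f Y (vres v h) → Force g Y (vres v h) := Iff.rfl

theorem force_all (f : setL.BoundedFormula Empty (n + 1)) (v : Fin n → Elt X) :
    Force (∀' f) X v ↔ ∀ (Y : C) (h : Y ⟶ X) (a : Elt Y), Force f Y (snc (vres v h) a) := Iff.rfl

theorem force_not (f : setL.BoundedFormula Empty n) (v : Fin n → Elt X) :
    Force (∼f) X v ↔ ∀ (Y : C) (h : Y ⟶ X), ¬ Force f Y (vres v h) := Iff.rfl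

@[simp] theorem force_vmem (i j : Fin n) (v : Fin n → Elt X) :
    Force (vmem i j) X v ↔ FMem X (v i) (v j) := Iff.rfl

@[simp] theorem force_veq (i j : Fin n) (v : Fin n → Elt X) :
    Force (veq i j) X v ↔ FEq X (v i) (v j) := Iff.rfl

theorem Force.res {φ : setL.BoundedFormula Empty n} {v : Fin n → Elt X} (H : Force φ X v)
    (h : Y ⟶ X) : Force φ Y (vres v h) := by
  cases φ with
  | falsum => exact H
  | equal t₁ t₂ => exact FEq.res H h
  | rel R ts => cases R; exact FMem.res H h
  | imp f g =>
    intro W k hf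
    simp only [vres_vres] at hf ⊢
    exact H W _ hf
  | all f =>
    intro W k a
    simp only [vres_vres]
    exact H W _ a

theorem Force.of_dense {φ : setL.BoundedFormula Empty n} {v : Fin n → Elt X}
    (H : Dense X (fun V k => Force φ V (vres v k))) : Force φ X v := by
  induction φ generalizing X with
  | falsum => obtain ⟨_, _, h⟩ := H.exists; exact h
  | equal t₁ t₂ => exact FEq.of_dense H
  | rel R ts => cases R; exact FMem.of_dense H
  | imp f g _ ihg =>
    intro W k hf
    apply ihg
    intro V l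
    obtain ⟨U, m, hU⟩ := H V (l ≫ k)
    refine ⟨U, m, ?_⟩
    have := hU U (𝟙 U) (by simpa using hf.res (m ≫ l))
    simpa using this
  | all f ih =>
    intro W k a
    apply ih
    intro V l
    obtain ⟨U, m, hU⟩ := H V (l ≫ k)
    refine ⟨U, m, ?_⟩
    have := hU U (𝟙 U) (a.res (m ≫ l))
    simpa using this

theorem Force.congr {φ : setL.BoundedFormula Empty n} {v w : Fin n → Elt X} (H : Force φ X v)
    (e : ∀ i, FEq X (v i) (w i)) : Force φ X w := by
  induction φ generalizing X with
  | falsum => exact H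
  | equal t₁ t₂ => exact (e _).symm.trans (FEq.trans H (e _))
  | rel R ts => cases R; exact (FMem.congr_left H (e _)).congr_right (e _)
  | imp f g ihf ihg =>
    intro W k hf
    exact ihg (H W k (ihf hf (fun i => ((e i).res k).symm))) (fun i => (e i).res k)
  | all f ih =>
    intro W k a
    refine ih (H W k a) (fun i => ?_)
    refine Fin.lastCases ?_ (fun i => ?_) i
    · simpa using FEq.refl W a
    · simpa using (e i).res k

theorem force_inf (f g : setL.BoundedFormula Empty n) (v : Fin n → Elt X) :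
    Force (f ⊓ g) X v ↔ Force f X v ∧ Force g X v := by
  change (∀ (Y : C) (h : Y ⟶ X), ¬ Force (f ⟹ ∼g) Y (vres v h)) ↔ _
  constructor
  · intro H
    have key : Dense X (fun V k => Force f V (vres v k) ∧ Force g V (vres v k)) := by
      intro W l
      have := H W l
      rw [force_imp] at this
      push Not at this
      obtain ⟨V, k, hf, hg⟩ := this
      rw [force_not] at hg
      push Not at hg
      obtain ⟨U, m, hg⟩ := hg
      exact ⟨U, m ≫ k, by simpa using hf.res m, by simpa using hg⟩
    exact ⟨Force.of_dense (key.mono fun _ _ h => h.1), Force.of_dense (key.mono fun _ _ h => h.2)⟩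
  · rintro ⟨hf, hg⟩ Y h H
    have := H Y (𝟙 Y) (by simpa using hf.res h) Y (𝟙 Y)
    exact this (by simpa using hg.res h)

theorem force_sup (f g : setL.BoundedFormula Empty n) (v : Fin n → Elt X) :
    Force (f ⊔ g) X v ↔ Dense X (fun V k => Force f V (vres v k) ∨ Force g V (vres v k)) := by
  change (∀ (Y : C) (h : Y ⟶ X), Force (∼f) Y (vres v h) → Force g Y (vres v h)) ↔ _
  constructor
  · intro H W l
    by_cases h : Force (∼f) W (vres v l)
    · exact ⟨W, 𝟙 W, Or.inr (by simpa using H W l h)⟩
    · rw [force_not] at h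
      push Not at h
      obtain ⟨V, k, h⟩ := h
      exact ⟨V, k, Or.inl (by simpa using h)⟩
  · intro H W l hf
    apply Force.of_dense
    intro V k
    obtain ⟨U, m, h | h⟩ := H V (k ≫ l)
    · exact absurd (by simpa using h) (hf U (m ≫ k))
    · exact ⟨U, m, by simpa using h⟩

theorem force_ex (f : setL.BoundedFormula Empty (n + 1)) (v : Fin n → Elt X) :
    Force (∃' f) X v ↔ Dense X (fun V k => ∃ a : Elt V, Force f V (snc (vres v k) a)) := by
  change (∀ (Y : C) (h : Y ⟶ X), ¬ Force (∀' (∼f)) Y (vres v h)) ↔ _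
  constructor
  · intro H W l
    have := H W l
    rw [force_all] at this
    push Not at this
    obtain ⟨V, k, a, h⟩ := this
    rw [force_not] at h
    push Not at h
    obtain ⟨U, m, h⟩ := h
    exact ⟨U, m ≫ k, a.res m, by simpa using h⟩
  · intro H W l hall
    obtain ⟨V, k, a, h⟩ := H W l
    exact hall V k a V (𝟙 V) (by simpa using h)

theorem force_ex_of (f : setL.BoundedFormula Empty (n + 1)) (v : Fin n → Elt X) (a : Elt X)
    (h : Force f X (snc v a)) : Force (∃' f) X v := by
  rw [force_ex]
  intro W l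
  exact ⟨W, 𝟙 W, a.res l, by simpa using h.res l⟩

theorem force_iff (f g : setL.BoundedFormula Empty n) (v : Fin n → Elt X) :
    Force (f ⇔ g) X v ↔
      ∀ (Y : C) (h : Y ⟶ X), Force f Y (vres v h) ↔ Force g Y (vres v h) := by
  change Force ((f ⟹ g) ⊓ (g ⟹ f)) X v ↔ _
  rw [force_inf, force_imp, force_imp]
  exact ⟨fun h Y k => ⟨h.1 Y k, h.2 Y k⟩, fun h => ⟨fun Y k => (h Y k).1, fun Y k => (h Y k).2⟩⟩

theorem force_all_imp (f g : setL.BoundedFormula Empty (n + 1)) (v : Fin n → Elt X) :
    Force (∀' (f ⟹ g)) X v ↔ ∀ (Y : C) (h : Y ⟶ X) (a : Elt Y),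
      Force f Y (snc (vres v h) a) → Force g Y (snc (vres v h) a) := by
  rw [force_all]
  constructor
  · intro H Y h a hf
    simpa using H Y h a Y (𝟙 Y) (by simpa using hf)
  · intro H Y h a W k hf
    simp only [vres_snc, vres_vres] at hf ⊢
    exact H W _ _ hf

theorem force_all_iff (f g : setL.BoundedFormula Empty (n + 1)) (v : Fin n → Elt X) :
    Force (∀' (f ⇔ g)) X v ↔ ∀ (Y : C) (h : Y ⟶ X) (a : Elt Y),
      Force f Y (snc (vres v h) a) ↔ Force g Y (snc (vres v h) a) := by
  rw [force_all]
  constructor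
  · intro H Y h a
    simpa using (force_iff _ _ _).1 (H Y h a) Y (𝟙 Y)
  · intro H Y h a
    rw [force_iff]
    intro W k
    simp only [vres_snc, vres_vres]
    exact H W _ _

theorem force_all_all (f : setL.BoundedFormula Empty (n + 2)) (v : Fin n → Elt X) :
    Force (∀' ∀' f) X v ↔ ∀ (Y : C) (h : Y ⟶ X) (a b : Elt Y),
      Force f Y (snc (snc (vres v h) a) b) := by
  constructor
  · intro H Y h a b
    simpa using H Y h a Y (𝟙 Y) b
  · intro H Y h a W k b
    simp only [vres_snc, vres_vres]
    exact H W _ _ _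

theorem force_alls (φ : setL.BoundedFormula Empty n) (X : C) (v₀ : Fin 0 → Elt X)
    (H : ∀ (Y : C) (v : Fin n → Elt Y), Force φ Y v) : Force (n := 0) φ.alls X v₀ := by
  induction n with
  | zero => exact H X v₀
  | succ n ih => exact ih φ.all (fun Y v W h a => H W _)

theorem force_castLE_of_eq {m n : ℕ} (h : m = n) {h' : m ≤ n} (φ : setL.BoundedFormula Empty m)
    (v : Fin n → Elt X) : Force (φ.castLE h') X v ↔ Force φ X (v ∘ Fin.cast h) := by
  subst h
  simp only [BoundedFormula.castLE_rfl, Fin.cast_refl, Function.comp_id]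

theorem tv_liftAt {n' m : ℕ} (t : setL.Term (Empty ⊕ Fin n)) :
    tv (t.liftAt n' m) = (fun i : Fin n => if ↑i < m then Fin.castAdd n' i else Fin.addNat i n')
      (tv t) := by
  rcases t with (e | i) | ⟨f, _⟩
  · exact e.elim
  · rfl
  · exact Empty.elim f

theorem force_liftAt {n' m : ℕ} (φ : setL.BoundedFormula Empty n) (v : Fin (n + n') → Elt X)
    (hmn : m ≤ n) : Force (φ.liftAt n' m) X v ↔
      Force φ X (v ∘ fun i => if ↑i < m then Fin.castAdd n' i else Fin.addNat i n') := by
  rw [BoundedFormula.liftAt]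
  induction φ generalizing X with
  | falsum => exact Iff.rfl
  | equal t₁ t₂ => simp only [BoundedFormula.mapTermRel, Force, tv_liftAt, Function.comp_apply]
  | rel R ts => simp only [BoundedFormula.mapTermRel, Force, tv_liftAt, Function.comp_apply, id]
  | imp _ _ ih1 ih2 =>
    simp only [BoundedFormula.mapTermRel, Force, ih1 _ hmn, ih2 _ hmn]
    rfl
  | @all k _ ih3 =>
    have h : k + 1 + n' = k + n' + 1 := by rw [add_assoc, add_comm 1 n', ← add_assoc]
    simp only [BoundedFormula.mapTermRel, Force, force_castLE_of_eq h, ih3 _ (hmn.trans k.le_succ)]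
    refine forall_congr' fun Y => forall_congr' fun l => forall_congr' fun x =>
      iff_eq_eq.mpr (congr rfl (funext (Fin.lastCases ?_ fun i => ?_)))
    · simp only [Function.comp_apply, Fin.val_last, snc_last]
      refine (congr rfl (Fin.ext ?_)).trans (snc_last _ _)
      split_ifs <;> dsimp; lia
    · simp only [Function.comp_apply, snc_castSucc]
      refine (congr rfl (Fin.ext ?_)).trans (snc_castSucc _ _ _)
      simp only [Fin.val_castSucc, Fin.val_cast]
      split_ifs <;> simp

/-! ### Pairs -/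

/-- `w` is forced to be the unordered pair of `a` and `b`. -/
def IsUP (X : C) (w a b : Elt X) : Prop :=
  ∀ (Y : C) (h : Y ⟶ X) (z : Elt Y), FMem Y z (w.res h) ↔
    Dense Y (fun V k => FEq V (z.res k) (a.res (k ≫ h)) ∨ FEq V (z.res k) (b.res (k ≫ h)))

/-- `p` is forced to be the Kuratowski pair of `a` and `b`. -/
def IsOP (X : C) (p a b : Elt X) : Prop :=
  ∀ (Y : C) (h : Y ⟶ X) (z : Elt Y), FMem Y z (p.res h) ↔
    Dense Y (fun V k => IsUP V (z.res k) (a.res (k ≫ h)) (a.res (k ≫ h)) ∨
      IsUP V (z.res k) (a.res (k ≫ h)) (b.res (k ≫ h)))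

/-- The pair of `a` and `b` is forced to be a member of `f`. -/
def PM (X : C) (f a b : Elt X) : Prop :=
  Dense X (fun V k => ∃ p : Elt V, FMem V p (f.res k) ∧ IsOP V p (a.res k) (b.res k))

theorem force_isUPair (w a b : Fin n) (v : Fin n → Elt X) :
    Force (isUPair w a b) X v ↔ IsUP X (v w) (v a) (v b) := by
  simp [isUPair, force_all_iff, force_sup, IsUP]

theorem force_isSing (w a : Fin n) (v : Fin n → Elt X) :
    Force (isSing w a) X v ↔ IsUP X (v w) (v a) (v a) := by
  simp only [isSing, force_all_iff, force_vmem, force_veq, snc_last, snc_castSucc, vres_apply, IsUP,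
    or_self]
  refine forall_congr' fun Y => forall_congr' fun h => forall_congr' fun z => iff_congr Iff.rfl ?_
  constructor
  · intro e W l
    exact ⟨W, 𝟙 W, by simpa using e.res l⟩
  · intro H
    exact FEq.of_dense (H.mono fun V k e => by simpa using e)

theorem force_isOPair (p a b : Fin n) (v : Fin n → Elt X) :
    Force (isOPair p a b) X v ↔ IsOP X (v p) (v a) (v b) := by
  simp [isOPair, force_all_iff, force_sup, IsOP, force_isUPair, force_isSing]

@[simp] theorem force_pairMem (f a b : Fin n) (v : Fin n → Elt X) :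
    Force (pairMem f a b) X v ↔ PM X (v f) (v a) (v b) := by
  simp [pairMem, force_ex, force_inf, PM, force_isOPair]

end Crest.Agent.R296
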