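import Crest.Agent.R296.Formula

/-!
# Forcing over a small category: a forced theory has a model.

RECIPE.  A state is `(X : C, v : ℕ → Elt X)`.  Tasks are `Σ n, BoundedFormula Empty (n+1) × (Fin n → ℕ)`
(witness tasks) and `Σ n, BoundedFormula Empty n × (Fin n → ℕ)` (decision tasks); the type of tasks is
countable (`Countable setL.Symbols`, then the library instance for `Σ n, BoundedFormula`), so by
`exists_surjective_nat` and `Nat.unpair` there is `task : ℕ → Task` taking each value at arbitrarily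
large arguments.  Step `k`: choose `h k : X (k+1) ⟶ X k` and `v (k+1) i = (v k i).res (h k)` for
`i ≠ k` such that, if all `xs i < k`: a decision task `(φ, xs)` has `φ` or `∼φ` forced at `X (k+1)`
(`force_not`: if `∼φ` is not forced, a later stage forces `φ`); a witness task `(φ, xs)` has `∀' φ`
forced or `∼φ` forced at `snc (v (k+1) ∘ xs) (v (k+1) k)` (if `∀' φ` is not forced, some `φ(a)` is
not forced, so by `Force.of_dense` a later stage forces `∼φ(a)`; put `v (k+1) k := a`).
`Ev φ xs := ∃ k, (∀ i, xs i < k) ∧ Force φ (X k) (v k ∘ xs)` persists to all later `k`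
(`Force.res`).  The model is the quotient of `ℕ` by `i ~ j := Ev (veq 0 1) ![i, j]` with
`i ∈ j := Ev (vmem 0 1) ![i, j]`; truth lemma `φ.Realize default (mk ∘ xs) ↔ Ev φ xs` by induction on
`φ`; finish with `Theory.Model.isSatisfiable`.  (`Elt X` is inhabited: `mkE X PEmpty ..`.)
-/

set_option autoImplicit false

namespace Crest.Agent.R296

open CategoryTheory FirstOrder FirstOrder.Language Crest.LogicCS.SetTheory Elt

universe u

variable {C : Type u} [SmallCategory C]

/-- A state of the Henkin construction. -/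
structure HSt (C : Type u) [SmallCategory C] : Type (u + 1) where
  X : C
  v : ℕ → Elt X

/-- Forcing at a state. -/
def HSt.Fo (s : HSt C) {n : ℕ} (φ : setL.BoundedFormula Empty n) (xs : Fin n → ℕ) : Prop :=
  Force φ s.X (fun i => s.v (xs i))

/-- Tasks of the Henkin construction. -/
abbrev HTask : Type :=
  (Σ n : ℕ, setL.BoundedFormula Empty n × (Fin n → ℕ)) ⊕
    (Σ n : ℕ, setL.BoundedFormula Empty (n + 1) × (Fin n → ℕ))

instance hk_countable_symbols : Countable setL.Symbols := by
  have h1 : ∀ l, Countable (setL.Functions l) := fun l => inferInstanceAs (Countable Empty)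
  have h2 : ∀ l, Countable (setL.Relations l) := fun l => by
    have : Subsingleton (setL.Relations l) := ⟨fun a b => by cases a; cases b; rfl⟩
    infer_instance
  unfold Language.Symbols
  infer_instance

instance hk_countable_formula (n : ℕ) : Countable (setL.BoundedFormula Empty n) :=
  (sigma_mk_injective (β := fun n => setL.BoundedFormula Empty n) (i := n)).countable

theorem hk_exists_task : ∃ task : ℕ → HTask, ∀ t N, ∃ k, N ≤ k ∧ task k = t := by
  have : Nonempty HTask := ⟨Sum.inl ⟨0, ⊥, Fin.elim0⟩⟩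
  obtain ⟨f, hf⟩ := exists_surjective_nat HTask
  refine ⟨fun k => f k.unpair.1, fun t N => ?_⟩
  obtain ⟨a, rfl⟩ := hf t
  exact ⟨Nat.pair a N, Nat.right_le_pair a N, by simp⟩

/-- The task is solved at the state `s`, with `k` the index of the new element. -/
def HGood (s : HSt C) (k : ℕ) : HTask → Prop
  | .inl ⟨_, φ, xs⟩ => (∀ i, xs i < k) → s.Fo φ xs ∨ s.Fo (∼φ) xs
  | .inr ⟨_, φ, xs⟩ => (∀ i, xs i < k) → s.Fo (∀' φ) xs ∨ s.Fo (∼φ) (Fin.snoc xs k)

theorem hk_step (s : HSt C) (k : ℕ) (t : HTask) :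
    ∃ (s' : HSt C) (h : s'.X ⟶ s.X), (∀ i, i ≠ k → s'.v i = (s.v i).res h) ∧ HGood s' k t := by
  rcases t with ⟨n, φ, xs⟩ | ⟨n, φ, xs⟩
  · by_cases H : s.Fo (∼φ) xs
    · exact ⟨s, 𝟙 _, fun i _ => by simp, fun _ => Or.inr H⟩
    · rw [HSt.Fo, force_not] at H
      push Not at H
      obtain ⟨Y, h, hY⟩ := H
      exact ⟨⟨Y, fun i => (s.v i).res h⟩, h, fun i _ => rfl, fun _ => Or.inl hY⟩
  · by_cases H : s.Fo (∀' φ) xs
    · exact ⟨s, 𝟙 _, fun i _ => by simp, fun _ => Or.inl H⟩
    · rw [HSt.Fo, force_all] at H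
      push Not at H
      obtain ⟨Y, h, a, hY⟩ := H
      have hd := mt Force.of_dense hY
      unfold Dense at hd
      push Not at hd
      obtain ⟨W, l, hW⟩ := hd
      refine ⟨⟨W, fun i => if i = k then a.res l else (s.v i).res (l ≫ h)⟩, l ≫ h,
        fun i hi => if_neg hi, fun hx => Or.inr ?_⟩
      have e : (fun i => if (Fin.snoc xs k : Fin (n + 1) → ℕ) i = k then a.res l
          else (s.v ((Fin.snoc xs k : Fin (n + 1) → ℕ) i)).res (l ≫ h)) =
          vres (snc (vres (fun i => s.v (xs i)) h) a) l := by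
        funext i
        refine Fin.lastCases ?_ (fun i => ?_) i
        · simp
        · simp [(hx i).ne]
      change Force (∼φ) W _
      rw [e, force_not]
      intro V m
      rw [vres_vres]
      exact hW V m

theorem hk_chain (s₀ : HSt C) : ∃ s : ℕ → HSt C, s 0 = s₀ ∧
    (∀ (k n : ℕ) (φ : setL.BoundedFormula Empty n) (xs : Fin n → ℕ), (∀ i, xs i < k) →
      (s k).Fo φ xs → (s (k + 1)).Fo φ xs) ∧
    (∀ (n : ℕ) (φ : setL.BoundedFormula Empty n) (xs : Fin n → ℕ), ∃ k, (∀ i, xs i < k) ∧
      ((s k).Fo φ xs ∨ (s k).Fo (∼φ) xs)) ∧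
    (∀ (n : ℕ) (φ : setL.BoundedFormula Empty (n + 1)) (xs : Fin n → ℕ), ∃ k, (∀ i, xs i < k) ∧
      ((s (k + 1)).Fo (∀' φ) xs ∨ (s (k + 1)).Fo (∼φ) (Fin.snoc xs k))) := by
  obtain ⟨task, htask⟩ := hk_exists_task
  choose nx hh hv hg using hk_step (C := C)
  let s : ℕ → HSt C := fun k => Nat.rec s₀ (fun k s => nx s k (task k)) k
  have hs : ∀ k, s (k + 1) = nx (s k) k (task k) := fun k => rfl
  have hbd : ∀ {n : ℕ} (xs : Fin n → ℕ), ∃ N, ∀ i, xs i < N := fun xs => by
    obtain ⟨N, hN⟩ := (Set.finite_range xs).bddAbove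
    exact ⟨N + 1, fun i => Nat.lt_succ_of_le (hN ⟨i, rfl⟩)⟩
  refine ⟨s, rfl, ?_, ?_, ?_⟩
  · intro k n φ xs hx H
    rw [hs]
    have e : (fun i => (nx (s k) k (task k)).v (xs i)) =
        vres (fun i => (s k).v (xs i)) (hh (s k) k (task k)) := by
      funext i
      exact hv _ _ _ _ (hx i).ne
    unfold HSt.Fo
    rw [e]
    exact Force.res H _
  · intro n φ xs
    obtain ⟨N, hN⟩ := hbd xs
    obtain ⟨k, hk, e⟩ := htask (.inl ⟨n, φ, xs⟩) N
    have hx : ∀ i, xs i < k := fun i => (hN i).trans_le hk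
    refine ⟨k + 1, fun i => (hx i).trans k.lt_succ_self, ?_⟩
    have := hg (s k) k (task k)
    rw [← hs, e] at this
    exact this hx
  · intro n φ xs
    obtain ⟨N, hN⟩ := hbd xs
    obtain ⟨k, hk, e⟩ := htask (.inr ⟨n, φ, xs⟩) N
    have hx : ∀ i, xs i < k := fun i => (hN i).trans_le hk
    refine ⟨k, hx, ?_⟩
    have := hg (s k) k (task k)
    rw [← hs, e] at this
    exact this hx

section Model

variable (s : ℕ → HSt C)

/-- Eventually forced equality. -/
def hkSetoid : Setoid ℕ where
  r i j := ∀ᶠ k in Filter.atTop, FEq (s k).X ((s k).v i) ((s k).v j)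
  iseqv :=
    ⟨fun _ => Filter.Eventually.of_forall fun _ => FEq.refl _ _,
      fun h => h.mono fun _ e => e.symm,
      fun h h' => (h.and h').mono fun _ e => e.1.trans e.2⟩

/-- The Henkin model. -/
def HModel : Type := Quotient (hkSetoid s)

/-- The class of an index. -/
def hkMk (i : ℕ) : HModel s := Quotient.mk (hkSetoid s) i

/-- Eventually forced membership. -/
def hkMem (a b : HModel s) : Prop :=
  Quotient.lift₂ (s₁ := hkSetoid s) (s₂ := hkSetoid s)
    (fun i j => ∀ᶠ k in Filter.atTop, FMem (s k).X ((s k).v i) ((s k).v j))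
    (fun _ _ _ _ h h' => propext
      ⟨fun H => (H.and (Filter.Eventually.and h h')).mono fun _ e =>
        (e.1.congr_left e.2.1).congr_right e.2.2,
       fun H => (H.and (Filter.Eventually.and h h')).mono fun _ e =>
        (e.1.congr_left e.2.1.symm).congr_right e.2.2.symm⟩) a b

/-- Interpretation of the relation symbols. -/
def hkRel : {l : ℕ} → setL.Relations l → (Fin l → HModel s) → Prop
  | _, SetRel.mem, x => hkMem s (x 0) (x 1)

instance hkStructure : setL.Structure (HModel s) where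
  funMap := fun f _ => Empty.elim f
  RelMap := fun R x => hkRel s R x

theorem hk_realize_term {n : ℕ} (t : setL.Term (Empty ⊕ Fin n)) (xs : Fin n → ℕ) :
    t.realize (Sum.elim (default : Empty → HModel s) fun i => hkMk s (xs i)) =
      hkMk s (xs (tv t)) := by
  rcases t with (e | i) | ⟨f, _⟩
  · exact e.elim
  · rfl
  · exact Empty.elim f

variable {s}

theorem hk_truth
    (h1 : ∀ (k n : ℕ) (φ : setL.BoundedFormula Empty n) (xs : Fin n → ℕ), (∀ i, xs i < k) →
      (s k).Fo φ xs → (s (k + 1)).Fo φ xs)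
    (h2 : ∀ (n : ℕ) (φ : setL.BoundedFormula Empty n) (xs : Fin n → ℕ), ∃ k, (∀ i, xs i < k) ∧
      ((s k).Fo φ xs ∨ (s k).Fo (∼φ) xs))
    (h3 : ∀ (n : ℕ) (φ : setL.BoundedFormula Empty (n + 1)) (xs : Fin n → ℕ),
      ∃ k, (∀ i, xs i < k) ∧
      ((s (k + 1)).Fo (∀' φ) xs ∨ (s (k + 1)).Fo (∼φ) (Fin.snoc xs k)))
    {n : ℕ} (φ : setL.BoundedFormula Empty n) (xs : Fin n → ℕ) :
    φ.Realize (default : Empty → HModel s) (fun i => hkMk s (xs i)) ↔
      ∀ᶠ k in Filter.atTop, (s k).Fo φ xs := by
  have pers : ∀ (k n : ℕ) (φ : setL.BoundedFormula Empty n) (xs : Fin n → ℕ), (∀ i, xs i < k) →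
      (s k).Fo φ xs → ∀ᶠ k in Filter.atTop, (s k).Fo φ xs := by
    intro k n φ xs hx H
    refine Filter.eventually_atTop.2 ⟨k, fun m hm => ?_⟩
    induction m, hm using Nat.le_induction with
    | base => exact H
    | succ m hm ih => exact h1 m n φ xs (fun i => (hx i).trans_le hm) ih
  have hnot : ∀ (t : HSt C) (n : ℕ) (φ : setL.BoundedFormula Empty n) (xs : Fin n → ℕ),
      t.Fo (∼φ) xs → ¬ t.Fo φ xs := by
    intro t n φ xs H H'
    exact H t.X (𝟙 _) (by rw [vres_id]; exact H')
  induction φ with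
  | falsum =>
    simp only [BoundedFormula.Realize, false_iff]
    intro H
    obtain ⟨k, hk⟩ := H.exists
    exact hk
  | equal t₁ t₂ =>
    simp only [BoundedFormula.Realize, hk_realize_term]
    exact Quotient.eq (r := hkSetoid s)
  | rel R ts =>
    cases R
    simp only [BoundedFormula.Realize, hk_realize_term]
    exact Iff.rfl
  | imp f g ihf ihg =>
    simp only [BoundedFormula.Realize, ihf, ihg]
    constructor
    · intro H
      obtain ⟨k, hx, hk | hk⟩ := h2 _ f xs
      · refine (H (pers _ _ _ _ hx hk)).mono fun m hm => ?_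
        intro Y l _
        exact Force.res hm l
      · refine (pers _ _ _ _ hx hk).mono fun m hm => ?_
        intro Y l hf
        exact absurd hf (hm Y l)
    · intro H Hf
      refine (H.and Hf).mono fun m hm => ?_
      have := hm.1 (s m).X (𝟙 _) (by rw [vres_id]; exact hm.2)
      rw [vres_id] at this
      exact this
  | @all n f ih =>
    have e : ∀ j : ℕ, (Fin.snoc (fun i => hkMk s (xs i)) (hkMk s j) : Fin (n + 1) → HModel s) =
        fun i => hkMk s ((Fin.snoc xs j : Fin (n + 1) → ℕ) i) := fun j => by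
      funext i
      refine Fin.lastCases ?_ (fun i => ?_) i <;> simp
    have e' : ∀ (t : HSt C) (j : ℕ), (fun i => t.v ((Fin.snoc xs j : Fin (n + 1) → ℕ) i)) =
        snc (fun i => t.v (xs i)) (t.v j) := fun t j => by
      funext i
      refine Fin.lastCases ?_ (fun i => ?_) i <;> simp
    simp only [BoundedFormula.Realize]
    constructor
    · intro H
      obtain ⟨k, hx, hk | hk⟩ := h3 _ f xs
      · exact pers _ _ _ _ (fun i => (hx i).trans k.lt_succ_self) hk
      · exfalso
        have H1 := H (hkMk s k)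
        rw [e] at H1
        replace H1 := (ih _).1 H1
        have H2 := pers _ _ _ _ (fun i => by
          refine Fin.lastCases ?_ (fun i => ?_) i
          · simp
          · simpa using (hx i).trans k.lt_succ_self) hk
        obtain ⟨m, hm⟩ := (H1.and H2).exists
        exact hnot _ _ _ _ hm.2 hm.1
    · intro H a
      obtain ⟨j, rfl⟩ : ∃ j, hkMk s j = a := Quotient.exists_rep a
      rw [e]
      refine (ih _).2 (H.mono fun m hm => ?_)
      have := hm (s m).X (𝟙 _) ((s m).v j)
      rw [vres_id] at this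
      unfold HSt.Fo
      rw [e']
      exact this

end Model

theorem isSatisfiable_of_forced (T : setL.Theory) (X₀ : C) (v₀ : Fin 0 → Elt X₀)
    (h : ∀ φ ∈ T, Force (n := 0) φ X₀ v₀) : T.IsSatisfiable := by
  let e₀ : Elt X₀ := mkE X₀ PEmpty (fun i => i.elim) (fun i => i.elim) (fun i => i.elim)
  obtain ⟨s, hs0, h1, h2, h3⟩ := hk_chain (⟨X₀, fun _ => e₀⟩ : HSt C)
  have : Nonempty (HModel s) := ⟨hkMk s 0⟩
  have : HModel s ⊨ T := by
    rw [Theory.model_iff]
    intro φ hφ
    have H0 : (s 0).Fo (n := 0) φ Fin.elim0 := by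
      rw [hs0]
      have e : (fun i : Fin 0 => e₀) = v₀ := Subsingleton.elim _ _
      change Force (n := 0) φ X₀ (fun i : Fin 0 => e₀)
      rw [e]
      exact h φ hφ
    have H1 : ∀ k, (s k).Fo (n := 0) φ Fin.elim0 := fun k => by
      induction k with
      | zero => exact H0
      | succ k ih => exact h1 k 0 φ _ (fun i => i.elim0) ih
    have H2 := (hk_truth h1 h2 h3 (n := 0) φ Fin.elim0).2 (Filter.Eventually.of_forall H1)
    have e : (fun i : Fin 0 => hkMk s (Fin.elim0 i)) = default := Subsingleton.elim _ _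
    rw [e] at H2
    exact H2
  exact Theory.Model.isSatisfiable (HModel s)

end Crest.Agent.R296
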