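import Crest.Agent.R296.Site

/-!
# Row 296: choice fails at every stage of the site.
-/

set_option autoImplicit false

namespace Crest.Agent.R296

open CategoryTheory FirstOrder FirstOrder.Language Crest.LogicCS.SetTheory Elt Ob

universe u

variable {C : MCat.{u}} {S : Spec C}

/-- An ordinal code for a column and a colour. -/
noncomputable def ocode (x : W1 × KK C) : Ordinal.{u} :=
  Ordinal.typein (@WellOrderingRel (W1 × KK C)) x

theorem ocode_injective : Function.Injective (ocode (C := C)) := Ordinal.typein_injective _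

/-- The condition with a single entry at the identity. -/
@[reducible] def oneOb (S : Spec C) (a : ℕ) (x : W1 × KK C) : Ob S where
  w := a
  p := fun b u ξ k => (⟨b, u⟩ : C.Pt a) = ⟨a, C.id a⟩ ∧ ξ = x.1 ∧ k = x.2
  fn := by
    rintro b u ξ k k' ⟨-, -, rfl⟩ ⟨-, -, rfl⟩
    rfl
  bd := by
    obtain ⟨η, hη⟩ := exists_gt (max (S.st (C.id a)) x.1)
    rw [max_lt_iff] at hη
    refine ⟨η, ?_⟩
    rintro b u ξ k ⟨h, rfl, -⟩
    cases h
    exact hη

/-- The generic colouring at a point. -/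
noncomputable def gen (S : Spec C) (a : ℕ) : Elt (emp S a) :=
  mkE (emp S a) (W1 × KK C) (oneOb S a) (fun x => (oneOb S a x).toEmp (C.id a))
    (fun x => cord _ (ocode x))

/-- The generic colouring at a point of `Y`. -/
noncomputable def atm (Y : Ob S) (t : C.Pt Y.w) : Elt Y := (gen S t.1).res (Y.toEmp t.2)

theorem comp_toEmp {Y V : Ob S} (h : V ⟶ Y) {a : ℕ} (u : C.Hom a Y.w) :
    h ≫ Y.toEmp u = V.toEmp (C.comp u (ar h)) := rfl

theorem atm_res {Y V : Ob S} (h : V ⟶ Y) (t : C.Pt Y.w) :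
    (atm Y t).res h = atm V ⟨t.1, C.comp t.2 (ar h)⟩ := by
  simp only [atm, res_res, comp_toEmp]

theorem atm_inj {Y : Ob S} {t t' : C.Pt Y.w} (h : FEq Y (atm Y t) (atm Y t')) : t = t' := by
  obtain ⟨δ, hδ⟩ := exists_gt (max (S.st t.2) (S.st t'.2))
  rw [max_lt_iff] at hδ
  let V := Y.add {t, t'} ⟨δ, by rintro s (rfl | rfl); exacts [hδ.1, hδ.2]⟩ (KK.leaf Y.w)
  let ι : V ⟶ Y := Y.addAr _ _ _
  let x : W1 × KK C := (Y.fresh, KK.leaf Y.w t)
  let s : V ⟶ oneOb S t.1 x := mkAr t.2 (by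
    rintro b u ξ k ⟨h, rfl, rfl⟩
    cases h
    rw [C.id_comp]
    exact Or.inr ⟨Or.inl rfl, rfl, rfl⟩)
  have h1 : FMem V ((cord _ (ocode x)).res s) ((atm Y t).res ι) := by
    rw [atm, res_res]
    exact fmem_mkE_of (a := fun x => cord (oneOb S t.1 x) (ocode x)) x s (hom_ext (by
      change C.comp (C.id _) t.2 = C.comp t.2 (C.id _)
      simp))
  have h2 := h1.congr_right (h.res ι)
  rw [atm, res_res, gen, fmem_mkE] at h2
  obtain ⟨U, l, x', s', hs', he⟩ := h2.exists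
  rw [res_res] at he
  obtain rfl := ocode_injective ((feq_cord_iff' _ _ _ _).1 he)
  have e : ar s' = C.comp t'.2 (ar (X := V) l) := by
    have := congrArg ar hs'
    change C.comp (C.id _) (ar s') = C.comp (C.comp t'.2 (C.id _)) (ar (X := V) l) at this
    simpa using this
  have a1 := push s' (u := C.id _) ⟨rfl, rfl, rfl⟩
  have a2 := push l (u := t'.2) (Or.inr ⟨Or.inr rfl, rfl, rfl⟩)
  rw [C.id_comp, e] at a1
  have a3 := U.fn _ _ _ _ a1 a2
  simpa [x] using a3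

/-- The index of the set `X_u`. -/
structure XI (S : Spec C) (a : ℕ) : Type u where
  Y : Ob S
  u : C.Hom a Y.w
  k : C.Pt Y.w
  hk : ¬ C.Le k.2 u

/-- The set of pairs `(a_u, a_k)` with `k` not below `u`. -/
noncomputable def xx (S : Spec C) (a : ℕ) : Elt (emp S a) :=
  mkE (emp S a) (XI S a) (fun i => i.Y) (fun i => i.Y.toEmp i.u)
    (fun i => op (atm i.Y ⟨a, i.u⟩) (atm i.Y i.k))

/-- The set `X_t`. -/
noncomputable def xs (Y : Ob S) (t : C.Pt Y.w) : Elt Y := (xx S t.1).res (Y.toEmp t.2)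

theorem xs_res {Y V : Ob S} (h : V ⟶ Y) (t : C.Pt Y.w) :
    (xs Y t).res h = xs V ⟨t.1, C.comp t.2 (ar h)⟩ := by
  simp only [xs, res_res, comp_toEmp]

theorem op_mem_xs {Y : Ob S} (t k : C.Pt Y.w) (hk : ¬ C.Le k.2 t.2) :
    FMem Y (op (atm Y t) (atm Y k)) (xs Y t) := by
  have := fmem_mkE_of (X := emp S t.1) (g := fun i : XI S t.1 => i.Y.toEmp i.u)
    (a := fun i => op (atm i.Y ⟨t.1, i.u⟩) (atm i.Y i.k)) (h := Y.toEmp t.2)
    (⟨Y, t.2, k, hk⟩ : XI S t.1) (𝟙 Y) (by simp)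
  rw [res_id] at this
  exact this

theorem mem_xs {Y : Ob S} {t : C.Pt Y.w} {z : Elt Y} (h : FMem Y z (xs Y t)) :
    ∃ (V : Ob S) (l : V ⟶ Y) (k : C.Pt V.w), ¬ C.Le k.2 (C.comp t.2 (ar l)) ∧
      FEq V (z.res l) (op (atm V ⟨t.1, C.comp t.2 (ar l)⟩) (atm V k)) := by
  rw [xs, xx, fmem_mkE] at h
  obtain ⟨V, l, i, s, hs, he⟩ := h.exists
  have e : C.comp i.u (ar s) = C.comp t.2 (ar l) := congrArg ar hs
  refine ⟨V, l, ⟨i.k.1, C.comp i.k.2 (ar s)⟩, ?_, ?_⟩
  · rw [← e, MCat.le_comp_right_iff]; exact i.hk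
  · have := he.trans (op_res _ _ s)
    rwa [atm_res, atm_res, e] at this

/-- The family of all `X_t`. -/
noncomputable def fam (X : Ob S) : Elt X :=
  mkE X (Σ Y : Ob S, (Y ⟶ X) × C.Pt Y.w) (fun i => i.1) (fun i => i.2.1) (fun i => xs i.1 i.2.2)

theorem xs_mem_fam {X Y : Ob S} (h : Y ⟶ X) (t : C.Pt Y.w) : FMem Y (xs Y t) ((fam X).res h) := by
  have := fmem_mkE_of (X := X) (g := fun i : (Σ Y : Ob S, (Y ⟶ X) × C.Pt Y.w) => i.2.1)
    (a := fun i => xs i.1 i.2.2) (h := h) ⟨Y, h, t⟩ (𝟙 Y) (by simp)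
  rw [res_id] at this
  exact this

theorem mem_fam {X Y : Ob S} {h : Y ⟶ X} {x : Elt Y} (H : FMem Y x ((fam X).res h)) :
    ∃ (V : Ob S) (l : V ⟶ Y) (t : C.Pt V.w), FEq V (x.res l) (xs V t) := by
  rw [fam, fmem_mkE] at H
  obtain ⟨V, l, i, s, -, he⟩ := H.exists
  rw [xs_res] at he
  exact ⟨V, l, _, he⟩

theorem site_not_ac (X : Ob S) (v : Fin 0 → Elt X) : ¬ Force (n := 0) acAx X v := by
  refine not_force_ac (fam X) ?_ ?_ ?_ v
  · intro Y h x hx
    obtain ⟨V, l, t, he⟩ := mem_fam hx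
    have h1 := op_mem_xs (Y := V.nxt) ⟨t.1, C.comp t.2 (S.e V.w)⟩ ⟨_, C.id _⟩
      (fun h => S.e_not V.w (h.trans ⟨t.2, rfl⟩))
    have h2 := he.res V.nxtAr
    rw [xs_res, res_res] at h2
    exact ⟨V.nxt, _, _, h1.congr_right h2.symm⟩
  · intro Y h x y z hx hy hzx hzy
    refine FEq.of_dense fun W l => ?_
    obtain ⟨V, l₁, t, he⟩ := mem_fam (h := l ≫ h) (x := x.res l) (by simpa using hx.res l)
    obtain ⟨V', l₂, t', he'⟩ := mem_fam (h := l₁ ≫ l ≫ h) (x := y.res (l₁ ≫ l))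
      (by simpa using hy.res (l₁ ≫ l))
    have he2 := he.res l₂
    rw [xs_res] at he2
    simp only [res_res] at he2 he'
    obtain ⟨U, l₃, k, -, e1⟩ := mem_xs ((hzx.res _).congr_right he2)
    have he3 := he'.res l₃
    rw [xs_res] at he3
    obtain ⟨U', l₄, k', -, e2⟩ := mem_xs (((hzy.res _).res l₃).congr_right he3)
    have e3 := (e1.res l₄).trans (op_res _ _ l₄)
    rw [atm_res] at e3
    have e4 := atm_inj (feq_op_inj (e3.symm.trans e2)).1
    have f1 := (he2.res l₃).res l₄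
    have f2 := he3.res l₄
    rw [xs_res, xs_res] at f1
    rw [xs_res] at f2
    rw [e4] at f1
    refine ⟨U', l₄ ≫ l₃ ≫ l₂ ≫ l₁, ?_⟩
    simpa using f1.trans f2.symm
  · intro Y h c
    refine ⟨xs Y ⟨_, C.id _⟩, xs_mem_fam h _, fun V l z hz hc => ?_⟩
    rw [xs_res] at hz
    obtain ⟨U, l₁, k, hk, he⟩ := mem_xs hz
    obtain ⟨W, ε, κ, k1, k2, k3, -⟩ := amalg U U (ar (l₁ ≫ l)) (ar (l₁ ≫ l)) (fun _ => ar (l₁ ≫ l))
      (fun _ _ _ _ _ h => h) (fun _ _ => rfl) (fun i _ _ => MCat.comp_le _ _)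
    have e : κ true ≫ l₁ ≫ l = κ false ≫ l₁ ≫ l := hom_ext (by simpa using k2.symm)
    refine ⟨W, κ false ≫ l₁, z.res (κ true ≫ l₁), ?_, ?_, fun hzz => hk ?_⟩
    · have := hz.res (κ true ≫ l₁)
      rw [← xs_res l ⟨_, C.id _⟩, res_res, Category.assoc, e] at this
      simpa using this
    · have := hc.res (κ true ≫ l₁)
      rw [res_res, Category.assoc, e] at this
      simpa using this
    · have e1 := (he.res (κ true)).trans (op_res _ _ _)
      have e0 := (he.res (κ false)).trans (op_res _ _ _)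
      rw [res_res] at e0 e1
      have e2 := (feq_op_inj ((e0.symm.trans hzz.symm).trans e1)).2
      rw [atm_res, atm_res] at e2
      have e3 := atm_inj e2
      simp only [Sigma.mk.injEq, heq_eq_eq, true_and] at e3
      simpa using k3 _ _ e3

end Crest.Agent.R296
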