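import Crest.Agent.R296.ACWO

/-!
# Row 296: the partition principle is forced.
-/

set_option autoImplicit false

namespace Crest.Agent.R296

open CategoryTheory FirstOrder FirstOrder.Language Crest.LogicCS.SetTheory Elt Ob

universe u

variable {C : MCat.{u}} {S : Spec C} {X : Ob S} {f A B : Elt X}

/-- A partition of `B` into orbits over `X`, each with a canonical preimage. -/
structure Orbs (X : Ob S) (f A B : Elt X) : Type (u + 1) where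
  ι : Type u
  Z : ι → Ob S
  M : ∀ c, Z c ⟶ X
  τ : ∀ c, Elt (Z c)
  σ : ∀ c, Elt (Z c)
  T : ∀ c, Set (C.Pt (Z c).w)
  mem : ∀ c, FMem (Z c) (σ c) (A.res (M c))
  pm : ∀ c, PM (Z c) (f.res (M c)) (σ c) (τ c)
  can : ∀ c, Canon (Z c) (σ c) (ar (M c)) (T c)
  disj : ∀ c c' (Y : Ob S) (H : Y ⟶ Z c) (H' : Y ⟶ Z c'), H ≫ M c = H' ≫ M c' →
    FEq Y ((τ c).res H) ((τ c').res H') → c = c'
  cover : ∀ (Y : Ob S) (h : Y ⟶ X) (b : Elt Y), FMem Y b (B.res h) →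
    ∃ (V : Ob S) (k : V ⟶ Y) (c : ι) (G : V ⟶ Z c), G ≫ M c = k ≫ h ∧
      FEq V (b.res k) ((τ c).res G)

theorem exists_orbs (H : SurjG X f A B) : Nonempty (Orbs X f A B) := by
  let G : Set (Occ B) := {o | ∃ (σ : Elt o.Y) (T : Set (C.Pt o.Y.w)), FMem o.Y σ (A.res o.h) ∧
    PM o.Y (f.res o.h) σ o.c ∧ Canon o.Y σ (ar o.h) T}
  obtain ⟨O, hOG, hO, hmax⟩ := exists_maximal_pairwise G
    (fun o o' => ∀ (Y : Ob S) (H : Y ⟶ o.Y) (H' : Y ⟶ o'.Y), H ≫ o.h = H' ≫ o'.h →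
      ¬ FEq Y (o.c.res H) (o'.c.res H'))
    (fun o o' h Y H H' e he => h Y H' H e.symm he.symm)
  have hG : ∀ i : O, ∃ (σ : Elt i.1.Y) (T : Set (C.Pt i.1.Y.w)), FMem i.1.Y σ (A.res i.1.h) ∧
    PM i.1.Y (f.res i.1.h) σ i.1.c ∧ Canon i.1.Y σ (ar i.1.h) T := fun i => hOG i.2
  choose σ T h1 h2 h3 using hG
  refine ⟨⟨O, fun i => i.1.Y, fun i => i.1.h, fun i => i.1.c, σ, T, h1, h2, h3, ?_, ?_⟩⟩
  · intro c c' Y K K' e he
    by_contra hne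
    exact hO c.2 c'.2 (fun h => hne (Subtype.ext h)) Y K K' e he
  · intro Y h b hb
    obtain ⟨o, k, hk, he⟩ := hb.exists_occ'
    obtain ⟨V, l, a, ha, hp⟩ := H.sur o.Y o.h o.c o.fmem
    obtain ⟨Z', ι, T', hc⟩ := exists_canon V a (ar (l ≫ o.h))
    have hg : o.res (ι ≫ l) ∈ G := by
      refine ⟨a.res ι, T', ?_, ?_, ?_⟩
      · simpa [Occ.res] using ha.res ι
      · rw [Occ.res_c]
        simpa [Occ.res] using hp.res ι
      · have : ar (o.res (ι ≫ l)).h = C.comp (ar (l ≫ o.h)) (ar ι) := by simp [Occ.res]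
        exact this ▸ hc
    have he' : FEq Z' (b.res (ι ≫ l ≫ k)) (o.res (ι ≫ l)).c := by
      rw [Occ.res_c]
      simpa using he.res (ι ≫ l)
    have hh : (o.res (ι ≫ l)).h = (ι ≫ l ≫ k) ≫ h := by simp [Occ.res, hk]
    rcases hmax _ hg with h4 | ⟨o', ho', h4⟩
    · exact ⟨Z', ι ≫ l ≫ k, ⟨_, h4⟩, 𝟙 _, (Category.id_comp _).trans hh, by
        have := he'
        rwa [← res_id (o.res (ι ≫ l)).c] at this⟩
    · push Not at h4
      obtain ⟨U, K, K', e, he2⟩ := h4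
      refine ⟨U, K ≫ ι ≫ l ≫ k, ⟨o', ho'⟩, K', ?_, ?_⟩
      · rw [← e, hh]
        exact (Category.assoc (X := Z') K _ h).symm
      · have := (he'.res K).trans he2
        rwa [res_res] at this

variable {O : Orbs X f A B}

/-- Equal preimages have equal images. -/
theorem Orbs.τ_eq (H : SurjG X f A B) {c c' : O.ι} {Y : Ob S} (K : Y ⟶ O.Z c) (K' : Y ⟶ O.Z c')
    (e : K ≫ O.M c = K' ≫ O.M c') (he : FEq Y ((O.σ c).res K) ((O.σ c').res K')) :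
    FEq Y ((O.τ c).res K) ((O.τ c').res K') := by
  refine H.fn Y (K ≫ O.M c) ((O.σ c).res K) _ _ (by simpa using (O.mem c).res K)
    (by simpa using (O.pm c).res K) ?_
  have := ((O.pm c').res K').congr (FEq.refl _ _) he.symm (FEq.refl _ _)
  rwa [res_res, ← e] at this

/-- An instance of an orbit over the next object. -/
structure Cand (O : Orbs X f A B) : Type u where
  c : O.ι
  W : Ob S
  m : W ⟶ X.nxt
  G : W ⟶ O.Z c
  hG : G ≫ O.M c = m ≫ X.nxtAr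

/-- The label of a candidate. -/
noncomputable def Cand.lb (d : Cand O) : KK C := lab ⟨d.W, ⟨_, ar d.G⟩, ⟨_, ar d.m⟩⟩

theorem Cand.ext_lb {d d' : Cand O} (h : d.c = d'.c) (h' : d.lb = d'.lb) : d = d' := by
  obtain ⟨c, W, m, G, hG⟩ := d
  obtain ⟨c', W', m', G', hG'⟩ := d'
  obtain rfl : c = c' := h
  have := lab_injective h'
  simp only [Sigma.mk.injEq] at this
  obtain ⟨rfl, h2⟩ := this
  simp only [heq_eq_eq, Prod.mk.injEq, Sigma.mk.injEq, true_and] at h2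
  obtain rfl : G = G' := hom_ext h2.1
  obtain rfl : m = m' := hom_ext h2.2
  rfl

/-- An entry of the injection. -/
structure Ent (O : Orbs X f A B) : Type u where
  d : Cand O
  W : Ob S
  ι : W ⟶ d.W
  k : W ⟶ O.Z d.c
  hk : k ≫ O.M d.c = ι ≫ d.m ≫ X.nxtAr
  e1 : ∀ (Y : Ob S) (H H' : Y ⟶ W), H ≫ ι ≫ d.m = H' ≫ ι ≫ d.m →
    (FEq Y ((O.τ d.c).res (H ≫ ι ≫ d.G)) ((O.τ d.c).res (H' ≫ ι ≫ d.G)) ↔
      FEq Y ((O.σ d.c).res (H ≫ k)) ((O.σ d.c).res (H' ≫ k)))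
  e2 : Inv (O.Z d.c) (O.σ d.c) (ar (O.M d.c)) ∨
    ∀ t ∈ O.T d.c, W.p (C.comp t.2 (ar k)) (O.Z d.c).fresh d.lb

/-- A copy of `v` below a gate. -/
theorem Spec.gate (S : Spec C) (δ : W1) {n v w : ℕ} (x : C.Hom n v) (μ : C.Hom (n + 1) w)
    (T : Set (C.Pt w)) (hne : T.Nonempty)
    (hdir : ∀ t ∈ T, ∀ t' ∈ T, ∃ t'' ∈ T, C.Le t''.2 t.2 ∧ C.Le t''.2 t'.2)
    (hle : ∀ t ∈ T, C.Le μ t.2) (hbd : ∃ δ, ∀ t ∈ T, S.st t.2 < δ) :
    ∃ k : C.Hom v w, C.comp x k = C.comp (S.e n) μ ∧ (∀ t ∈ T, C.Le k t.2) ∧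
      (∀ {d : ℕ} (j : C.Hom d v), S.st (C.comp j k) < δ → C.Le j x) ∧
      ∀ {a d : ℕ} (u : C.Hom a w) (j : C.Hom d v), C.Le μ u → ¬ C.Le j x →
        C.Le (C.comp j k) u → ∃ t ∈ T, C.Le t.2 u := by
  let tk : Task C :=
    { v := v
      w := w
      ax := n
      ax' := v
      am := n + 1
      x := x
      x' := C.id _
      ρ := fun _ => C.comp (S.e n) μ
      m := μ
      T := T
      T_ne := hne
      T_dir := hdir
      m_le := hle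
      ρ_le := fun _ => MCat.comp_le _ _
      m_not := fun _ h => S.e_not n ((MCat.le_comp_right_iff μ).1 (by simpa using h))
      h1 := fun _ _ => rfl
      h2 := fun _ _ _ => MCat.le_id _ }
  obtain ⟨δ₀, hδ₀⟩ := hbd
  obtain ⟨k, hs, hb⟩ := S.bs (max δ₀ δ) tk fun t ht => lt_max_of_lt_left (hδ₀ t ht)
  refine ⟨k false, hs.root false, hs.le_T false, fun j hj => ?_, hb false⟩
  have h3 := hs.trace false _ (lt_max_of_lt_right hj) (MCat.comp_le j (k false))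
  rw [← hs.root false] at h3
  exact (MCat.le_comp_right_iff _).1 h3

/-- Gluing a pushed condition to a given one. -/
theorem exists_glue_two (W Z : Ob S) (k : C.Hom Z.w W.w)
    (hmix : ∀ ⦃a : ℕ⦄ (u : C.Hom a Z.w) (ξ : W1) (c c' : KK C), Z.p u ξ c →
      W.p (C.comp u k) ξ c' → c = c') :
    ∃ (V : Ob S) (ι : V ⟶ W) (κ : V ⟶ Z), ar κ = C.comp k (ar ι) := by
  obtain ⟨U, l, s, h⟩ := exists_amalg_cond Z.cnd W k
    (fun a u ξ c c' h1 h2 => (hmix u ξ c' c h2 h1).symm)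
  exact ⟨U, l, s, h⟩

theorem exists_ent (H : SurjG X f A B) (d : Cand O) : ∃ E : Ent O, E.d = d := by
  by_cases hI : Inv (O.Z d.c) (O.σ d.c) (ar (O.M d.c))
  · refine ⟨⟨d, d.W, 𝟙 _, d.G, by simpa using d.hG, fun Y K K' e => ?_, Or.inl hI⟩, rfl⟩
    have e' : (K ≫ d.G) ≫ O.M d.c = (K' ≫ d.G) ≫ O.M d.c := by
      simp only [Category.id_comp] at e
      rw [Category.assoc, Category.assoc, d.hG, ← Category.assoc, e, Category.assoc]
    have h1 := hI Y (K ≫ d.G) (K' ≫ d.G) (congrArg ar e')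
    exact iff_of_true (by simpa using Orbs.τ_eq H _ _ e' h1) h1
  obtain ⟨W₁, ι₁, T, can⟩ := exists_canon d.W ((O.τ d.c).res d.G) (ar d.m)
  have hGM : C.comp (ar (O.M d.c)) (ar d.G) = C.comp (S.e X.w) (ar d.m) := congrArg ar d.hG
  obtain ⟨k, hroot, hleT, htr, hb⟩ := S.gate W₁.fresh (ar (O.M d.c)) (C.comp (ar d.m) (ar ι₁)) T
    can.ne can.dir can.le can.bdd
  have hTn : ∀ t ∈ O.T d.c, ¬ C.Le t.2 (ar (O.M d.c)) :=
    fun t ht h => hI (((O.can d.c).inv t ht).mono h)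
  obtain ⟨W₂, ι₂, κ₀, hκ₀⟩ := exists_glue_two W₁
    ((O.Z d.c).add (O.T d.c) (O.can d.c).bdd (fun _ => d.lb)) k (by
      intro a u ξ c c' h1 h2
      have h3 := htr u (W₁.lt_fresh h2).1
      rcases h1 with h1 | ⟨h1, -⟩
      · obtain ⟨j, rfl⟩ := h3
        have h4 := push (ι₁ ≫ d.G) h1
        refine W₁.fn _ ξ c c' h4 ?_
        rw [ar_comp, C.assoc, ← C.assoc (ar (O.M d.c)), hGM, C.assoc, ← hroot, ← C.assoc]
        exact h2
      · exact absurd h3 (hTn _ h1))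
  obtain ⟨κ, hκ, hlab⟩ : ∃ κ : W₂ ⟶ O.Z d.c, ar κ = C.comp k (ar ι₂) ∧
      ∀ t ∈ O.T d.c, W₂.p (C.comp t.2 (ar κ)) (O.Z d.c).fresh d.lb := by
    have h0 : ar (κ₀ ≫ (O.Z d.c).addAr _ _ _) = C.comp k (ar ι₂) := (C.id_comp _).trans hκ₀
    refine ⟨κ₀ ≫ (O.Z d.c).addAr _ _ _, h0, fun t ht => ?_⟩
    rw [h0, ← hκ₀]
    exact push κ₀ (u := t.2) (Or.inr ⟨ht, rfl, rfl⟩)
  have hκ' : ∀ {Y : Ob S} (K : Y ⟶ W₂), ar (K ≫ κ) = C.comp k (ar (K ≫ ι₂)) := by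
    intro Y K
    simp [hκ]
  have hone : ∀ (Y : Ob S) (K K' : C.Hom W₁.w Y.w) (t₀ : C.Pt (O.Z d.c).w), t₀ ∈ O.T d.c →
      C.comp (C.comp (ar d.m) (ar ι₁)) K = C.comp (C.comp (ar d.m) (ar ι₁)) K' →
      C.comp t₀.2 (C.comp k K) = C.comp t₀.2 (C.comp k K') →
      ∀ t ∈ T, ∃ t' ∈ T, C.Le (C.comp t'.2 K') (C.comp t.2 K) := by
    intro Y K K' t₀ ht₀ e1 e2 t ht
    obtain ⟨c, y, j, hy, hu⟩ := C.meet K' (C.comp t.2 K)
    obtain ⟨g, hg⟩ := can.le t ht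
    obtain ⟨g', hg'⟩ := hleT t ht
    obtain ⟨t', ht', hle⟩ := hb y t₀.2 (hu _ g (by rw [← e1, ← C.assoc, hg])) (hTn t₀ ht₀)
      (hu _ (C.comp t₀.2 g') (by rw [C.assoc, ← e2, C.assoc, ← C.assoc g', hg']))
    exact ⟨t', ht', (hle.comp_right _).trans ⟨j, hy.symm⟩⟩
  refine ⟨⟨d, W₂, ι₂ ≫ ι₁, κ, hom_ext ?_, fun Y K K' e => ?_, Or.inr hlab⟩, rfl⟩
  · rw [ar_comp, hκ, ← C.assoc, hroot]
    simp
  · have e' : C.comp (C.comp (ar d.m) (ar ι₁)) (ar (K ≫ ι₂)) =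
        C.comp (C.comp (ar d.m) (ar ι₁)) (ar (K' ≫ ι₂)) := by
      simpa using congrArg ar e
    constructor
    · intro he
      obtain ⟨t, ht, et⟩ := can.agree Y (K ≫ ι₂) (K' ≫ ι₂) e' (by simpa using he)
      have : K ≫ κ = K' ≫ κ := hom_ext (by
        rw [hκ', hκ']
        exact (hleT t ht).eq_comp et)
      exact FEq.of_eq (by rw [this])
    · intro he
      obtain ⟨t₀, ht₀, et⟩ := (O.can d.c).agree Y (K ≫ κ) (K' ≫ κ) (by
        rw [hκ', hκ', ← C.assoc, ← C.assoc, hroot, C.assoc, C.assoc (S.e X.w)]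
        exact congrArg _ e') he
      rw [hκ', hκ'] at et
      obtain ⟨t, ht, et'⟩ := can.cof Y (K ≫ ι₂) (K' ≫ ι₂)
        (hone Y _ _ t₀ ht₀ e' et) (hone Y _ _ t₀ ht₀ e'.symm et.symm)
      simpa using can.inv t ht Y _ _ et'

theorem Ent.inj_aux (H : SurjG X f A B) (E E' : Ent O) {Y : Ob S} (s : Y ⟶ E.W) (s' : Y ⟶ E'.W)
    (hs : s ≫ E.ι ≫ E.d.m = s' ≫ E'.ι ≫ E'.d.m)
    (he : FEq Y ((O.σ E.d.c).res (s ≫ E.k)) ((O.σ E'.d.c).res (s' ≫ E'.k))) :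
    FEq Y ((O.τ E.d.c).res (s ≫ E.ι ≫ E.d.G)) ((O.τ E'.d.c).res (s' ≫ E'.ι ≫ E'.d.G)) ∨
      E.d = E'.d := by
  have e : (s ≫ E.k) ≫ O.M E.d.c = (s' ≫ E'.k) ≫ O.M E'.d.c := by
    rw [Category.assoc, Category.assoc, E.hk, E'.hk]
    simpa using congrArg (· ≫ X.nxtAr) hs
  have e₂ : (s ≫ E.ι ≫ E.d.G) ≫ O.M E.d.c = (s' ≫ E'.ι ≫ E'.d.G) ≫ O.M E'.d.c := by
    simp only [Category.assoc, E.d.hG, E'.d.hG]
    simpa using congrArg (· ≫ X.nxtAr) hs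
  have hc := O.disj _ _ Y _ _ e (Orbs.τ_eq H _ _ e he)
  obtain ⟨⟨c, W₀, m, G, hG⟩, W, ι, k, hk, e1, e2⟩ := E
  obtain ⟨⟨c', W₀', m', G', hG'⟩, W', ι', k', hk', e1', e2'⟩ := E'
  obtain rfl : c = c' := hc
  by_cases hI : Inv (O.Z c) (O.σ c) (ar (O.M c))
  · exact Or.inl (Orbs.τ_eq H _ _ e₂ (hI Y _ _ (congrArg ar e₂)))
  · obtain ⟨t, ht, et⟩ := (O.can c).agree Y _ _ (congrArg ar e) he
    have a1 := push s (e2.resolve_left hI t ht)
    have a2 := push s' (e2'.resolve_left hI t ht)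
    rw [C.assoc] at a1 a2
    rw [ar_comp, ar_comp] at et
    exact Or.inr (Cand.ext_lb rfl (Y.fn _ _ _ _ a1 (et ▸ a2)))

theorem site_pp (X₀ : Ob S) (v : Fin 0 → Elt X₀) : Force (n := 0) ppAx X₀ v := by
  refine force_pp (fun X f A B H => ?_) X₀ v
  obtain ⟨O⟩ := exists_orbs H
  obtain ⟨𝓔, -, hO, hmax⟩ := exists_maximal_pairwise (Set.univ : Set (Ent O))
    (fun E E' => E.d ≠ E'.d ∧ ∀ (Y : Ob S) (s : Y ⟶ E.W) (s' : Y ⟶ E'.W),
      s ≫ E.ι ≫ E.d.m = s' ≫ E'.ι ≫ E'.d.m →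
      ¬ FEq Y ((O.τ E.d.c).res (s ≫ E.ι ≫ E.d.G)) ((O.τ E'.d.c).res (s' ≫ E'.ι ≫ E'.d.G)))
    (fun E E' h => ⟨h.1.symm, fun Y s s' e he => h.2 Y s' s e.symm he.symm⟩)
  let g : Elt X.nxt := graphE X.nxt 𝓔 (fun E => E.1.W) (fun E => E.1.ι ≫ E.1.d.m)
    (fun E => (O.τ E.1.d.c).res (E.1.ι ≫ E.1.d.G)) (fun E => (O.σ E.1.d.c).res E.1.k)
  have two : ∀ (Y : Ob S) (h : Y ⟶ X.nxt) (b a b' a' : Elt Y), PM Y (g.res h) b a →
      PM Y (g.res h) b' a' → Dense Y (fun V k => ∃ (E E' : 𝓔) (s : V ⟶ E.1.W) (s' : V ⟶ E'.1.W),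
        s ≫ E.1.ι ≫ E.1.d.m = s' ≫ E'.1.ι ≫ E'.1.d.m ∧
        FEq V (b.res k) ((O.τ E.1.d.c).res (s ≫ E.1.ι ≫ E.1.d.G)) ∧
        FEq V (a.res k) ((O.σ E.1.d.c).res (s ≫ E.1.k)) ∧
        FEq V (b'.res k) ((O.τ E'.1.d.c).res (s' ≫ E'.1.ι ≫ E'.1.d.G)) ∧
        FEq V (a'.res k) ((O.σ E'.1.d.c).res (s' ≫ E'.1.k))) := by
    intro Y h b a b' a' h1 h2
    rw [pm_graphE] at h1
    refine h1.bind ?_
    rintro V k ⟨E, s, e, k1, k2⟩
    have h3 := h2.res k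
    rw [res_res, pm_graphE] at h3
    obtain ⟨U, l, E', s', e', k3, k4⟩ := h3.exists
    refine ⟨U, l, E, E', l ≫ s, s', ?_, ?_, ?_, ?_, ?_⟩
    · rw [e', Category.assoc, e]
    · simpa using k1.res l
    · simpa using k2.res l
    · simpa using k3
    · simpa using k4
  refine ⟨X.nxt, X.nxtAr, g, fun Y h b hb => ?_, fun Y h b a a' h1 h2 => ?_,
    fun Y h b b' a h1 h2 => ?_⟩
  · have key : ∃ (V : Ob S) (k : V ⟶ Y) (E : 𝓔) (s : V ⟶ E.1.W), s ≫ E.1.ι ≫ E.1.d.m = k ≫ h ∧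
        FEq V (b.res k) ((O.τ E.1.d.c).res (s ≫ E.1.ι ≫ E.1.d.G)) := by
      obtain ⟨V, k, c, G, hG, he⟩ := O.cover Y (h ≫ X.nxtAr) b (by simpa using hb)
      have same : ∀ E ∈ 𝓔, E.d = ⟨c, V, k ≫ h, G, by simpa using hG⟩ →
          ∃ (V : Ob S) (k : V ⟶ Y) (E : 𝓔) (s : V ⟶ E.1.W), s ≫ E.1.ι ≫ E.1.d.m = k ≫ h ∧
          FEq V (b.res k) ((O.τ E.1.d.c).res (s ≫ E.1.ι ≫ E.1.d.G)) := by
        rintro ⟨d, W, ι, k', hk, e1, e2⟩ hE rfl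
        exact ⟨W, ι ≫ k, ⟨_, hE⟩, 𝟙 W, by simp, by simpa using he.res ι⟩
      obtain ⟨E, hE⟩ := exists_ent H (⟨c, V, k ≫ h, G, by simpa using hG⟩ : Cand O)
      rcases hmax E trivial with h1 | ⟨E', hE', h1⟩
      · exact same E h1 hE
      · by_cases hd : E.d = E'.d
        · exact same E' hE' (hd.symm.trans hE)
        · simp only [ne_eq, hd, not_false_eq_true, true_and] at h1
          push Not at h1
          obtain ⟨U, s, s', e, he'⟩ := h1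
          obtain ⟨d, W, ι, k', hk, e1, e2⟩ := E
          obtain rfl : d = _ := hE
          refine ⟨U, s ≫ ι ≫ k, ⟨E', hE'⟩, s', ?_, ?_⟩
          · rw [← e]; simp
          · exact FEq.trans (by simpa using he.res (s ≫ ι)) he'
    obtain ⟨V, k, E, s, e, he⟩ := key
    refine ⟨V, k, (O.σ E.1.d.c).res (s ≫ E.1.k), ?_, ?_⟩
    · have := (O.mem E.1.d.c).res (s ≫ E.1.k)
      rw [res_res, Category.assoc, E.1.hk] at this
      rw [res_res, ← e]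
      simpa using this
    · have := pm_graphE_of (a := fun E : 𝓔 => (O.τ E.1.d.c).res (E.1.ι ≫ E.1.d.G))
        (b := fun E : 𝓔 => (O.σ E.1.d.c).res E.1.k) (g := fun E : 𝓔 => E.1.ι ≫ E.1.d.m) E s e
      rw [res_res, res_res] at this
      exact this.congr (FEq.refl _ _) he.symm (FEq.refl _ _)
  · refine FEq.of_dense ((two Y h b a b a' h1 h2).mono ?_)
    rintro V k ⟨E, E', s, s', e, k1, k2, k3, k4⟩
    have he := k1.symm.trans k3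
    obtain rfl : E = E' := by
      by_contra hne
      exact (hO E.2 E'.2 fun h => hne (Subtype.ext h)).2 V s s' e he
    exact (k2.trans ((E.1.e1 V s s' e).1 he)).trans k4.symm
  · refine FEq.of_dense ((two Y h b a b' a h1 h2).mono ?_)
    rintro V k ⟨E, E', s, s', e, k1, k2, k3, k4⟩
    have he := k2.symm.trans k4
    refine (k1.trans ?_).trans k3.symm
    rcases Ent.inj_aux H E.1 E'.1 s s' e he with h3 | h3
    · exact h3
    · obtain rfl : E = E' := by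
        by_contra hne
        exact (hO E.2 E'.2 fun h => hne (Subtype.ext h)).1 h3
      exact (E.1.e1 V s s' e).2 he

end Crest.Agent.R296
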