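import Crest.Agent.R296.Formula

/-!
# Forcing over a small category: pairs and graphs.
-/

set_option autoImplicit false

namespace Crest.Agent.R296

open CategoryTheory Elt

universe u

variable {C : Type u} [SmallCategory C] {X Y W : C}

theorem Dense.of_forall {P : ∀ V : C, (V ⟶ X) → Prop} (h : ∀ V k, P V k) : Dense X P :=
  fun W _ => ⟨W, 𝟙 W, h _ _⟩

theorem Dense.of_dense {P : ∀ V : C, (V ⟶ X) → Prop}
    (h : Dense X (fun V k => Dense V (fun U l => P U (l ≫ k)))) : Dense X P :=
  h.bind fun _ _ H => H.exists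

theorem IsUP.res {w a b : Elt X} (H : IsUP X w a b) (h : Y ⟶ X) :
    IsUP Y (w.res h) (a.res h) (b.res h) := by
  intro W k z
  simpa using H W (k ≫ h) z

theorem IsUP.congr {w a b w' a' b' : Elt X} (H : IsUP X w a b) (hw : FEq X w w') (ha : FEq X a a')
    (hb : FEq X b b') : IsUP X w' a' b' := by
  intro W k z
  constructor
  · intro hz
    refine ((H W k z).1 (hz.congr_right (hw.res k).symm)).mono ?_
    rintro V l (h | h)
    · exact Or.inl (h.trans (ha.res _))
    · exact Or.inr (h.trans (hb.res _))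
  · intro hz
    refine ((H W k z).2 (hz.mono ?_)).congr_right (hw.res k)
    rintro V l (h | h)
    · exact Or.inl (h.trans (ha.res _).symm)
    · exact Or.inr (h.trans (hb.res _).symm)

theorem IsUP.unique {w w' a b : Elt X} (H : IsUP X w a b) (H' : IsUP X w' a b) : FEq X w w' :=
  FEq.ext fun W k z => (H W k z).trans (H' W k z).symm

theorem IsUP.left {w a b : Elt X} (H : IsUP X w a b) : FMem X a w := by
  have := (H X (𝟙 X) a).2 (Dense.of_forall fun V k => Or.inl (by simpa using FEq.refl _ _))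
  simpa using this

theorem IsUP.right {w a b : Elt X} (H : IsUP X w a b) : FMem X b w := by
  have := (H X (𝟙 X) b).2 (Dense.of_forall fun V k => Or.inr (by simpa using FEq.refl _ _))
  simpa using this

theorem IsUP.cases {w a b z : Elt X} (H : IsUP X w a b) (hz : FMem X z w) :
    Dense X (fun V k => FEq V (z.res k) (a.res k) ∨ FEq V (z.res k) (b.res k)) := by
  simpa using (H X (𝟙 X) z).1 (by simpa using hz)

theorem IsUP.eq_of_sing {w a z : Elt X} (H : IsUP X w a a) (hz : FMem X z w) : FEq X z a :=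
  FEq.of_dense ((H.cases hz).mono fun _ _ h => h.elim id id)

/-- The unordered pair. -/
def upair (a b : Elt X) : Elt X :=
  mkE X (ULift Bool) (fun _ => X) (fun _ => 𝟙 X) (fun i => cond i.down a b)

theorem isUP_upair (a b : Elt X) : IsUP X (upair a b) a b := by
  intro Y h z
  rw [upair, fmem_mkE]
  constructor
  · intro H
    refine H.mono ?_
    rintro V k ⟨⟨i⟩, s, hs, he⟩
    obtain rfl : s = k ≫ h := by simpa using hs
    cases i
    · exact Or.inr he
    · exact Or.inl he
  · intro H
    refine H.mono ?_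
    rintro V k (he | he)
    · exact ⟨⟨true⟩, k ≫ h, by simp, he⟩
    · exact ⟨⟨false⟩, k ≫ h, by simp, he⟩

theorem IsOP.res {p a b : Elt X} (H : IsOP X p a b) (h : Y ⟶ X) :
    IsOP Y (p.res h) (a.res h) (b.res h) := by
  intro W k z
  simpa using H W (k ≫ h) z

theorem IsOP.congr {p a b p' a' b' : Elt X} (H : IsOP X p a b) (hp : FEq X p p') (ha : FEq X a a')
    (hb : FEq X b b') : IsOP X p' a' b' := by
  intro W k z
  constructor
  · intro hz
    refine ((H W k z).1 (hz.congr_right (hp.res k).symm)).mono ?_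
    rintro V l (h | h)
    · exact Or.inl (h.congr (FEq.refl _ _) (ha.res _) (ha.res _))
    · exact Or.inr (h.congr (FEq.refl _ _) (ha.res _) (hb.res _))
  · intro hz
    refine ((H W k z).2 (hz.mono ?_)).congr_right (hp.res k)
    rintro V l (h | h)
    · exact Or.inl (h.congr (FEq.refl _ _) (ha.res _).symm (ha.res _).symm)
    · exact Or.inr (h.congr (FEq.refl _ _) (ha.res _).symm (hb.res _).symm)

theorem IsOP.unique {p p' a b : Elt X} (H : IsOP X p a b) (H' : IsOP X p' a b) : FEq X p p' :=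
  FEq.ext fun W k z => (H W k z).trans (H' W k z).symm

/-- The ordered pair. -/
def op (a b : Elt X) : Elt X := upair (upair a a) (upair a b)

theorem isOP_op (a b : Elt X) : IsOP X (op a b) a b := by
  intro Y h z
  rw [op, isUP_upair]
  constructor
  · intro H
    refine H.mono ?_
    rintro V k (he | he)
    · exact Or.inl (((isUP_upair a a).res _).congr he.symm (FEq.refl _ _) (FEq.refl _ _))
    · exact Or.inr (((isUP_upair a b).res _).congr he.symm (FEq.refl _ _) (FEq.refl _ _))
  · intro H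
    refine H.mono ?_
    rintro V k (he | he)
    · exact Or.inl (he.unique ((isUP_upair a a).res _))
    · exact Or.inr (he.unique ((isUP_upair a b).res _))

theorem IsOP.cases {p a b z : Elt X} (H : IsOP X p a b) (hz : FMem X z p) :
    Dense X (fun V k => IsUP V (z.res k) (a.res k) (a.res k) ∨
      IsUP V (z.res k) (a.res k) (b.res k)) := by
  simpa using (H X (𝟙 X) z).1 (by simpa using hz)

theorem IsOP.mem_left {p a b z : Elt X} (H : IsOP X p a b) (hz : IsUP X z a a) : FMem X z p := by
  simpa using (H X (𝟙 X) z).2 (Dense.of_forall fun V k => Or.inl (by simpa using hz.res k))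

theorem IsOP.mem_right {p a b z : Elt X} (H : IsOP X p a b) (hz : IsUP X z a b) : FMem X z p := by
  simpa using (H X (𝟙 X) z).2 (Dense.of_forall fun V k => Or.inr (by simpa using hz.res k))

theorem IsOP.inj_left {p a b a' b' : Elt X} (H : IsOP X p a b) (H' : IsOP X p a' b') :
    FEq X a a' := by
  have h := H'.cases (H.mem_left (isUP_upair a a))
  refine FEq.of_dense (h.mono ?_)
  rintro V k (h | h)
  · exact (((isUP_upair a a).res k).eq_of_sing h.left).symm
  · exact (((isUP_upair a a).res k).eq_of_sing h.left).symm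

private theorem IsOP.aux {p a b b' : Elt X} (H : IsOP X p a b) (H' : IsOP X p a b') :
    Dense X (fun V k => FEq V (b.res k) (a.res k) ∨ FEq V (b.res k) (b'.res k)) := by
  have h := H'.cases (H.mem_right (isUP_upair a b))
  refine h.bind ?_
  rintro V k (h | h)
  · exact ⟨V, 𝟙 V, Or.inl (by simpa using h.eq_of_sing ((isUP_upair a b).res k).right)⟩
  · obtain ⟨U, l, hl⟩ := (h.cases ((isUP_upair a b).res k).right).exists
    exact ⟨U, l, by simpa using hl⟩

theorem IsOP.inj_right {p a b a' b' : Elt X} (H : IsOP X p a b) (H' : IsOP X p a' b') :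
    FEq X b b' := by
  have H'' : IsOP X p a b' := H'.congr (FEq.refl _ _) (H.inj_left H').symm (FEq.refl _ _)
  refine FEq.of_dense ((H.aux H'').bind ?_)
  rintro V k (h | h)
  · obtain ⟨U, l, h' | h'⟩ := (((H''.aux H).res k)).exists
    · exact ⟨U, l, FEq.trans (by simpa using h.res l) h'.symm⟩
    · exact ⟨U, l, h'.symm⟩
  · exact ⟨V, 𝟙 V, by simpa using h⟩

theorem feq_op {a b a' b' : Elt X} (ha : FEq X a a') (hb : FEq X b b') :
    FEq X (op a b) (op a' b') :=
  ((isOP_op a b).congr (FEq.refl _ _) ha hb).unique (isOP_op a' b')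

theorem op_res (a b : Elt X) (h : Y ⟶ X) : FEq Y ((op a b).res h) (op (a.res h) (b.res h)) :=
  ((isOP_op a b).res h).unique (isOP_op _ _)

theorem feq_op_inj {a b a' b' : Elt X} (h : FEq X (op a b) (op a' b')) :
    FEq X a a' ∧ FEq X b b' := by
  have := (isOP_op a b).congr h (FEq.refl _ _) (FEq.refl _ _)
  exact ⟨this.inj_left (isOP_op _ _), this.inj_right (isOP_op _ _)⟩

theorem pm_iff (f a b : Elt X) : PM X f a b ↔ FMem X (op a b) f := by
  constructor
  · intro H
    refine FMem.of_dense (Dense.mono H ?_)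
    rintro V k ⟨p, hp, ho⟩
    exact hp.congr_left (ho.unique ((isOP_op a b).res k))
  · intro H
    exact Dense.of_forall fun V k => ⟨_, H.res k, (isOP_op a b).res k⟩

theorem PM.res {f a b : Elt X} (H : PM X f a b) (h : Y ⟶ X) :
    PM Y (f.res h) (a.res h) (b.res h) := by
  rw [pm_iff] at H ⊢
  exact (H.res h).congr_left (op_res a b h)

theorem PM.congr {f a b f' a' b' : Elt X} (H : PM X f a b) (hf : FEq X f f') (ha : FEq X a a')
    (hb : FEq X b b') : PM X f' a' b' := by
  rw [pm_iff] at H ⊢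
  exact (H.congr_left (feq_op ha hb)).congr_right hf

theorem PM.of_dense {f a b : Elt X}
    (H : Dense X (fun V k => PM V (f.res k) (a.res k) (b.res k))) : PM X f a b := by
  rw [pm_iff]
  refine FMem.of_dense (H.mono fun V k h => ?_)
  rw [pm_iff] at h
  exact h.congr_left (op_res a b k).symm

/-- The graph with the given pairs. -/
def graphE (X : C) (ι : Type u) (Y : ι → C) (g : ∀ i, Y i ⟶ X) (a b : ∀ i, Elt (Y i)) : Elt X :=
  mkE X ι Y g (fun i => op (a i) (b i))

theorem pm_graphE {ι : Type u} {Y : ι → C} {g : ∀ i, Y i ⟶ X} {a b : ∀ i, Elt (Y i)} (h : W ⟶ X)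
    (x y : Elt W) : PM W ((graphE X ι Y g a b).res h) x y ↔
      Dense W (fun V k => ∃ (i : ι) (s : V ⟶ Y i), s ≫ g i = k ≫ h ∧
        FEq V (x.res k) ((a i).res s) ∧ FEq V (y.res k) ((b i).res s)) := by
  rw [pm_iff, graphE, fmem_mkE]
  constructor
  · intro H
    refine H.mono ?_
    rintro V k ⟨i, s, hs, he⟩
    exact ⟨i, s, hs, feq_op_inj (((op_res x y k).symm.trans he).trans (op_res _ _ s))⟩
  · intro H
    refine H.mono ?_
    rintro V k ⟨i, s, hs, h1, h2⟩
    exact ⟨i, s, hs, ((op_res x y k).trans (feq_op h1 h2)).trans (op_res _ _ s).symm⟩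

theorem pm_graphE_of {ι : Type u} {Y : ι → C} {g : ∀ i, Y i ⟶ X} {a b : ∀ i, Elt (Y i)}
    {h : W ⟶ X} (i : ι) (s : W ⟶ Y i) (hs : s ≫ g i = h) :
    PM W ((graphE X ι Y g a b).res h) ((a i).res s) ((b i).res s) := by
  rw [pm_graphE]
  exact Dense.of_forall fun V k => ⟨i, k ≫ s, by simp [hs], by simpa using FEq.refl _ _,
    by simpa using FEq.refl _ _⟩

/-- A member is densely equal to the child at an occurrence. -/
theorem FMem.exists_occ {c b : Elt X} (e : FMem X c b) :
    ∃ o : Occ b, FEq o.Y (c.res o.h) o.c := by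
  obtain ⟨V, k, d, hd, he⟩ := e.exists
  obtain ⟨i, s, hs, rfl⟩ := hd.exists_occ
  exact ⟨⟨V, k, i, s, hs⟩, he⟩

theorem FMem.exists_occ' {b : Elt X} {h : Y ⟶ X} {c : Elt Y} (e : FMem Y c (b.res h)) :
    ∃ (o : Occ b) (k : o.Y ⟶ Y), o.h = k ≫ h ∧ FEq o.Y (c.res k) o.c := by
  obtain ⟨V, k, d, hd, he⟩ := e.exists
  rw [res_res] at hd
  obtain ⟨i, s, hs, rfl⟩ := hd.exists_occ
  exact ⟨⟨V, k ≫ h, i, s, hs⟩, k, rfl, he⟩

theorem Elt.Occ.fmem {b : Elt X} (o : Occ b) : FMem o.Y o.c (b.res o.h) := o.ch.fmem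

end Crest.Agent.R296
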