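import Crest.Agent.R296.Check

/-!
# Forcing over a small category: what `ppAx`, `acwoAx` and `acAx` say.
-/

set_option autoImplicit false

namespace Crest.Agent.R296

open CategoryTheory FirstOrder FirstOrder.Language Crest.LogicCS.SetTheory Elt

universe u

variable {C : Type u} [SmallCategory C] {X Y W : C} {n : ℕ}

/-- `f` is forced to be the graph of a map from `A` onto `B` (the totality clause is dropped). -/
structure SurjG (X : C) (f A B : Elt X) : Prop where
  fn : ∀ (Y : C) (h : Y ⟶ X) (a b b' : Elt Y), FMem Y a (A.res h) → PM Y (f.res h) a b →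
    PM Y (f.res h) a b' → FEq Y b b'
  sur : ∀ (Y : C) (h : Y ⟶ X) (b : Elt Y), FMem Y b (B.res h) →
    ∃ (V : C) (k : V ⟶ Y) (a : Elt V), FMem V a (A.res (k ≫ h)) ∧
      PM V (f.res (k ≫ h)) a (b.res k)

/-- `g` is forced to be the graph of a one-to-one map from `B` into `A`. -/
structure InjG (X : C) (g B A : Elt X) : Prop where
  tot : ∀ (Y : C) (h : Y ⟶ X) (b : Elt Y), FMem Y b (B.res h) →
    ∃ (V : C) (k : V ⟶ Y) (a : Elt V), FMem V a (A.res (k ≫ h)) ∧
      PM V (g.res (k ≫ h)) (b.res k) a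
  fn : ∀ (Y : C) (h : Y ⟶ X) (b a a' : Elt Y), PM Y (g.res h) b a →
    PM Y (g.res h) b a' → FEq Y a a'
  inj : ∀ (Y : C) (h : Y ⟶ X) (b b' a : Elt Y), PM Y (g.res h) b a →
    PM Y (g.res h) b' a → FEq Y b b'

theorem force_all3_imp (f g : setL.BoundedFormula Empty (n + 3)) (v : Fin n → Elt X) :
    Force (∀' ∀' ∀' (f ⟹ g)) X v ↔ ∀ (Y : C) (h : Y ⟶ X) (a b c : Elt Y),
      Force f Y (snc (snc (snc (vres v h) a) b) c) →
      Force g Y (snc (snc (snc (vres v h) a) b) c) := by
  rw [force_all_all]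
  constructor
  · intro H Y h a b c hf
    have := (force_all_imp _ _ _).1 (H Y h a b) Y (𝟙 Y) c
    simp only [vres_id] at this
    exact this hf
  · intro H Y h a b
    rw [force_all_imp]
    intro W k c hf
    simp only [vres_snc, vres_vres] at hf ⊢
    exact H W _ _ _ _ hf

theorem force_all2_imp (f g : setL.BoundedFormula Empty (n + 2)) (v : Fin n → Elt X) :
    Force (∀' ∀' (f ⟹ g)) X v ↔ ∀ (Y : C) (h : Y ⟶ X) (a b : Elt Y),
      Force f Y (snc (snc (vres v h) a) b) → Force g Y (snc (snc (vres v h) a) b) := by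
  rw [force_all]
  constructor
  · intro H Y h a b hf
    have := (force_all_imp _ _ _).1 (H Y h a) Y (𝟙 Y) b
    simp only [vres_id] at this
    exact this hf
  · intro H Y h a
    rw [force_all_imp]
    intro W k c hf
    simp only [vres_snc, vres_vres] at hf ⊢
    exact H W _ _ _ hf

theorem surjG_of_force (f A B : Fin n) (v : Fin n → Elt X) (H : Force (surjGraph f A B) X v) :
    SurjG X (v f) (v A) (v B) := by
  simp only [surjGraph, force_inf, force_all3_imp, force_all_imp, force_ex, force_vmem, force_veq,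
    force_pairMem, snc_last, snc_castSucc, vres_apply, vres_snc, vres_vres] at H
  obtain ⟨⟨-, h2⟩, h3⟩ := H
  exact ⟨fun Y h a b b' k1 k2 k3 => h2 Y h a b b' ⟨⟨k1, k2⟩, k3⟩,
    fun Y h b hb => (h3 Y h b hb).exists⟩

theorem force_of_injG (g B A : Fin n) (v : Fin n → Elt X) (H : InjG X (v g) (v B) (v A)) :
    Force (injGraph g B A) X v := by
  simp only [injGraph, force_inf, force_all3_imp, force_all_imp, force_ex, force_vmem, force_veq,
    force_pairMem, snc_last, snc_castSucc, vres_apply, vres_snc, vres_vres]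
  refine ⟨⟨fun Y h b hb W l => ?_, fun Y h b a a' k => H.fn Y h b a a' k.1.2 k.2⟩,
    fun Y h b b' a k => H.inj Y h b b' a k.1.2 k.2⟩
  obtain ⟨V, k, a, h1, h2⟩ := H.tot W (l ≫ h) (b.res l) (by simpa using hb.res l)
  exact ⟨V, k, a, by simpa using h1, by simpa using h2⟩

theorem SurjG.res {f A B : Elt X} (H : SurjG X f A B) (h : Y ⟶ X) :
    SurjG Y (f.res h) (A.res h) (B.res h) := by
  refine ⟨fun W k a b b' => ?_, fun W k b hb => ?_⟩
  · simpa using H.fn W (k ≫ h) a b b'
  · simpa using H.sur W (k ≫ h) b (by simpa using hb)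

theorem force_pp (H : ∀ (X : C) (f A B : Elt X), SurjG X f A B →
      ∃ (V : C) (k : V ⟶ X) (g : Elt V), InjG V g (B.res k) (A.res k))
    (X : C) (v : Fin 0 → Elt X) : Force (n := 0) ppAx X v := by
  unfold ppAx
  rw [force_all2_imp]
  intro Y h A B hf
  rw [force_ex] at hf ⊢
  refine hf.bind ?_
  rintro V k ⟨f, hf⟩
  obtain ⟨U, l, g, hg⟩ := H V _ _ _ (surjG_of_force _ _ _ _ hf)
  refine ⟨U, l, g, force_of_injG _ _ _ _ ?_⟩
  have e1 : (snc (vres (snc (snc (vres v h) A) B) k) f 1).res l = B.res (l ≫ k) :=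
    res_res B k l
  have e0 : (snc (vres (snc (snc (vres v h) A) B) k) f 0).res l = A.res (l ≫ k) :=
    res_res A k l
  rw [e1, e0] at hg
  exact hg

theorem isTr_of_force (a : Fin n) (v : Fin n → Elt X) (H : Force (isTrans a) X v) :
    IsTr X (v a) := by
  simp only [isTrans, force_all2_imp, force_inf, force_vmem, snc_last, snc_castSucc,
    vres_apply] at H
  exact fun Y h b c h1 h2 => H Y h b c ⟨h1, h2⟩

theorem isOrd_of_force (a : Fin n) (v : Fin n → Elt X) (H : Force (isOrd a) X v) :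
    IsOrd X (v a) := by
  rw [isOrd, force_inf, force_all_imp] at H
  refine ⟨isTr_of_force _ _ H.1, fun Y h b hb => ?_⟩
  have := isTr_of_force _ _ (H.2 Y h b (by simpa using hb))
  simpa using this

theorem force_acwo (H : ∀ (X : C) (o : Ordinal.{u}) (f : Elt X),
      (∀ a < o, ∀ (Y : C) (h : Y ⟶ X), ∃ (V : C) (k : V ⟶ Y) (y : Elt V),
        PM V (f.res (k ≫ h)) (cord V a) y) →
      ∃ (V : C) (k : V ⟶ X) (g : Elt V),
        (∀ a < o, ∀ (Y : C) (h : Y ⟶ V), ∃ (U : C) (l : U ⟶ Y) (y : Elt U),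
          PM U (g.res (l ≫ h)) (cord U a) y ∧ PM U (f.res (l ≫ h ≫ k)) (cord U a) y) ∧
        ∀ (Y : C) (h : Y ⟶ V) (x y y' : Elt Y), PM Y (g.res h) x y → PM Y (g.res h) x y' →
          FEq Y y y')
    (X : C) (v : Fin 0 → Elt X) : Force (n := 0) acwoAx X v := by
  unfold acwoAx
  rw [force_all2_imp]
  intro Y h α f hf
  rw [force_inf, force_all_imp] at hf
  obtain ⟨h1, h2⟩ := hf
  have hα : IsOrd Y α := isOrd_of_force _ _ h1
  have h3 : ∀ (W : C) (k : W ⟶ Y) (x : Elt W), FMem W x (α.res k) →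
      Dense W (fun V l => ∃ y, PM V (f.res (l ≫ k)) (x.res l) y) := by
    intro W k x hx
    have := h2 W k x hx
    rw [force_ex] at this
    refine this.mono ?_
    rintro V l ⟨y, hy⟩
    rw [force_pairMem] at hy
    exact ⟨y, by rw [← res_res]; exact hy⟩
  rw [force_ex]
  intro W l
  obtain ⟨V, k, o, ho⟩ := (hα.res l).exists_cord
  rw [res_res] at ho
  obtain ⟨U, m, g, hg1, hg2⟩ := H V o (f.res (k ≫ l)) (by
    intro a ha Y' h'
    have hm : FMem Y' (cord Y' a) (α.res (h' ≫ k ≫ l)) := by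
      have := (((fmem_cord_cord (X := Y') a o).2 ha).congr_right (cord_res o h').symm).congr_right
        (ho.res h').symm
      simpa using this
    obtain ⟨V', k', y, hy⟩ := (h3 Y' _ _ hm).exists
    exact ⟨V', k', y, by simpa using hy.congr (FEq.refl _ _) (cord_res a k') (FEq.refl _ _)⟩)
  refine ⟨U, m ≫ k, g, ?_⟩
  rw [force_all_imp]
  intro Y' h' x hx
  rw [force_ex]
  have hx' : FMem Y' x (cord Y' o) := by
    have h4 : FMem Y' x ((α.res ((m ≫ k) ≫ l)).res h') := hx
    have h5 := (ho.res (h' ≫ m)).trans (cord_res o _)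
    exact FMem.congr_right (by simpa using h4) h5
  rw [fmem_cord] at hx'
  refine hx'.bind ?_
  rintro V' k' ⟨a, ha, he⟩
  obtain ⟨U', l', y, k1, k2⟩ := hg1 a ha V' (k' ≫ h')
  have he' : FEq U' (cord U' a) (x.res (l' ≫ k')) :=
    (FEq.trans (by simpa using he.res l') (cord_res a l')).symm
  have k1' := k1.congr (FEq.refl _ _) he' (FEq.refl _ _)
  have k2' := k2.congr (FEq.refl _ _) he' (FEq.refl _ _)
  refine ⟨U', l', y, ?_⟩
  rw [force_inf, force_inf, force_pairMem, force_pairMem, force_all_imp]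
  refine ⟨⟨?_, ?_⟩, fun U'' l'' y' hy' => ?_⟩
  · change PM U' ((g.res h').res (l' ≫ k')) (x.res (l' ≫ k')) y
    simpa using k1'
  · change PM U' (((f.res ((m ≫ k) ≫ l)).res h').res (l' ≫ k')) (x.res (l' ≫ k')) y
    simpa using k2'
  · rw [force_pairMem] at hy'
    change PM U'' (((g.res h').res (l' ≫ k')).res l'') ((x.res (l' ≫ k')).res l'') y' at hy'
    change FEq U'' y' (y.res l'')
    refine hg2 U'' (l'' ≫ l' ≫ k' ≫ h') (x.res (l'' ≫ l' ≫ k')) _ _ (by simpa using hy') ?_
    simpa using k1'.res l''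

theorem not_force_ac (F : Elt X)
    (hne : ∀ (Y : C) (h : Y ⟶ X) (x : Elt Y), FMem Y x (F.res h) →
      ∃ (V : C) (k : V ⟶ Y) (z : Elt V), FMem V z (x.res k))
    (hdis : ∀ (Y : C) (h : Y ⟶ X) (x y z : Elt Y), FMem Y x (F.res h) → FMem Y y (F.res h) →
      FMem Y z x → FMem Y z y → FEq Y x y)
    (hno : ∀ (Y : C) (h : Y ⟶ X) (c : Elt Y), ∃ x : Elt Y, FMem Y x (F.res h) ∧
      ∀ (V : C) (k : V ⟶ Y) (z : Elt V), FMem V z (x.res k) → FMem V z (c.res k) →
        ∃ (U : C) (l : U ⟶ V) (z' : Elt U), FMem U z' (x.res (l ≫ k)) ∧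
          FMem U z' (c.res (l ≫ k)) ∧ ¬ FEq U z' (z.res l))
    (v : Fin 0 → Elt X) : ¬ Force (n := 0) acAx X v := by
  intro H
  unfold acAx at H
  rw [force_all_imp] at H
  have H1 := H X (𝟙 X) F (by
    rw [force_inf, force_all_imp, force_all2_imp]
    constructor
    · intro Y h x hx
      rw [force_ex]
      intro W l
      obtain ⟨V, k, z, hz⟩ := hne W (l ≫ h) (x.res l) (by
        have : FMem Y x (F.res h) := hx
        simpa using this.res l)
      refine ⟨V, k, z, ?_⟩
      change FMem V z (x.res (k ≫ l))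
      simpa using hz
    · intro Y h x y hxy
      rw [force_inf, force_inf, force_ex] at hxy
      obtain ⟨⟨hx, hy⟩, hz⟩ := hxy
      change FMem Y x (F.res h) at hx
      change FMem Y y (F.res h) at hy
      change FEq Y x y
      refine FEq.of_dense (hz.mono ?_)
      rintro V k ⟨z, hz⟩
      rw [force_inf] at hz
      exact hdis V (k ≫ h) _ _ z (by simpa using hx.res k) (by simpa using hy.res k) hz.1 hz.2)
  rw [force_ex] at H1
  obtain ⟨Y, h, c, hc⟩ := H1.exists
  rw [force_all_imp] at hc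
  obtain ⟨x, hx, hx'⟩ := hno Y h c
  have h2 := hc Y (𝟙 Y) x (by
    change FMem Y x ((F.res h).res (𝟙 Y))
    simpa using hx)
  rw [force_ex] at h2
  obtain ⟨V, k, z, hz⟩ := h2.exists
  rw [force_inf, force_inf, force_all_imp] at hz
  obtain ⟨⟨k1, k2⟩, k3⟩ := hz
  change FMem V z (x.res k) at k1
  change FMem V z ((c.res (𝟙 Y)).res k) at k2
  obtain ⟨U, l, z', j1, j2, j3⟩ := hx' V k z k1 (by simpa using k2)
  refine j3 (k3 U l z' ?_)
  rw [force_inf]
  constructor
  · change FMem U z' ((x.res k).res l)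
    simpa using j1
  · change FMem U z' (((c.res (𝟙 Y)).res k).res l)
    simpa using j2

end Crest.Agent.R296
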