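import Crest.Agent.R296.Cat
import Crest.Agent.R296.Sem

/-!
# Row 296: the site.

Objects are pairs `(w, p)` with `p` a bounded partial function on (arrows into `w`) `× ω₁`;
an arrow `Y ⟶ X` is an arrow `X.w → Y.w` of `C` pushing `X.p` into `Y.p`.
-/

set_option autoImplicit false

namespace Crest.Agent.R296

open CategoryTheory

universe u

variable {C : MCat.{u}}

/-- The colours. -/
inductive KK (C : MCat.{u}) : Type u
  | leaf (w : ℕ) (u : C.Pt w) : KK C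
  | node (w : ℕ) (D : Set (C.Pt w × W1)) (f : C.Pt w × W1 → KK C) (G m : C.Pt w) : KK C

/-- Objects of the site. -/
structure Ob (S : Spec C) : Type u where
  w : ℕ
  p : ∀ ⦃a : ℕ⦄, C.Hom a w → W1 → KK C → Prop
  fn : ∀ ⦃a : ℕ⦄ (u : C.Hom a w) (ξ : W1) (k k' : KK C), p u ξ k → p u ξ k' → k = k'
  bd : ∃ δ, ∀ ⦃a : ℕ⦄ (u : C.Hom a w) (ξ : W1) (k : KK C), p u ξ k → S.st u < δ ∧ ξ < δ

variable {S : Spec C}

instance : SmallCategory (Ob S) where
  Hom Y X := {m : C.Hom X.w Y.w //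
    ∀ ⦃a : ℕ⦄ (u : C.Hom a X.w) (ξ : W1) (k : KK C), X.p u ξ k → Y.p (C.comp u m) ξ k}
  id X := ⟨C.id _, fun _ u ξ k h => by simpa using h⟩
  comp f g := ⟨C.comp g.1 f.1, fun _ u ξ k h => by simpa using f.2 _ _ _ (g.2 _ _ _ h)⟩
  id_comp f := Subtype.ext (C.comp_id _)
  comp_id f := Subtype.ext (C.id_comp _)
  assoc f g h := Subtype.ext (C.assoc _ _ _).symm

namespace Ob

/-- The underlying arrow. -/
def ar {Y X : Ob S} (h : Y ⟶ X) : C.Hom X.w Y.w := h.1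

theorem push {Y X : Ob S} (h : Y ⟶ X) {a : ℕ} {u : C.Hom a X.w} {ξ : W1} {k : KK C}
    (H : X.p u ξ k) : Y.p (C.comp u (ar h)) ξ k := h.2 u ξ k H

/-- An arrow of the site. -/
def mkAr {Y X : Ob S} (m : C.Hom X.w Y.w)
    (hm : ∀ ⦃a : ℕ⦄ (u : C.Hom a X.w) (ξ : W1) (k : KK C), X.p u ξ k → Y.p (C.comp u m) ξ k) :
    Y ⟶ X := ⟨m, hm⟩

@[simp] theorem ar_mkAr {Y X : Ob S} (m : C.Hom X.w Y.w) (hm) : ar (mkAr (Y := Y) m hm) = m := rfl

@[simp] theorem ar_id (X : Ob S) : ar (𝟙 X) = C.id X.w := rfl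

@[simp] theorem ar_comp {Z Y X : Ob S} (f : Z ⟶ Y) (g : Y ⟶ X) :
    ar (f ≫ g) = C.comp (ar g) (ar f) := rfl

theorem hom_ext {Y X : Ob S} {f g : Y ⟶ X} (h : ar f = ar g) : f = g := Subtype.ext h

/-- A column and stage bound. -/
noncomputable def fresh (Y : Ob S) : W1 := Y.bd.choose

theorem lt_fresh (Y : Ob S) {a : ℕ} {u : C.Hom a Y.w} {ξ : W1} {k : KK C} (h : Y.p u ξ k) :
    S.st u < Y.fresh ∧ ξ < Y.fresh := Y.bd.choose_spec u ξ k h

/-- The empty condition. -/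
@[reducible] def emp (S : Spec C) (w : ℕ) : Ob S where
  w := w
  p := fun _ _ _ _ => False
  fn := fun _ _ _ _ _ h => h.elim
  bd := ⟨⊥, fun _ _ _ _ h => h.elim⟩

/-- A point as an arrow of the site. -/
def toEmp (Y : Ob S) {a : ℕ} (u : C.Hom a Y.w) : Y ⟶ emp S a := mkAr u fun _ _ _ _ h => h.elim

@[simp] theorem ar_toEmp (Y : Ob S) {a : ℕ} (u : C.Hom a Y.w) : ar (Y.toEmp u) = u := rfl

/-- The union of countably many compatible pushed conditions. -/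
@[reducible] def glue (w : ℕ) {ι : Type} [Countable ι] (Y : ι → Ob S) (m : ∀ i, C.Hom (Y i).w w)
    (hc : ∀ i j ⦃a : ℕ⦄ (u : C.Hom a (Y i).w) (u' : C.Hom a (Y j).w) (ξ : W1) (k k' : KK C),
      C.comp u (m i) = C.comp u' (m j) → (Y i).p u ξ k → (Y j).p u' ξ k' → k = k') : Ob S where
  w := w
  p := fun a v ξ k => ∃ (i : ι) (u : C.Hom a (Y i).w), C.comp u (m i) = v ∧ (Y i).p u ξ k
  fn := by
    rintro a v ξ k k' ⟨i, u, rfl, h⟩ ⟨j, u', e, h'⟩
    exact hc i j u u' ξ k k' e.symm h h'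
  bd := by
    obtain ⟨δ, hδ⟩ := W1.bdd_fun (fun i => max (Y i).fresh (S.st (m i)))
    refine ⟨δ, ?_⟩
    rintro a v ξ k ⟨i, u, rfl, h⟩
    have h1 := (Y i).lt_fresh h
    have h2 := max_lt_iff.1 (hδ i)
    exact ⟨(S.st_comp _ _).trans_lt (max_lt (h1.1.trans h2.1) h2.2), h1.2.trans h2.1⟩

/-- The arrows from the glued object. -/
def glueAr (w : ℕ) {ι : Type} [Countable ι] (Y : ι → Ob S) (m : ∀ i, C.Hom (Y i).w w) (hc)
    (i : ι) : glue w Y m hc ⟶ Y i := mkAr (m i) fun _ u _ _ h => ⟨i, u, rfl, h⟩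

@[simp] theorem ar_glueAr (w : ℕ) {ι : Type} [Countable ι] (Y : ι → Ob S)
    (m : ∀ i, C.Hom (Y i).w w) (hc) (i : ι) : ar (glueAr w Y m hc i) = m i := rfl

/-- Adding a fresh column. -/
@[reducible] def add (Y : Ob S) (D : Set (C.Pt Y.w)) (hD : ∃ δ, ∀ t ∈ D, S.st t.2 < δ)
    (c : C.Pt Y.w → KK C) : Ob S where
  w := Y.w
  p := fun a u ξ k => Y.p u ξ k ∨ ((⟨a, u⟩ : C.Pt Y.w) ∈ D ∧ ξ = Y.fresh ∧ k = c ⟨a, u⟩)
  fn := by
    rintro a u ξ k k' (h | ⟨-, rfl, rfl⟩) (h' | ⟨-, h', rfl⟩)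
    · exact Y.fn u ξ k k' h h'
    · exact absurd (Y.lt_fresh h).2 (h' ▸ lt_irrefl _)
    · exact absurd (Y.lt_fresh h').2 (lt_irrefl _)
    · rfl
  bd := by
    obtain ⟨δ, hδ⟩ := hD
    obtain ⟨η, hη⟩ := exists_gt (max δ Y.fresh)
    rw [max_lt_iff] at hη
    refine ⟨η, ?_⟩
    rintro a u ξ k (h | ⟨h, rfl, rfl⟩)
    · exact ⟨(Y.lt_fresh h).1.trans hη.2, (Y.lt_fresh h).2.trans hη.2⟩
    · exact ⟨(hδ _ h).trans hη.1, hη.2⟩

/-- The arrow from the object with one more column. -/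
def addAr (Y : Ob S) (D : Set (C.Pt Y.w)) (hD) (c : C.Pt Y.w → KK C) : Y.add D hD c ⟶ Y :=
  mkAr (C.id Y.w) fun _ u ξ k h => Or.inl (by rw [C.comp_id]; exact h)

@[simp] theorem ar_addAr (Y : Ob S) (D : Set (C.Pt Y.w)) (hD) (c : C.Pt Y.w → KK C) :
    ar (Y.addAr D hD c) = C.id Y.w := rfl

/-- Pulling a condition back. -/
@[reducible] def pull (Y : Ob S) {a : ℕ} (m : C.Hom a Y.w) : Ob S where
  w := a
  p := fun _ u ξ k => Y.p (C.comp u m) ξ k
  fn := fun _ _ ξ k k' h h' => Y.fn _ ξ k k' h h'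
  bd := by
    obtain ⟨η, hη⟩ := exists_gt (max (S.st m) Y.fresh)
    rw [max_lt_iff] at hη
    refine ⟨η, fun b u ξ k h => ⟨(S.st_fac u m).trans_lt (max_lt hη.1 ?_), ?_⟩⟩
    · exact (Y.lt_fresh h).1.trans hη.2
    · exact (Y.lt_fresh h).2.trans hη.2

/-- The arrow to the pulled back object. -/
def pullAr (Y : Ob S) {a : ℕ} (m : C.Hom a Y.w) : Y ⟶ Y.pull m := mkAr m fun _ _ _ _ h => h

@[simp] theorem ar_pullAr (Y : Ob S) {a : ℕ} (m : C.Hom a Y.w) : ar (Y.pullAr m) = m := rfl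

/-- The next object along `e`. -/
@[reducible] def nxt (Y : Ob S) : Ob S :=
  glue (Y.w + 1) (fun _ : Unit => Y) (fun _ => S.e Y.w) fun _ _ _ u u' ξ k k' e h h' => by
    obtain rfl := C.mono _ _ _ e
    exact Y.fn u ξ k k' h h'

/-- The arrow from the next object. -/
def nxtAr (Y : Ob S) : Y.nxt ⟶ Y := glueAr _ (fun _ : Unit => Y) _ _ ()

@[simp] theorem ar_nxtAr (Y : Ob S) : ar Y.nxtAr = S.e Y.w := rfl

open Classical in
/-- A colour coding an object with two points. -/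
noncomputable def lab (x : Σ W : Ob S, C.Pt W.w × C.Pt W.w) : KK C :=
  KK.node x.1.w {y | ∃ k, x.1.p y.1.2 y.2 k}
    (fun y => if h : ∃ k, x.1.p y.1.2 y.2 k then h.choose else KK.leaf 0 ⟨0, C.id 0⟩) x.2.1 x.2.2

theorem lab_injective : Function.Injective (lab (S := S)) := by
  rintro ⟨⟨w, p, fn, bd⟩, G, m⟩ ⟨⟨w', p', fn', bd'⟩, G', m'⟩ h
  simp only [lab, KK.node.injEq] at h
  obtain ⟨rfl, h1, h2, h3, h4⟩ := h
  obtain rfl := eq_of_heq h3
  obtain rfl := eq_of_heq h4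
  replace h1 := eq_of_heq h1
  replace h2 := eq_of_heq h2
  have key : ∀ ⦃a : ℕ⦄ (u : C.Hom a w) (ξ : W1), (∃ k, p u ξ k) ↔ ∃ k, p' u ξ k :=
    fun a u ξ => Set.ext_iff.1 h1 (⟨a, u⟩, ξ)
  obtain rfl : p = p' := by
    funext a u ξ k
    have h5 := congrFun h2 (⟨a, u⟩, ξ)
    apply propext
    constructor
    · intro hk
      have e1 : ∃ k, p u ξ k := ⟨k, hk⟩
      have e2 := (key u ξ).1 e1
      simp only [dif_pos e1, dif_pos e2] at h5
      rw [fn u ξ _ _ hk e1.choose_spec, h5]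
      exact e2.choose_spec
    · intro hk
      have e2 : ∃ k, p' u ξ k := ⟨k, hk⟩
      have e1 := (key u ξ).2 e2
      simp only [dif_pos e1, dif_pos e2] at h5
      rw [fn' u ξ _ _ hk e2.choose_spec, ← h5]
      exact e1.choose_spec
  rfl

end Ob

open Ob

/-- The task with the trivial gate at `w + 1`. -/
def topTask (S : Spec C) {v w ax ax' : ℕ} (x : C.Hom ax v) (x' : C.Hom ax' v)
    (g : Bool → C.Hom ax w)
    (h1 : ∀ {d : ℕ} (i : C.Hom d ax), C.Le (C.comp i x) x' →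
      C.comp i (g false) = C.comp i (g true))
    (h2 : ∀ {d : ℕ} (i i' : C.Hom d ax), C.comp i (g false) = C.comp i' (g true) →
      C.Le (C.comp i x) x') : Task C where
  v := v
  w := w + 1
  ax := ax
  ax' := ax'
  am := w + 1
  x := x
  x' := x'
  ρ := fun l => C.comp (g l) (S.e w)
  m := C.id _
  T := {⟨_, C.id _⟩}
  T_ne := ⟨_, rfl⟩
  T_dir := fun t ht t' ht' => ⟨t, ht, MCat.le_refl _, by
    obtain rfl : t = t' := ht.trans ht'.symm
    exact MCat.le_refl _⟩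
  m_le := by rintro t rfl; exact MCat.le_refl _
  ρ_le := fun l => MCat.le_id _
  m_not := fun l h => S.e_not w (h.trans (MCat.comp_le _ _))
  h1 := fun i hi => by rw [← C.assoc, ← C.assoc, h1 i hi]
  h2 := fun i i' hi => h2 i i' (C.mono _ _ (S.e w) (by simpa using hi))

/-- Solving a task with the trivial gate. -/
theorem Spec.top (S : Spec C) (δ : W1) {v w ax ax' : ℕ} (x : C.Hom ax v) (x' : C.Hom ax' v)
    (g : Bool → C.Hom ax w)
    (h1 : ∀ {d : ℕ} (i : C.Hom d ax), C.Le (C.comp i x) x' →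
      C.comp i (g false) = C.comp i (g true))
    (h2 : ∀ {d : ℕ} (i i' : C.Hom d ax), C.comp i (g false) = C.comp i' (g true) →
      C.Le (C.comp i x) x') :
    ∃ k : Bool → C.Hom v (w + 1), (∀ l, C.comp x (k l) = C.comp (g l) (S.e w)) ∧
      C.comp x' (k false) = C.comp x' (k true) ∧
      (∀ {d : ℕ} (i i' : C.Hom d v), C.comp i (k false) = C.comp i' (k true) → C.Le i x') ∧
      (∀ l {d : ℕ} (j : C.Hom d v), C.Le (C.comp j (k l)) (S.e w) → C.Le j x) ∧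
      (∀ l {d : ℕ} (j : C.Hom d v), S.st (C.comp j (k l)) < δ → C.Le j x) := by
  obtain ⟨η, hη⟩ := exists_gt (max δ (max (S.st (C.id (w + 1))) (S.st (S.e w))))
  simp only [max_lt_iff] at hη
  obtain ⟨k, hk, -⟩ := S.bs η (topTask S x x' g h1 h2) (by rintro t rfl; exact hη.2.1)
  refine ⟨k, hk.root, hk.glue, hk.inter, fun l d j hj => ?_, fun l d j hj => ?_⟩
  · rcases hk.sep l (S.e w) hη.2.2 with ⟨t, rfl, ht⟩ | h
    · exact absurd ht (S.e_not w)
    · have := h _ (MCat.comp_le j (k l)) hj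
      rw [← hk.root l] at this
      exact (MCat.le_comp_right_iff _).1 this
  · have := hk.trace l _ (hj.trans hη.1) (MCat.comp_le j (k l))
    rw [← hk.root l] at this
    exact (MCat.le_comp_right_iff _).1 this

/-- Free amalgamation in the site. -/
theorem amalg (Y W : Ob S) {ax ax' : ℕ} (x : C.Hom ax Y.w) (x' : C.Hom ax' Y.w)
    (g : Bool → C.Hom ax W.w)
    (hg : ∀ l ⦃a : ℕ⦄ (j : C.Hom a ax) (ξ : W1) (k : KK C), Y.p (C.comp j x) ξ k →
      W.p (C.comp j (g l)) ξ k)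
    (h1 : ∀ {d : ℕ} (i : C.Hom d ax), C.Le (C.comp i x) x' →
      C.comp i (g false) = C.comp i (g true))
    (h2 : ∀ {d : ℕ} (i i' : C.Hom d ax), C.comp i (g false) = C.comp i' (g true) →
      C.Le (C.comp i x) x') :
    ∃ (V : Ob S) (e : V ⟶ W) (k : Bool → (V ⟶ Y)),
      (∀ l, C.comp x (ar (k l)) = C.comp (g l) (ar e)) ∧
      C.comp x' (ar (k false)) = C.comp x' (ar (k true)) ∧
      (∀ {d : ℕ} (i i' : C.Hom d Y.w), C.comp i (ar (k false)) = C.comp i' (ar (k true)) →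
        C.Le i x') ∧
      (∀ l {d : ℕ} (j : C.Hom d Y.w), C.Le (C.comp j (ar (k l))) (ar e) → C.Le j x) := by
  obtain ⟨k, k1, k2, k3, k4, -⟩ := S.top ⊥ x x' g h1 h2
  have hmix : ∀ l ⦃a : ℕ⦄ (u : C.Hom a Y.w) (u' : C.Hom a W.w) (ξ : W1) (c c' : KK C),
      C.comp u (k l) = C.comp u' (S.e W.w) → Y.p u ξ c → W.p u' ξ c' → c = c' := by
    intro l a u u' ξ c c' e h h'
    obtain ⟨j, rfl⟩ := k4 l u ⟨u', e.symm⟩
    rw [C.assoc, k1, ← C.assoc] at e
    obtain rfl := C.mono _ _ _ e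
    exact W.fn _ ξ c c' (hg l j ξ c h) h'
  have hft : ∀ ⦃a : ℕ⦄ (u u' : C.Hom a Y.w), C.comp u (k false) = C.comp u' (k true) → u = u' :=
    fun a u u' e => C.mono _ _ (k true) (((k3 u u' e).eq_comp k2).symm.trans e)
  let Z : Option Bool → Ob S := fun o => o.elim W (fun _ => Y)
  let m : ∀ o, C.Hom (Z o).w (W.w + 1) := fun o => match o with
    | none => S.e W.w
    | some l => k l
  have hc : ∀ i j ⦃a : ℕ⦄ (u : C.Hom a (Z i).w) (u' : C.Hom a (Z j).w) (ξ : W1) (c c' : KK C),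
      C.comp u (m i) = C.comp u' (m j) → (Z i).p u ξ c → (Z j).p u' ξ c' → c = c' := by
    rintro (_ | l) (_ | l') a u u' ξ c c' e h h'
    · obtain rfl := C.mono _ _ _ e
      exact W.fn u ξ c c' h h'
    · exact (hmix l' u' u ξ c' c e.symm h' h).symm
    · exact hmix l u u' ξ c c' e h h'
    · have : u = u' := by
        cases l <;> cases l'
        · exact C.mono _ _ _ e
        · exact hft u u' e
        · exact (hft u' u e.symm).symm
        · exact C.mono _ _ _ e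
      subst this
      exact Y.fn u ξ c c' h h'
  exact ⟨glue _ Z m hc, glueAr _ Z m hc none, fun l => glueAr _ Z m hc (some l), k1, k2, k3, k4⟩

end Crest.Agent.R296
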