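import Crest.Agent.R296.B1

/-!
# Row 296: (B4), (B*) and the `Spec`.
-/

set_option autoImplicit false

namespace Crest.Agent.R296

universe u

variable {C : MCat.{u}}

/-- Every arrow of stage `≤ ζ` (`ζ ≠ ⊥`) has a trace of stage `< ζ`. -/
theorem Staged.exists_trace (S : Staged C) {ζ : W1} (hζ : ζ ≠ ⊥) {a z : ℕ} (q : C.Hom a z)
    (hq : S.st q ≤ ζ) : ∃ (b : ℕ) (g : C.Hom b a), S.st g < ζ ∧ S.st (C.comp g q) < ζ ∧
      ∀ {d : ℕ} (i : C.Hom d z), S.st i < ζ → C.Le i q → C.Le i (C.comp g q) := by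
  by_cases h : S.st q < ζ
  · refine ⟨a, C.id a, ?_, by simpa using h, fun i _ hi => by simpa using hi⟩
    rw [S.st_id]; exact bot_lt_iff_ne_bot.mpr hζ
  · obtain ⟨s, hs, -⟩ := S.step ζ hζ
    have N := hs q hq h
    exact ⟨_, (s.tg q).2, N.old_tg, N.old_tr, fun i hi hle => N.tr_max i hi hle⟩

theorem Staged.b4 (S : Staged C) (δ : W1) (w : ℕ) (T : Set (C.Pt w))
    (hT : ∀ t ∈ T, S.st t.2 < δ) {a : ℕ} (u u' : C.Hom a w) (hu : ∃ t ∈ T, C.Le t.2 u)
    (h : ∀ {d : ℕ} (g : C.Hom d a),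
      (∃ t ∈ T, C.Le t.2 (C.comp g u)) ↔ (∃ t ∈ T, C.Le t.2 (C.comp g u'))) :
    ∃ (d : ℕ) (g : C.Hom d a), (∃ t ∈ T, C.Le t.2 (C.comp g u)) ∧
      S.st (C.comp g u) < δ ∧ S.st (C.comp g u') < δ := by
  induction hζ : max (S.st u) (S.st u') using WellFoundedLT.induction generalizing a with
  | ind ζ ih =>
    by_cases hlt : ζ < δ
    · refine ⟨a, C.id a, by simpa using hu, ?_, ?_⟩
      · simpa using (le_max_left _ _).trans_lt (hζ ▸ hlt)
      · simpa using (le_max_right _ _).trans_lt (hζ ▸ hlt)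
    · have hδ : δ ≤ ζ := not_lt.mp hlt
      obtain ⟨t, ht, htu⟩ := hu
      have hne : ζ ≠ ⊥ := ne_bot_of_gt ((hT t ht).trans_le hδ)
      obtain ⟨b, g₁, hg₁, hs₁, hm₁⟩ := S.exists_trace hne u (hζ ▸ le_max_left _ _)
      have h1 : ∃ t ∈ T, C.Le t.2 (C.comp g₁ u) := ⟨t, ht, hm₁ _ ((hT t ht).trans_le hδ) htu⟩
      obtain ⟨t', ht', htu'⟩ := (h g₁).1 h1
      have hle : S.st (C.comp g₁ u') ≤ ζ :=
        (S.st_comp _ _).trans (max_le hg₁.le (hζ ▸ le_max_right _ _))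
      obtain ⟨c, g₂, hg₂, hs₂, hm₂⟩ := S.exists_trace hne (C.comp g₁ u') hle
      have h2 : ∃ t ∈ T, C.Le t.2 (C.comp (C.comp g₂ g₁) u') :=
        ⟨t', ht', by simpa using hm₂ _ ((hT t' ht').trans_le hδ) htu'⟩
      have h3 := (h _).2 h2
      have hs₃ : S.st (C.comp (C.comp g₂ g₁) u) < ζ := by
        rw [C.assoc]
        exact (S.st_comp _ _).trans_lt (max_lt hg₂ hs₁)
      obtain ⟨d, g, k1, k2, k3⟩ := ih _ (max_lt hs₃ (by simpa using hs₂))
        (C.comp (C.comp g₂ g₁) u) (C.comp (C.comp g₂ g₁) u') h3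
        (fun g => by simpa using h (C.comp g (C.comp g₂ g₁))) rfl
      exact ⟨d, C.comp g (C.comp g₂ g₁), by simpa using k1, by simpa using k2, by simpa using k3⟩

theorem Task.Solved.mono {τ : Task C} {old old' : C.APred} {k : Bool → C.Hom τ.v τ.w}
    (h : τ.Solved old k) (ho : ∀ {a z : ℕ} (f : C.Hom a z), old' f → old f) : τ.Solved old' k :=
  ⟨h.root, h.glue, h.inter, h.le_T, fun l _ u hu => h.sep l u (ho u hu),
    fun l _ i hi => h.trace l i (ho i hi)⟩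

theorem Staged.bs (S : Staged C) (δ : W1) (τ : Task C) (hT : ∀ t ∈ τ.T, S.st t.2 < δ) :
    ∃ k : Bool → C.Hom τ.v τ.w, τ.Solved (fun _ _ f => S.st f < δ) k ∧
      ∀ l, ∀ {a d : ℕ} (u : C.Hom a τ.w) (j : C.Hom d τ.v), C.Le τ.m u → ¬ C.Le j τ.x →
        C.Le (C.comp j (k l)) u → ∃ t ∈ τ.T, C.Le t.2 u := by
  obtain ⟨ζ, hζ⟩ := exists_gt (max (max (max δ (S.st τ.x)) (max (S.st τ.x') (S.st τ.m)))
    (max (S.st (τ.ρ false)) (S.st (τ.ρ true))))
  simp only [max_lt_iff] at hζ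
  obtain ⟨⟨⟨h1, h2⟩, h3, h4⟩, h5, h6⟩ := hζ
  have hne : ζ ≠ ⊥ := ne_bot_of_gt h1
  obtain ⟨s, hs, ht⟩ := S.step ζ hne
  obtain ⟨k, hk, hsol, hγ⟩ := ht τ ⟨h2, h3, fun l => by cases l <;> assumption, h4,
    fun t ht => (hT t ht).trans h1⟩
  refine ⟨k, hsol.mono (fun f hf => lt_trans hf h1), ?_⟩
  intro l a d u j hm hj hle
  have hρ : ¬ C.Le (C.comp j (k l)) (τ.ρ l) := by
    rw [← hsol.root l, MCat.le_comp_right_iff]; exact hj
  have hmk : ¬ C.Le τ.m (k l) := fun h => τ.m_not l (hsol.trace l τ.m h4 h)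
  induction hη : S.st u using WellFoundedLT.induction generalizing a with
  | ind η ih =>
    subst hη
    rcases lt_trichotomy (S.st u) ζ with hlt | heq | hgt
    · rcases hsol.sep l u hlt with h | h
      · exact h
      · exact absurd (h _ (MCat.comp_le _ _) hle) hρ
    · have N := hs u heq.le (not_lt.mpr heq.ge)
      have hmt := N.tr_max τ.m h4 hm
      rcases hγ l with h | ⟨hnew, h⟩
      · exact absurd ((MCat.comp_le _ _).trans h) hρ
      · by_cases hg : s.γ u = s.γ (k l)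
        · exact absurd ((h u heq.le (not_lt.mpr heq.ge) hg).trans hmt) N.β_not
        · rcases N.meet_new (k l) (hk l) hnew hg _ hle (MCat.comp_le _ _) with h' | h'
          · obtain ⟨t, ht, hle'⟩ := ih _ (heq ▸ N.old_tr) _ hmt h' rfl
            exact ⟨t, ht, hle'.trans (MCat.comp_le _ _)⟩
          · have N' := hs (k l) (hk l) hnew
            exact absurd (h'.trans (hsol.trace l _ N'.old_tr (MCat.comp_le _ _))) hρ
    · have hne' : S.st u ≠ ⊥ := ne_bot_of_gt hgt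
      obtain ⟨s', hs', -⟩ := S.step (S.st u) hne'
      have N := hs' u le_rfl (lt_irrefl _)
      have hmt := N.tr_max τ.m (h4.trans hgt) hm
      have h' := N.meet_old (k l) ((hk l).trans_lt hgt) (fun h => hmk (hm.trans h)) _ hle
        (MCat.comp_le _ _)
      obtain ⟨t, ht, hle'⟩ := ih _ N.old_tr _ hmt h' rfl
      exact ⟨t, ht, hle'.trans (MCat.comp_le _ _)⟩

/-- The specification from the staged construction. -/
def Staged.spec (S : Staged C) : Spec C where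
  st := S.st
  st_comp := S.st_comp
  st_fac := S.st_fac
  st_meet := S.st_meet
  e := S.e
  e_not := S.e_not
  b1 := S.b1
  b4 := fun δ w T hT _ u u' hu h => S.b4 δ w T hT u u' hu h
  bs := S.bs

end Crest.Agent.R296
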