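import Crest.Agent.R296.StepAux

/-!
# Row 296: one step of the construction (all tasks of `C` are solved freely at once).

RECIPE (diagrammatic order, `f ≫ g := C.comp f g`).
* For `τ : Task C`, `Germ τ z` := quotient of `{(t, r) | t ∈ τ.T, r : Hom t.1 z}` by
  `(t,r) ~ (t',r') :⇔ ∃ t'' ∈ T, ∃ i i', i ≫ t = t'' ∧ i' ≫ t' = t'' ∧ i ≫ r = i' ≫ r'`
  (transitive by `T_dir` and `mono`).  `Germ.map θ f` (post-composition) is functorial, injective
  (mono), and preserves pullbacks: `map θ u = map θ' u'` gives `θ''` with `map θ'' p = θ` for the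
  pullback `p` of `C.meet u u'`.  For `y : Hom d w` below every `t ∈ T` (e.g. `ρ l`, `m`, by `m_le`,
  `ρ_le`) put `θ·y := (y/t) ≫ r : Hom d z` (well defined; `(map θ f)·y = θ·y ≫ f`,
  `θ·(g ≫ y) = g ≫ θ·y`, and `y ↦ θ·y` reflects `Le` and equality since `r` is monic).
* `inductive Raw (a) : ℕ → Type u | old (f : Hom a z) | new (τ) (θ : Germ τ z) (l : Bool)
  (ξ : Raw a τ.v)`; `Raw.map f` acts on the head (`old g ↦ old (g ≫ f)`, `new τ θ l ξ ↦
  new τ (map θ f) l ξ`): functorial, injective, preserves pullbacks.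
  `Valid (old _) = True`, `Valid (new τ θ l ξ) = Valid ξ ∧ ξ ∉ range (map τ.x) ∧
  (l = true → ξ ∉ range (map τ.x'))`; `Valid (map f ξ) ↔ Valid ξ`.
* `K τ θ l ξ := if h : ∃ ζ, map τ.x ζ = ξ then map (θ·ρ l) h.choose else
  new τ θ (if ∃ ζ, map τ.x' ζ = ξ then false else l) ξ`.  Facts: `K (map x ζ) = map (θ·ρ l) ζ`;
  `map f (K θ l ξ) = K (map θ f) l ξ`; `K θ false ξ = K θ true ξ` for `ξ ∈ range (map x')`
  (use `h1`, also at germ level); `map (θ·ρ l) ζ ≠ new τ θ _ _` (else some `t ∈ T` is `≤ ρ l`,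
  against `m_le`, `m_not`), hence `K θ l` injective, and `K θ false ζ = K θ true ζ'` implies
  `ζ ∈ range (map x')` (use `h2`, also at germ level).
* `ev : Raw a z → Raw a' a → Raw a' z`, `ev (old f) = map f`, `ev (new τ θ l ξ) = K τ θ l ∘ ev ξ`.
  `D.Hom a z := {ξ : Raw a z // Valid ξ}`, `comp g f := ev f g`, `id := old id`.
  `ev (map f g) = map f ∘ ev g`, `ev (K θ l g) = K θ l ∘ ev g` give associativity;
  `ev f (old id) = f` for valid `f`; `ev f` is injective and preserves validity.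
* Trace, by induction on valid `q`: there is an old `g` with `g ≫ q` old (= `tr q`) such that for
  `q = new τ θ l ξ` every `i ≤ q` either has head `(τ, θ)` or is `≤ tr q`, and `tr q = y ≫ θ·ρ l`;
  (`tr` of `q` is `K θ l` of the old meet of `tr ξ` with `x`; for new `ξ` the head of `ξ` is not in
  the image of `x`, so lower bounds of `ξ` and `x` are below `tr ξ`.)
  For old `u`: `q ≤ u ↔ θ ∈ range (Germ.map · u)`; `β q := θ·m`.
* Meets in `D`: old/old by pullback preservation; new/old: `q` or `tr q ∧ u`; different heads: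
  `q`, `q'` or `tr q ∧ tr q'`; same head: induction on depth, `k_l (ξ ∧ ξ')` or
  `k_false (ξ ∧ ξ' ∧ x')`.
* `StepData`: `Γ := Option (Σ τ z, Germ τ z)`, `dep` := nesting depth,
  `kk (τ,z,θ) l z := K τ θ l (old id)` (junk for another `z`).  For a task `τ` of `D` use
  `Task.pull`, `θ₀ := ⟦(t, t.2)⟧`, `k l := K τ θ₀ l (old id)`; `θ₀·y = y`;
  `θ₀ ∈ range (map · u) ↔ ∃ t ∈ T, t ≤ u`.
* Smallness: inject `Raw a z` into `List (Σ τ z, Germ τ z × Bool) × Σ b, Hom a b`; `Task C` is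
  small (inject into a sigma/product of `ℕ`, `Hom`s and `Set (Pt w)`).
-/

set_option autoImplicit false

namespace Crest.Agent.R296

universe u v

namespace StepAux

open Raw

variable {C : MCat.{u}}

/-- The category of normal forms. -/
noncomputable def DC (C : MCat.{u}) : MCat.{u} where
  Hom a z := {ξ : Raw C a z // Valid ξ}
  id a := ⟨old (C.id a), valid_old _⟩
  comp g f := ⟨ev f.1 g.1, g.2.ev f.1⟩
  id_comp f := Subtype.ext (ev_id f.2)
  comp_id f := Subtype.ext (map_id f.1)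
  assoc f g h := Subtype.ext (ev_ev h.1 g.1 f.1).symm
  mono _ _ _ e := Subtype.ext (ev_inj (congrArg Subtype.val e))
  meet u u' := by
    obtain ⟨c, m, ⟨p, hp, h1⟩, ⟨q, hq, h2⟩, h3⟩ := hasM u.2 u'.2
    refine ⟨c, ⟨p, hp⟩, ⟨q, hq⟩, Subtype.ext (h1.trans h2.symm), fun {d} i j e => ?_⟩
    obtain ⟨k, hk, e'⟩ := h3 d _ ⟨i.1, i.2, rfl⟩ ⟨j.1, j.2, (congrArg Subtype.val e).symm⟩
    refine ⟨⟨k, hk⟩, Subtype.ext (ev_inj (f := u.1) ?_)⟩
    rw [← e', ← h1, ev_ev]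

theorem DC_le {a b z : ℕ} {i : (DC C).Hom a z} {q : (DC C).Hom b z} :
    (DC C).Le i q ↔ RLe i.1 q.1 :=
  ⟨fun ⟨g, hg⟩ => ⟨g.1, g.2, congrArg Subtype.val hg⟩,
    fun ⟨g, hg, e⟩ => ⟨⟨g, hg⟩, Subtype.ext e⟩⟩

/-- The embedding of the old arrows. -/
noncomputable def jC (C : MCat.{u}) : Emb C (DC C) where
  ι f := ⟨old f, valid_old f⟩
  inj f g h := by
    have := congrArg Subtype.val h
    simpa using this
  map_id _ := rfl
  map_comp _ _ := rfl
  fac f g h e := by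
    obtain ⟨f', e', -⟩ := map_eq_old (congrArg Subtype.val e)
    exact ⟨f', Subtype.ext e'.symm⟩
  meet i u u' h := by
    obtain ⟨⟨g, hg⟩, ⟨g', hg'⟩, h3⟩ := h
    refine ⟨⟨⟨old g, valid_old _⟩, Subtype.ext (congrArg old hg)⟩,
      ⟨⟨old g', valid_old _⟩, Subtype.ext (congrArg old hg')⟩, fun {d} n k1 k2 => ?_⟩
    obtain ⟨c, p, q, hpq, hp⟩ := C.meet u u'
    obtain ⟨ζ, hζ⟩ := (DC_le.1 k1).in
    obtain ⟨ζ', hζ'⟩ := (DC_le.1 k2).in
    obtain ⟨η, rfl, -⟩ := pb hpq hp (hζ.trans hζ'.symm)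
    obtain ⟨k, hk⟩ := h3 (C.comp p u) ⟨p, rfl⟩ ⟨q, hpq.symm⟩
    exact DC_le.2 (In.rle ⟨map k η, by rw [← hζ, map_map, map_map, hk]⟩ n.2)

theorem le_old {a b z : ℕ} {i : (DC C).Hom a z} {u : C.Hom b z} :
    (DC C).Le i ((jC C).ι u) ↔ In u i.1 :=
  DC_le.trans ⟨RLe.in, fun h => h.rle i.2⟩

/-- The new arrows. -/
noncomputable def kD {τ : Task C} {z : ℕ} (θ : Germ τ z) (l : Bool) : (DC C).Hom τ.v z :=
  ⟨K θ l (old (C.id τ.v)), (valid_old _).K θ l⟩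

theorem comp_kD {τ : Task C} {a z : ℕ} (θ : Germ τ z) (l : Bool) (i : (DC C).Hom a τ.v) :
    ((DC C).comp i (kD θ l)).1 = K θ l i.1 := ev_K_id θ l i.1

/-- The gate of a word. -/
def gam {a z : ℕ} : Raw C a z → Option (Σ (τ : Task C) (z : ℕ), Germ τ z)
  | old _ => none
  | new τ θ _ _ => some ⟨τ, z, θ⟩

/-- The value of the head on `m`. -/
noncomputable def bet {a z : ℕ} : Raw C a z → (DC C).Pt z
  | old _ => ⟨z, (DC C).id z⟩
  | new τ θ _ _ => ⟨τ.am, (jC C).ι θ.β⟩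

/-- The new arrows of a gate. -/
noncomputable def kk (g : Option (Σ (τ : Task C) (z : ℕ), Germ τ z)) (l : Bool) (z : ℕ) :
    (DC C).Pt z :=
  match g with
  | none => ⟨z, (DC C).id z⟩
  | some ⟨τ, z', θ⟩ =>
    if h : z' = z then h ▸ (⟨τ.v, kD θ l⟩ : (DC C).Pt z') else ⟨z, (DC C).id z⟩

theorem kk_some {τ : Task C} {z : ℕ} (θ : Germ τ z) (l : Bool) :
    kk (some ⟨τ, z, θ⟩) l z = ⟨τ.v, kD θ l⟩ := dif_pos rfl

/-- The bookkeeping data. -/
noncomputable def sD (C : MCat.{u}) : StepData (DC C) where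
  Γ := Option (Σ (τ : Task C) (z : ℕ), Germ τ z)
  γ q := gam q.1
  dep q := dep q.1
  tg q := ⟨(trace q.2).choose, (jC C).ι (trace q.2).choose_spec.choose⟩
  β q := bet q.1
  kk := kk

theorem new_of_not_rng {a z : ℕ} (q : (DC C).Hom a z) (h : ¬ (jC C).rng q) :
    ∃ (τ : Task C) (θ : Germ τ z) (l : Bool) (ξ : Raw C a τ.v) (hv : Valid (new τ θ l ξ)),
      q = ⟨new τ θ l ξ, hv⟩ := by
  obtain ⟨q, hq⟩ := q
  cases q with
  | old f => exact absurd ⟨f, rfl⟩ h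
  | new τ θ l ξ => exact ⟨τ, θ, l, ξ, hq, rfl⟩

theorem tr_spec {a z : ℕ} (q : (DC C).Hom a z) :
    ∃ y : C.Hom ((sD C).tg q).1 z, (DC C).comp ((sD C).tg q).2 q = (jC C).ι y ∧
      (∀ (τ : Task C) (θ : Germ τ z) (l : Bool) (ξ : Raw C a τ.v), q.1 = new τ θ l ξ →
        C.Le y (θ.R l)) ∧
      ∀ {d : ℕ} (i : (DC C).Hom d z), (DC C).Le i q →
        SameHead i.1 q.1 ∨ (DC C).Le i ((jC C).ι y) := by
  obtain ⟨y, h1, h2, h3⟩ := (trace q.2).choose_spec.choose_spec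
  refine ⟨y, Subtype.ext h1, h2, ?_⟩
  rintro d _ ⟨η, rfl⟩
  exact (h3 d η.1).imp id le_old.2

theorem gam_of_same {a b z : ℕ} {i : Raw C a z} {q : Raw C b z} (h : SameHead i q) :
    gam i = gam q := by
  obtain ⟨τ, θ, l, l', ξ, ξ', rfl, rfl⟩ := h
  rfl

theorem newOK {a z : ℕ} (q : (DC C).Hom a z) (h : ¬ (jC C).rng q) :
    NewOK (jC C).rng (fun _ _ _ => True) (sD C) q := by
  obtain ⟨y, h1, h2, h3⟩ := tr_spec q
  obtain ⟨τ, θ, l, ξ, hv, rfl⟩ := new_of_not_rng q h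
  have hy := h2 τ θ l ξ rfl
  have hold : ∀ {b : ℕ} (u : C.Hom b z), ¬ In u (new τ θ l ξ) → ∀ {d : ℕ} (i : (DC C).Hom d z),
      (DC C).Le i ⟨new τ θ l ξ, hv⟩ → (DC C).Le i ((jC C).ι u) → (DC C).Le i ((jC C).ι y) :=
    fun u hu d i k1 k2 => (h3 i k1).resolve_left fun hs => hu (hs.in (le_old.1 k2))
  refine ⟨⟨_, rfl⟩, ⟨y, h1.symm⟩, ⟨θ.β, rfl⟩, ?_, ?_, ?_, ?_, ?_, ?_, ?_⟩
  · rw [h1]
    exact ((jC C).le_iff y θ.β).2 (hy.trans (MCat.comp_le _ _))
  · rw [h1]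
    intro hle
    obtain ⟨g, hg⟩ := (((jC C).le_iff θ.β y).1 hle).trans hy
    have e : C.comp g (sg τ l) = C.id _ := C.mono _ _ θ.β (by simpa [Germ.R] using hg)
    exact τ.m_not l ⟨g, by rw [← sg_spec, ← C.assoc, e, C.id_comp]⟩
  · rintro d _ ⟨i, rfl⟩ hle
    rw [h1]
    refine (h3 _ hle).resolve_left ?_
    rintro ⟨_, _, _, _, _, _, e, -⟩
    cases e
  · rintro b _ ⟨u, rfl⟩ hle
    obtain ⟨ζ, hζ⟩ := le_old.1 hle
    obtain ⟨θ', -, e⟩ := map_eq_new hζ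
    exact ((jC C).le_iff θ.β u).2 ⟨θ'.β, by rw [← e, Germ.β_map]⟩
  · rintro b _ ⟨u, rfl⟩ hn d i k1 k2
    rw [h1]
    exact hold u (fun h => hn (le_old.2 h)) i k1 k2
  · intro b q' _ _ hne d i k1 k2
    obtain ⟨y', h1', -, h3'⟩ := tr_spec q'
    rw [h1, h1']
    rcases h3 i k1 with a1 | a1
    · rcases h3' i k2 with a2 | a2
      · exact absurd ((gam_of_same a1).symm.trans (gam_of_same a2)) hne
      · exact Or.inr a2
    · exact Or.inl a1
  · have key : ∀ P : (DC C).Pt z, P = ⟨τ.v, kD θ l⟩ → ∃ f : (DC C).Hom a P.1,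
        (DC C).comp f P.2 = ⟨new τ θ l ξ, hv⟩ ∧ True ∧
          ((jC C).rng f ∨ (sD C).dep f < (sD C).dep (⟨new τ θ l ξ, hv⟩ : (DC C).Hom a z)) := by
      rintro _ rfl
      exact ⟨⟨ξ, hv.1⟩, Subtype.ext ((comp_kD θ l _).trans (K_valid hv)), trivial,
        Or.inr (Nat.lt_succ_self _)⟩
    exact ⟨l, key _ (kk_some θ l)⟩

/-- Below a new arrow of the identity germ. -/
theorem below_kD (τ : Task C) (l : Bool) {d : ℕ} (i : (DC C).Hom d τ.w)
    (h : (DC C).Le i (kD (Germ.one τ) l)) :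
    (DC C).Le i ((jC C).ι (τ.ρ l)) ∨ ∃ l' ξ, i.1 = new τ (Germ.one τ) l' ξ := by
  obtain ⟨η, rfl⟩ := h
  by_cases hx : In τ.x η.1
  · obtain ⟨ζ, hζ⟩ := hx
    exact Or.inl (le_old.2 ⟨ζ, by rw [comp_kD, ← hζ, K_map, Germ.R_one]⟩)
  · exact Or.inr ⟨_, _, (comp_kD _ _ _).trans (K_not _ _ hx)⟩

theorem solve (τ' : Task (DC C)) (h : τ'.Old (jC C).rng) :
    ∃ k : Bool → (DC C).Hom τ'.v τ'.w, (∀ _ : Bool, True) ∧
      τ'.Solved (jC C).rng k ∧
      ∀ l, (DC C).Le (k l) (τ'.ρ l) ∨ (¬ (jC C).rng (k l) ∧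
        ∀ {b : ℕ} (q : (DC C).Hom b τ'.w), True →
          ¬ (jC C).rng q → (sD C).γ q = (sD C).γ (k l) → (DC C).Le ((sD C).β q).2 τ'.m) := by
  have hx := τ'.pull_x (jC C) h
  have hx' := τ'.pull_x' (jC C) h
  have hρ := τ'.pull_ρ (jC C) h
  have hm := τ'.pull_m (jC C) h
  refine ⟨fun l => kD (Germ.one (τ'.pull (jC C) h)) l, fun _ => trivial,
    ⟨?_, ?_, ?_, ?_, ?_, ?_⟩, ?_⟩
  · intro l
    rw [← hx, ← hρ]
    refine Subtype.ext ((comp_kD _ l _).trans ?_)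
    have e := K_map (Germ.one (τ'.pull (jC C) h)) l (old (C.id _))
    rw [map, map, C.id_comp, C.id_comp, Germ.R_one] at e
    exact e
  · rw [← hx']
    refine Subtype.ext ((comp_kD _ false _).trans (Eq.trans ?_ (comp_kD _ true _).symm))
    exact K_glue _ _ _ ⟨old (C.id _), congrArg old (C.id_comp _)⟩
  · intro d i i' e
    rw [← hx']
    exact le_old.2 (K_inter ((comp_kD (Germ.one (τ'.pull (jC C) h)) false i).symm.trans
      ((congrArg Subtype.val e).trans (comp_kD (Germ.one (τ'.pull (jC C) h)) true i'))))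
  · intro l t ht
    obtain ⟨g, hg⟩ := h.2.2.2.2 t ht
    have hmem : (⟨t.1, g⟩ : C.Pt τ'.w) ∈ (τ'.pull (jC C) h).T := by
      change (⟨t.1, (jC C).ι g⟩ : (DC C).Pt τ'.w) ∈ τ'.T
      rw [hg]; exact ht
    rw [← hg]
    refine le_old.2 ⟨K (Germ.mk ⟨_, hmem⟩ (C.id _)) l (old (C.id _)), ?_⟩
    rw [map_K, Germ.map_mk, C.id_comp]
    exact congrArg (fun θ => K θ l (old (C.id _))) (Germ.one_eq ⟨_, hmem⟩).symm
  · rintro l a _ ⟨u, rfl⟩
    by_cases hu : ∃ t ∈ (τ'.pull (jC C) h).T, C.Le t.2 u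
    · obtain ⟨t, ht, hle⟩ := hu
      exact Or.inl ⟨(jC C).pt t, ht, ((jC C).le_iff _ _).2 hle⟩
    · refine Or.inr fun {d} i k1 k2 => ?_
      rw [← hρ]
      refine (below_kD (τ'.pull (jC C) h) l i k1).resolve_right ?_
      rintro ⟨l', ξ, e⟩
      obtain ⟨ζ, hζ⟩ := le_old.1 k2
      obtain ⟨θ', -, e'⟩ := map_eq_new (hζ.trans e)
      exact hu (Germ.le_of_map_eq_one e')
  · rintro l d _ ⟨i, rfl⟩ hle
    rw [← hρ]
    refine (below_kD (τ'.pull (jC C) h) l _ hle).resolve_right ?_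
    rintro ⟨l', ξ, e⟩
    cases e
  · intro l
    rcases below_kD (τ'.pull (jC C) h) l _ (MCat.le_refl _) with k1 | ⟨l', ξ, e⟩
    · left
      rw [← hρ]
      exact k1
    · refine Or.inr ⟨?_, fun {b} q _ hq hg => ?_⟩
      · rintro ⟨g, hg⟩
        have := (congrArg Subtype.val hg).trans e
        cases this
      · obtain ⟨τ, θ, l'', ζ, hv, rfl⟩ := new_of_not_rng q hq
        have e' := hg.trans (congrArg gam e)
        cases e'
        rw [← hm]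
        exact ((jC C).le_iff _ _).2 ⟨C.id _, (C.id_comp _).trans (Germ.β_one _).symm⟩

end StepAux

theorem exists_step (C : MCat.{u}) (hs : ∀ a z, Small.{v} (C.Hom a z)) :
    ∃ (D : MCat.{u}) (j : Emb C D), (∀ a z, Small.{v} (D.Hom a z)) ∧
      StepOK D j.rng (fun _ _ _ => True) := by
  refine ⟨StepAux.DC C, StepAux.jC C, fun a z => ?_, StepAux.sD C,
    fun q _ hq => StepAux.newOK q hq, StepAux.solve⟩
  have _ := StepAux.small_raw hs a z
  exact small_subtype _ _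

end Crest.Agent.R296
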