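import Crest.Agent.R296.Transfer

/-!
# Row 296: germs and normal forms for `exists_step` (see the recipe in `Step.lean`).
-/

set_option autoImplicit false

namespace Crest.Agent.R296.StepAux

universe u v

variable {C : MCat.{u}}

/-- Representatives of germs. -/
abbrev GRep (τ : Task C) (z : ℕ) : Type u := Σ t : τ.T, C.Hom t.1.1 z

/-- Agreement on a smaller member of the gate. -/
def GRel (τ : Task C) (z : ℕ) (s s' : GRep τ z) : Prop :=
  ∃ t ∈ τ.T, ∃ (i : C.Hom t.1 s.1.1.1) (i' : C.Hom t.1 s'.1.1.1),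
    C.comp i s.1.1.2 = t.2 ∧ C.comp i' s'.1.1.2 = t.2 ∧ C.comp i s.2 = C.comp i' s'.2

theorem GRel.equiv (τ : Task C) (z : ℕ) : Equivalence (GRel τ z) where
  refl s := ⟨s.1.1, s.1.2, C.id _, C.id _, by simp, by simp, rfl⟩
  symm := fun ⟨t, ht, i, i', h1, h2, h3⟩ => ⟨t, ht, i', i, h2, h1, h3.symm⟩
  trans := by
    rintro s s' s'' ⟨t, ht, i, i', h1, h2, h3⟩ ⟨t', ht', j, j', k1, k2, k3⟩
    obtain ⟨t'', ht'', ⟨a, ha⟩, ⟨b, hb⟩⟩ := τ.T_dir t ht t' ht'
    have e : C.comp a i' = C.comp b j :=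
      C.mono _ _ s'.1.1.2 (by rw [C.assoc, C.assoc, h2, k1, ha, hb])
    refine ⟨t'', ht'', C.comp a i, C.comp b j', by rw [C.assoc, h1, ha],
      by rw [C.assoc, k2, hb], ?_⟩
    rw [C.assoc, C.assoc, h3, ← k3, ← C.assoc, ← C.assoc, e]

/-- Germs of arrows along the gate. -/
def Germ (τ : Task C) (z : ℕ) : Type u := Quot (GRel τ z)

namespace Germ

variable {τ : Task C} {z z' z'' : ℕ}

/-- The germ of a representative. -/
def mk (t : τ.T) (r : C.Hom t.1.1 z) : Germ τ z := Quot.mk _ ⟨t, r⟩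

theorem ind {P : Germ τ z → Prop} (h : ∀ t r, P (mk t r)) (θ : Germ τ z) : P θ :=
  Quot.ind (fun s => h s.1 s.2) θ

theorem mk_eq {t t' : τ.T} {r : C.Hom t.1.1 z} {r' : C.Hom t'.1.1 z} :
    mk t r = mk t' r' ↔ GRel τ z ⟨t, r⟩ ⟨t', r'⟩ :=
  Quot.eq.trans (GRel.equiv τ z).eqvGen_iff

/-- Post-composition. -/
def map (θ : Germ τ z) (f : C.Hom z z') : Germ τ z' :=
  Quot.map (fun s : GRep τ z => (⟨s.1, C.comp s.2 f⟩ : GRep τ z'))
    (fun _ _ ⟨t, ht, i, i', h1, h2, h3⟩ =>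
      ⟨t, ht, i, i', h1, h2, by simp only [← C.assoc, h3]⟩) θ

theorem map_mk (t : τ.T) (r : C.Hom t.1.1 z) (f : C.Hom z z') :
    (mk t r).map f = mk t (C.comp r f) := rfl

theorem map_id (θ : Germ τ z) : θ.map (C.id z) = θ := by
  induction θ using ind with
  | h t r => rw [map_mk, C.comp_id]

theorem map_map (θ : Germ τ z) (f : C.Hom z z') (g : C.Hom z' z'') :
    (θ.map f).map g = θ.map (C.comp f g) := by
  induction θ using ind with
  | h t r => rw [map_mk, map_mk, map_mk, C.assoc]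

theorem map_inj {θ θ' : Germ τ z} {f : C.Hom z z'} (h : θ.map f = θ'.map f) : θ = θ' := by
  induction θ using ind with
  | h t r =>
  induction θ' using ind with
  | h t' r' =>
  obtain ⟨t'', ht, i, i', h1, h2, h3⟩ := mk_eq.1 h
  exact mk_eq.2 ⟨t'', ht, i, i', h1, h2, C.mono _ _ f (by simpa using h3)⟩

theorem pb {a b c : ℕ} {u : C.Hom a z} {u' : C.Hom b z} {p : C.Hom c a}
    (hp : ∀ {d : ℕ} (i : C.Hom d a) (j : C.Hom d b), C.comp i u = C.comp j u' →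
      ∃ k : C.Hom d c, C.comp k p = i)
    {θ : Germ τ a} {θ' : Germ τ b} (h : θ.map u = θ'.map u') : ∃ θ'' : Germ τ c, θ''.map p = θ := by
  induction θ using ind with
  | h t r =>
  induction θ' using ind with
  | h t' r' =>
  obtain ⟨t'', ht, i, i', h1, h2, h3⟩ := mk_eq.1 h
  obtain ⟨k, hk⟩ := hp (C.comp i r) (C.comp i' r') (by simpa using h3)
  exact ⟨mk ⟨t'', ht⟩ k, mk_eq.2 ⟨t'', ht, C.id _, i, by simp, h1, by simpa using hk⟩⟩

/-- The value of a germ on `m`. -/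
noncomputable def β (θ : Germ τ z) : C.Hom τ.am z :=
  Quot.lift (fun s : GRep τ z => C.comp (τ.m_le _ s.1.2).choose s.2) (by
    rintro s s' ⟨t, ht, i, i', h1, h2, h3⟩
    obtain ⟨g, hg⟩ := τ.m_le t ht
    have e1 : (τ.m_le _ s.1.2).choose = C.comp g i :=
      C.mono _ _ s.1.1.2 (by rw [(τ.m_le _ s.1.2).choose_spec, C.assoc, h1, hg])
    have e2 : (τ.m_le _ s'.1.2).choose = C.comp g i' :=
      C.mono _ _ s'.1.1.2 (by rw [(τ.m_le _ s'.1.2).choose_spec, C.assoc, h2, hg])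
    simp only [e1, e2, C.assoc, h3]) θ

theorem β_mk (t : τ.T) (r : C.Hom t.1.1 z) :
    ∃ g, C.comp g t.1.2 = τ.m ∧ (mk t r).β = C.comp g r :=
  ⟨_, (τ.m_le _ t.2).choose_spec, rfl⟩

theorem β_map (θ : Germ τ z) (f : C.Hom z z') : (θ.map f).β = C.comp θ.β f := by
  induction θ using ind with
  | h t r => exact (C.assoc _ _ _).symm

end Germ

/-- The factorisation of `ρ l` through `m`. -/
noncomputable def sg (τ : Task C) (l : Bool) : C.Hom τ.ax τ.am := (τ.ρ_le l).choose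

theorem sg_spec (τ : Task C) (l : Bool) : C.comp (sg τ l) τ.m = τ.ρ l := (τ.ρ_le l).choose_spec

/-- The value of a germ on `ρ l`. -/
noncomputable def Germ.R {τ : Task C} {z : ℕ} (θ : Germ τ z) (l : Bool) : C.Hom τ.ax z :=
  C.comp (sg τ l) θ.β

theorem Germ.R_map {τ : Task C} {z z' : ℕ} (θ : Germ τ z) (f : C.Hom z z') (l : Bool) :
    (θ.map f).R l = C.comp (θ.R l) f := by
  rw [Germ.R, Germ.R, Germ.β_map, C.assoc]

theorem Germ.map_R_ne {τ : Task C} {z : ℕ} (θ : Germ τ z) (l : Bool) (θ' : Germ τ τ.ax) :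
    θ'.map (θ.R l) ≠ θ := by
  induction θ using Germ.ind with
  | h t r =>
  induction θ' using Germ.ind with
  | h t' r' =>
  intro h
  obtain ⟨g, hg, e⟩ := Germ.β_mk t r
  obtain ⟨t'', ht, i, i', h1, h2, h3⟩ := Germ.mk_eq.1 h
  refine τ.m_not l ((τ.m_le t'' ht).trans ⟨C.comp i r', ?_⟩)
  have e1 : C.comp (C.comp i r') (C.comp (sg τ l) g) = i' :=
    C.mono _ _ r (by simpa [Germ.R, e] using h3)
  rw [← h2, ← e1, ← sg_spec, ← hg]
  simp

/-- The germ of the identity. -/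
noncomputable def Germ.one (τ : Task C) : Germ τ τ.w :=
  Germ.mk ⟨τ.T_ne.choose, τ.T_ne.choose_spec⟩ τ.T_ne.choose.2

theorem Germ.one_eq {τ : Task C} (t : τ.T) : Germ.one τ = Germ.mk t t.1.2 := by
  obtain ⟨t'', ht, ⟨a, ha⟩, ⟨b, hb⟩⟩ := τ.T_dir _ τ.T_ne.choose_spec _ t.2
  exact Germ.mk_eq.2 ⟨t'', ht, a, b, ha, hb, ha.trans hb.symm⟩

theorem Germ.β_one (τ : Task C) : (Germ.one τ).β = τ.m := by
  obtain ⟨g, hg, e⟩ := Germ.β_mk (τ := τ) ⟨τ.T_ne.choose, τ.T_ne.choose_spec⟩ τ.T_ne.choose.2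
  exact e.trans hg

theorem Germ.R_one (τ : Task C) (l : Bool) : (Germ.one τ).R l = τ.ρ l := by
  rw [Germ.R, Germ.β_one, sg_spec]

theorem Germ.le_of_map_eq_one {τ : Task C} {a : ℕ} {θ : Germ τ a} {u : C.Hom a τ.w}
    (h : θ.map u = Germ.one τ) : ∃ t ∈ τ.T, C.Le t.2 u := by
  induction θ using Germ.ind with
  | h t r =>
  obtain ⟨t'', ht, i, i', h1, h2, h3⟩ := Germ.mk_eq.1 h
  exact ⟨t'', ht, C.comp i r, by rw [C.assoc]; exact h3.trans h2⟩

/-- Words. -/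
inductive Raw (C : MCat.{u}) (a : ℕ) : ℕ → Type u
  | old {z : ℕ} (f : C.Hom a z) : Raw C a z
  | new {z : ℕ} (τ : Task C) (θ : Germ τ z) (l : Bool) (ξ : Raw C a τ.v) : Raw C a z

namespace Raw

variable {a a' a'' z z' z'' : ℕ}

/-- Post-composition with an old arrow. -/
def map (f : C.Hom z z') : Raw C a z → Raw C a z'
  | old g => old (C.comp g f)
  | new τ θ l ξ => new τ (θ.map f) l ξ

theorem map_id (ξ : Raw C a z) : map (C.id z) ξ = ξ := by
  cases ξ <;> simp [map, Germ.map_id]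

theorem map_map (f : C.Hom z z') (g : C.Hom z' z'') (ξ : Raw C a z) :
    map g (map f ξ) = map (C.comp f g) ξ := by
  cases ξ <;> simp [map, Germ.map_map]

theorem new_inj {τ : Task C} {θ θ' : Germ τ z} {l l' : Bool} {ξ ξ' : Raw C a τ.v}
    (h : new τ θ l ξ = new τ θ' l' ξ') : θ = θ' ∧ l = l' ∧ ξ = ξ' := by
  simpa using h

theorem map_eq_new {f : C.Hom z z'} {ζ : Raw C a z} {τ : Task C} {θ : Germ τ z'} {l : Bool}
    {ξ : Raw C a τ.v} (h : map f ζ = new τ θ l ξ) :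
    ∃ θ' : Germ τ z, ζ = new τ θ' l ξ ∧ θ'.map f = θ := by
  cases ζ with
  | old g => cases h
  | new τ' θ' l' ξ' =>
    cases h
    exact ⟨θ', rfl, rfl⟩

theorem map_eq_old {f : C.Hom z z'} {ζ : Raw C a z} {g : C.Hom a z'} (h : map f ζ = old g) :
    ∃ g', ζ = old g' ∧ C.comp g' f = g := by
  cases ζ with
  | old g => cases h; exact ⟨g, rfl, rfl⟩
  | new τ' θ' l' ξ' => cases h

theorem map_inj {f : C.Hom z z'} {ξ ξ' : Raw C a z} (h : map f ξ = map f ξ') : ξ = ξ' := by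
  cases ξ' with
  | old g =>
    obtain ⟨g', rfl, e⟩ := map_eq_old h
    rw [C.mono _ _ _ e]
  | new τ θ l ζ =>
    obtain ⟨θ', rfl, e⟩ := map_eq_new h
    rw [Germ.map_inj e]

theorem pb {b b' c : ℕ} {u : C.Hom b z} {u' : C.Hom b' z} {p : C.Hom c b} {q : C.Hom c b'}
    (hpq : C.comp p u = C.comp q u')
    (hp : ∀ {d : ℕ} (i : C.Hom d b) (j : C.Hom d b'), C.comp i u = C.comp j u' →
      ∃ k : C.Hom d c, C.comp k p = i)
    {ξ : Raw C a b} {ξ' : Raw C a b'} (h : map u ξ = map u' ξ') :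
    ∃ ζ : Raw C a c, map p ζ = ξ ∧ map q ζ = ξ' := by
  suffices H : ∃ ζ : Raw C a c, map p ζ = ξ by
    obtain ⟨ζ, rfl⟩ := H
    exact ⟨ζ, rfl, map_inj (f := u') (by rw [← h, map_map, map_map, hpq])⟩
  cases ξ' with
  | old g =>
    obtain ⟨g', rfl, e⟩ := map_eq_old h
    obtain ⟨k, rfl⟩ := hp g' g e
    exact ⟨old k, rfl⟩
  | new τ θ l ζ =>
    obtain ⟨θ', rfl, e⟩ := map_eq_new h
    obtain ⟨θ'', rfl⟩ := Germ.pb hp e
    exact ⟨new τ θ'' l ζ, rfl⟩

/-- The word factors through the old arrow `u`. -/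
def In (u : C.Hom z z') (ξ : Raw C a z') : Prop := ∃ ζ, map u ζ = ξ

/-- Normal forms. -/
def Valid : ∀ {z : ℕ}, Raw C a z → Prop
  | _, old _ => True
  | _, new τ _ l ξ => Valid ξ ∧ ¬ In τ.x ξ ∧ (l = true → ¬ In τ.x' ξ)

theorem valid_old (f : C.Hom a z) : Valid (old f) := trivial

theorem valid_new {τ : Task C} {θ : Germ τ z} {l : Bool} {ξ : Raw C a τ.v} :
    Valid (new τ θ l ξ) ↔ Valid ξ ∧ ¬ In τ.x ξ ∧ (l = true → ¬ In τ.x' ξ) := Iff.rfl

theorem valid_map {f : C.Hom z z'} {ξ : Raw C a z} : Valid (map f ξ) ↔ Valid ξ := by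
  cases ξ <;> rfl

open Classical in
/-- Post-composition with a new arrow. -/
noncomputable def K {τ : Task C} (θ : Germ τ z) (l : Bool) (ξ : Raw C a τ.v) : Raw C a z :=
  if h : In τ.x ξ then map (θ.R l) h.choose else new τ θ (if In τ.x' ξ then false else l) ξ

variable {τ : Task C}

theorem K_map (θ : Germ τ z) (l : Bool) (ζ : Raw C a τ.ax) :
    K θ l (map τ.x ζ) = map (θ.R l) ζ := by
  have h : In τ.x (map τ.x ζ) := ⟨ζ, rfl⟩
  rw [K, dif_pos h, map_inj h.choose_spec]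

open Classical in
theorem K_not (θ : Germ τ z) (l : Bool) {ξ : Raw C a τ.v} (h : ¬ In τ.x ξ) :
    K θ l ξ = new τ θ (if In τ.x' ξ then false else l) ξ := dif_neg h

theorem map_K (f : C.Hom z z') (θ : Germ τ z) (l : Bool) (ξ : Raw C a τ.v) :
    map f (K θ l ξ) = K (θ.map f) l ξ := by
  by_cases h : In τ.x ξ
  · obtain ⟨ζ, rfl⟩ := h
    rw [K_map, K_map, map_map, Germ.R_map]
  · rw [K_not _ _ h, K_not _ _ h, map]

theorem K_glue (θ : Germ τ z) (l l' : Bool) {ξ : Raw C a τ.v} (h' : In τ.x' ξ) :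
    K θ l ξ = K θ l' ξ := by
  by_cases h : In τ.x ξ
  · obtain ⟨ζ, rfl⟩ := h
    obtain ⟨ζ', h'⟩ := h'
    obtain ⟨c, p, q, hpq, hp⟩ := C.meet τ.x τ.x'
    obtain ⟨η, rfl, -⟩ := pb hpq hp h'.symm
    have e : C.comp p (sg τ false) = C.comp p (sg τ true) :=
      C.mono _ _ τ.m (by simpa [sg_spec] using τ.h1 p ⟨q, hpq.symm⟩)
    have e' : C.comp p (θ.R false) = C.comp p (θ.R true) := by
      rw [Germ.R, Germ.R, ← C.assoc, e, C.assoc]
    rw [K_map, K_map, map_map, map_map]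
    cases l <;> cases l' <;> simp only [e']
  · rw [K_not _ _ h, K_not _ _ h, if_pos h', if_pos h']

theorem map_R_ne (θ : Germ τ z) (l l' : Bool) (ζ : Raw C a τ.ax) (ξ : Raw C a τ.v) :
    map (θ.R l) ζ ≠ new τ θ l' ξ := fun h => by
  obtain ⟨θ', -, e⟩ := map_eq_new h
  exact Germ.map_R_ne θ l θ' e

theorem K_inj {θ : Germ τ z} {l : Bool} {ξ ξ' : Raw C a τ.v} (e : K θ l ξ = K θ l ξ') :
    ξ = ξ' := by
  by_cases h : In τ.x ξ <;> by_cases h' : In τ.x ξ'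
  · obtain ⟨ζ, rfl⟩ := h
    obtain ⟨ζ', rfl⟩ := h'
    rw [K_map, K_map] at e
    rw [map_inj e]
  · obtain ⟨ζ, rfl⟩ := h
    rw [K_map, K_not _ _ h'] at e
    exact absurd e (map_R_ne _ _ _ _ _)
  · obtain ⟨ζ, rfl⟩ := h'
    rw [K_map, K_not _ _ h] at e
    exact absurd e.symm (map_R_ne _ _ _ _ _)
  · rw [K_not _ _ h, K_not _ _ h'] at e
    exact (new_inj e).2.2

theorem K_inter {θ : Germ τ z} {ξ ξ' : Raw C a τ.v} (e : K θ false ξ = K θ true ξ') :
    In τ.x' ξ := by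
  by_cases h : In τ.x ξ <;> by_cases h' : In τ.x ξ'
  · obtain ⟨ζ, rfl⟩ := h
    obtain ⟨ζ', rfl⟩ := h'
    rw [K_map, K_map, Germ.R, Germ.R, ← map_map, ← map_map] at e
    obtain ⟨c, p, q, hpq, hp⟩ := C.meet (sg τ false) (sg τ true)
    obtain ⟨η, rfl, -⟩ := pb hpq hp (map_inj e)
    obtain ⟨g, hg⟩ := τ.h2 p q (by rw [← sg_spec, ← sg_spec, ← C.assoc, hpq, C.assoc])
    exact ⟨map g η, by rw [map_map, map_map, hg]⟩
  · obtain ⟨ζ, rfl⟩ := h
    rw [K_map, K_not _ _ h'] at e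
    exact absurd e (map_R_ne _ _ _ _ _)
  · obtain ⟨ζ, rfl⟩ := h'
    rw [K_map, K_not _ _ h] at e
    exact absurd e.symm (map_R_ne _ _ _ _ _)
  · rw [K_not _ _ h, K_not _ _ h'] at e
    obtain ⟨-, e1, rfl⟩ := new_inj e
    by_contra hn
    simp [hn] at e1

theorem K_eq {θ : Germ τ z} {l l' : Bool} {ξ ξ' : Raw C a τ.v} (e : K θ l ξ = K θ l' ξ') :
    ξ = ξ' ∧ (l = l' ∨ In τ.x' ξ) := by
  cases l <;> cases l'
  · exact ⟨K_inj e, Or.inl rfl⟩
  · have h := K_inter e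
    exact ⟨K_inj ((K_glue θ true false h).trans e), Or.inr h⟩
  · have h := K_inter e.symm
    obtain rfl := K_inj (e.trans (K_glue θ false true h))
    exact ⟨rfl, Or.inr h⟩
  · exact ⟨K_inj e, Or.inl rfl⟩

theorem Valid.K {ξ : Raw C a τ.v} (hξ : Valid ξ) (θ : Germ τ z) (l : Bool) : Valid (K θ l ξ) := by
  by_cases h : In τ.x ξ
  · obtain ⟨ζ, rfl⟩ := h
    rw [K_map, valid_map]
    exact valid_map.1 hξ
  · rw [K_not _ _ h]
    refine ⟨hξ, h, fun hl h' => ?_⟩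
    simp [h'] at hl

theorem K_valid {θ : Germ τ z} {l : Bool} {ξ : Raw C a τ.v} (h : Valid (new τ θ l ξ)) :
    K θ l ξ = new τ θ l ξ := by
  rw [K_not _ _ h.2.1]
  split_ifs with h'
  · cases l
    · rfl
    · exact absurd h' (h.2.2 rfl)
  · rfl

/-- Composition: `ev f g` is first `g`, then `f`. -/
noncomputable def ev : ∀ {z : ℕ}, Raw C a z → Raw C a' a → Raw C a' z
  | _, old f, η => map f η
  | _, new _ θ l ξ, η => K θ l (ev ξ η)

theorem ev_old (f : C.Hom a z) (η : Raw C a' a) : ev (old f) η = map f η := rfl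

theorem ev_new (θ : Germ τ z) (l : Bool) (ξ : Raw C a τ.v) (η : Raw C a' a) :
    ev (new τ θ l ξ) η = K θ l (ev ξ η) := rfl

theorem ev_map (f : C.Hom z z') (g : Raw C a z) (η : Raw C a' a) :
    ev (map f g) η = map f (ev g η) := by
  cases g with
  | old g => exact (map_map _ _ _).symm
  | new τ θ l ξ => exact (map_K _ _ _ _).symm

theorem ev_K (θ : Germ τ z) (l : Bool) (g : Raw C a τ.v) (η : Raw C a' a) :
    ev (K θ l g) η = K θ l (ev g η) := by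
  by_cases h : In τ.x g
  · obtain ⟨ζ, rfl⟩ := h
    rw [K_map, ev_map, ev_map, K_map]
  · rw [K_not _ _ h, ev_new]
    split_ifs with h'
    · obtain ⟨ζ, rfl⟩ := h'
      exact K_glue _ _ _ ⟨_, (ev_map _ _ _).symm⟩
    · rfl

theorem ev_ev (f : Raw C a z) (g : Raw C a' a) (h : Raw C a'' a') :
    ev (ev f g) h = ev f (ev g h) := by
  induction f with
  | old f => exact ev_map _ _ _
  | new τ θ l ξ ih => rw [ev_new, ev_new, ev_K, ih]

theorem ev_id {f : Raw C a z} (hf : Valid f) : ev f (old (C.id a)) = f := by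
  induction f with
  | old f => rw [ev_old, map, C.id_comp]
  | new τ θ l ξ ih => rw [ev_new, ih hf.1, K_valid hf]

theorem ev_inj {f : Raw C a z} {g g' : Raw C a' a} (h : ev f g = ev f g') : g = g' := by
  induction f with
  | old f => exact map_inj h
  | new τ θ l ξ ih => exact ih (K_inj h)

theorem Valid.ev {g : Raw C a' a} (hg : Valid g) (f : Raw C a z) : Valid (ev f g) := by
  induction f with
  | old f => exact valid_map.2 hg
  | new τ θ l ξ ih => exact ih.K θ l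

theorem ev_K_id (θ : Germ τ z) (l : Bool) (η : Raw C a τ.v) :
    ev (K θ l (old (C.id τ.v))) η = K θ l η := by
  rw [ev_K, ev_old, map_id]

/-- `i` and `q` are new with the same head. -/
def SameHead (i : Raw C a z) (q : Raw C a' z) : Prop :=
  ∃ (τ : Task C) (θ : Germ τ z) (l l' : Bool) (ξ : Raw C a τ.v) (ξ' : Raw C a' τ.v),
    i = new τ θ l ξ ∧ q = new τ θ l' ξ'

theorem SameHead.in {i : Raw C a z} {q : Raw C a' z} (h : SameHead i q) {u : C.Hom z' z}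
    (hi : In u i) : In u q := by
  obtain ⟨τ, θ, l, l', ξ, ξ', rfl, rfl⟩ := h
  obtain ⟨ζ, hζ⟩ := hi
  obtain ⟨θ', -, rfl⟩ := map_eq_new hζ
  exact ⟨new τ θ' l' ξ', rfl⟩

/-- The trace of a normal form. -/
theorem trace {q : Raw C a z} (hq : Valid q) :
    ∃ (b : ℕ) (g : C.Hom b a) (y : C.Hom b z), ev q (old g) = old y ∧
      (∀ (τ : Task C) (θ : Germ τ z) (l : Bool) (ξ : Raw C a τ.v), q = new τ θ l ξ →
        C.Le y (θ.R l)) ∧
      ∀ (d : ℕ) (η : Raw C d a), SameHead (ev q η) q ∨ In y (ev q η) := by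
  induction q with
  | old f =>
    exact ⟨a, C.id a, f, ev_id hq, fun _ _ _ _ h => (by cases h), fun d η => Or.inr ⟨η, rfl⟩⟩
  | new τ θ l ξ ih =>
    obtain ⟨b, g, y, h1, -, h3⟩ := ih hq.1
    obtain ⟨c, p, p', hpp, hp⟩ := C.meet y τ.x
    refine ⟨c, C.comp p g, C.comp p' (θ.R l), ?_, ?_, fun d η => ?_⟩
    · have e : ev ξ (old (C.comp p g)) = map τ.x (old p') := by
        rw [show (old (C.comp p g) : Raw C c a) = ev (old g) (old p) from rfl, ← ev_ev, h1, ev_old,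
          map, map, hpp]
      rw [ev_new, e, K_map, map]
    · intro τ' θ' l' ξ' h
      cases h
      exact ⟨p', rfl⟩
    · rw [ev_new]
      by_cases h : In τ.x (ev ξ η)
      · right
        obtain ⟨ζ', hζ'⟩ := (h3 d η).resolve_left fun hs => hq.2.1 (hs.in h)
        obtain ⟨ζ, hζ⟩ := h
        obtain ⟨ζ'', -, rfl⟩ := pb hpp hp (hζ'.trans hζ.symm)
        exact ⟨ζ'', by rw [← hζ, K_map, map_map]⟩
      · exact Or.inl ⟨τ, θ, _, l, _, ξ, K_not _ _ h, rfl⟩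

/-- Factorisation through a normal form. -/
def RLe (i : Raw C a' z) (q : Raw C a z) : Prop := ∃ g, Valid g ∧ ev q g = i

theorem RLe.refl {q : Raw C a z} (hq : Valid q) : RLe q q := ⟨_, valid_old _, ev_id hq⟩

theorem RLe.valid {i : Raw C a' z} {q : Raw C a z} (h : RLe i q) : Valid i := by
  obtain ⟨g, hg, rfl⟩ := h
  exact hg.ev q

theorem RLe.trans {i : Raw C a'' z} {q : Raw C a' z} {r : Raw C a z} (h : RLe i q)
    (h' : RLe q r) : RLe i r := by
  obtain ⟨g, hg, rfl⟩ := h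
  obtain ⟨g', -, rfl⟩ := h'
  exact ⟨_, hg.ev g', (ev_ev _ _ _).symm⟩

theorem RLe.in {i : Raw C a z} {u : C.Hom z' z} (h : RLe i (old u)) : In u i :=
  h.imp fun _ h => h.2

theorem In.rle {i : Raw C a z} {u : C.Hom z' z} (h : In u i) (hi : Valid i) : RLe i (old u) := by
  obtain ⟨ζ, rfl⟩ := h
  exact ⟨ζ, valid_map.1 hi, rfl⟩

theorem RLe.K {i : Raw C a' τ.v} {q : Raw C a τ.v} (h : RLe i q) (θ : Germ τ z) (l : Bool) :
    RLe (K θ l i) (K θ l q) := by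
  obtain ⟨g, hg, rfl⟩ := h
  exact ⟨g, hg, ev_K _ _ _ _⟩

/-- `q` and `q'` have a meet. -/
def HasM (q : Raw C a z) (q' : Raw C a' z) : Prop :=
  ∃ (c : ℕ) (m : Raw C c z), RLe m q ∧ RLe m q' ∧
    ∀ (d : ℕ) (n : Raw C d z), RLe n q → RLe n q' → RLe n m

theorem HasM.symm {q : Raw C a z} {q' : Raw C a' z} (h : HasM q q') : HasM q' q := by
  obtain ⟨c, m, h1, h2, h3⟩ := h
  exact ⟨c, m, h2, h1, fun d n k1 k2 => h3 d n k2 k1⟩

theorem hasM_of_le {q : Raw C a z} {q' : Raw C a' z} (h : RLe q q') : HasM q q' :=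
  ⟨a, q, RLe.refl h.valid, h, fun _ _ h _ => h⟩

theorem hasM_of_old {q : Raw C a z} {q' : Raw C a' z} {b b' : ℕ} (y : C.Hom b z)
    (y' : C.Hom b' z) (h : RLe (old y) q) (h' : RLe (old y') q')
    (H : ∀ (d : ℕ) (n : Raw C d z), RLe n q → RLe n q' → In y n ∧ In y' n) : HasM q q' := by
  obtain ⟨c, p, p', hpp, hp⟩ := C.meet y y'
  refine ⟨c, old (C.comp p y), RLe.trans ⟨old p, valid_old _, rfl⟩ h,
    RLe.trans ⟨old p', valid_old _, by rw [hpp]; rfl⟩ h', fun d n k1 k2 => ?_⟩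
  obtain ⟨⟨ζ, hζ⟩, ⟨ζ', hζ'⟩⟩ := H d n k1 k2
  obtain ⟨η, rfl, -⟩ := pb hpp hp (hζ.trans hζ'.symm)
  exact In.rle ⟨η, by rw [← hζ, map_map]⟩ k1.valid

theorem hasM_old {q : Raw C a z} (hq : Valid q) (u : C.Hom a' z) : HasM q (old u) := by
  by_cases h : In u q
  · exact hasM_of_le (h.rle hq)
  · obtain ⟨b, g, y, h1, -, h3⟩ := trace hq
    refine hasM_of_old y u ⟨_, valid_old g, h1⟩ (RLe.refl (valid_old _)) fun d n k1 k2 => ?_
    obtain ⟨η, -, rfl⟩ := k1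
    exact ⟨(h3 d η).resolve_left fun hs => h (hs.in k2.in), k2.in⟩

theorem hasM_of_not_same {q : Raw C a z} {q' : Raw C a' z} (hq : Valid q) (hq' : Valid q')
    (hs : ¬ SameHead q q') : HasM q q' := by
  by_cases h : RLe q q'
  · exact hasM_of_le h
  by_cases h' : RLe q' q
  · exact (hasM_of_le h').symm
  obtain ⟨b, g, y, h1, -, h3⟩ := trace hq
  obtain ⟨b', g', y', h1', -, h3'⟩ := trace hq'
  have ly : RLe (old y) q := ⟨_, valid_old g, h1⟩
  have ly' : RLe (old y') q' := ⟨_, valid_old g', h1'⟩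
  refine hasM_of_old y y' ly ly' fun d n k1 k2 => ?_
  obtain ⟨η, -, rfl⟩ := k1
  obtain ⟨η', -, e⟩ := k2
  have a1 := h3 d η
  have a2 := h3' d η'
  rw [e] at a2
  rcases a1 with a1 | a1 <;> rcases a2 with a2 | a2
  · obtain ⟨τ, θ, l, l', ξ, ξ', e1, rfl⟩ := a1
    obtain ⟨τ', θ', k, k', ζ, ζ', e2, rfl⟩ := a2
    rw [e1] at e2
    cases e2
    exact absurd ⟨τ, θ, _, _, _, _, rfl, rfl⟩ hs
  · exact absurd (((a1.in a2).rle hq).trans ly') h
  · exact absurd (((a2.in a1).rle hq').trans ly) h'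
  · exact ⟨a1, a2⟩

theorem hasM {q : Raw C a z} (hq : Valid q) {q' : Raw C a' z} (hq' : Valid q') : HasM q q' := by
  induction q with
  | old f => exact (hasM_old hq' f).symm
  | new τ θ l ξ ih =>
    by_cases hs : SameHead (new τ θ l ξ) q'
    swap
    · exact hasM_of_not_same hq hq' hs
    obtain ⟨τ', θ', k, l', ζ, ξ', e, rfl⟩ := hs
    cases e
    obtain ⟨c, m, h1, h2, h3⟩ := ih hq.1 hq'.1
    rw [← K_valid hq, ← K_valid hq']
    by_cases hl : l = l'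
    · subst hl
      refine ⟨c, K θ l m, h1.K θ l, h2.K θ l, ?_⟩
      rintro d _ ⟨g, hg, rfl⟩ ⟨g', hg', e⟩
      rw [ev_K, ev_K] at e
      rw [ev_K]
      exact (h3 d _ ⟨g, hg, rfl⟩ ⟨g', hg', (K_eq e).1⟩).K θ l
    · obtain ⟨c', m', k1, k2, k3⟩ := hasM_old h1.valid τ.x'
      refine ⟨c', K θ l m', (k1.trans h1).K θ l, ?_, ?_⟩
      · rw [K_glue θ l l' k2.in]
        exact (k1.trans h2).K θ l'
      · rintro d _ ⟨g, hg, rfl⟩ ⟨g', hg', e⟩
        rw [ev_K, ev_K] at e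
        rw [ev_K]
        obtain ⟨e1, e2⟩ := K_eq e.symm
        exact (k3 d _ (h3 d _ ⟨g, hg, rfl⟩ ⟨g', hg', e1.symm⟩)
          ((e2.resolve_left hl).rle (hg.ev ξ))).K θ l

/-- Nesting depth. -/
def dep : ∀ {z : ℕ}, Raw C a z → ℕ
  | _, old _ => 0
  | _, new _ _ _ ξ => dep ξ + 1

/-- Encoding as a list. -/
def enc : ∀ {z : ℕ}, Raw C a z →
    List (Σ (τ : Task C) (z : ℕ), Germ τ z × Bool) × Σ b, C.Hom a b
  | z, old f => ([], ⟨z, f⟩)
  | z, new τ θ l ξ => (⟨τ, z, θ, l⟩ :: (enc ξ).1, (enc ξ).2)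

theorem enc_inj {ξ ξ' : Raw C a z} (h : enc ξ = enc ξ') : ξ = ξ' := by
  induction ξ with
  | old f =>
    cases ξ' with
    | old f' => simpa [enc] using h
    | new τ θ l ζ => simp [enc] at h
  | new τ θ l ζ ih =>
    cases ξ' with
    | old f' => simp [enc] at h
    | new τ' θ' l' ζ' =>
      simp only [enc, Prod.mk.injEq, List.cons.injEq] at h
      obtain ⟨⟨h1, h2⟩, h3⟩ := h
      cases h1
      rw [ih (Prod.ext h2 h3)]

end Raw

theorem small_task (hs : ∀ a z, Small.{v} (C.Hom a z)) : Small.{v} (Task C) := by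
  refine small_of_injective (β := Σ (v w ax ax' am : ℕ), C.Hom ax v × C.Hom ax' v ×
    (Bool → C.Hom ax w) × C.Hom am w × Set (C.Pt w))
    (f := fun τ => ⟨τ.v, τ.w, τ.ax, τ.ax', τ.am, τ.x, τ.x', τ.ρ, τ.m, τ.T⟩) ?_
  rintro ⟨⟩ ⟨⟩ h
  cases h
  rfl

theorem small_germ (hs : ∀ a z, Small.{v} (C.Hom a z)) (τ : Task C) (z : ℕ) :
    Small.{v} (Germ τ z) :=
  small_of_surjective (α := GRep τ z) (f := Quot.mk _) Quot.mk_surjective

theorem small_raw (hs : ∀ a z, Small.{v} (C.Hom a z)) (a z : ℕ) : Small.{v} (Raw C a z) := by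
  have _ := small_task hs
  have _ := small_germ hs
  exact small_of_injective (f := Raw.enc) fun _ _ => Raw.enc_inj

end Crest.Agent.R296.StepAux
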