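import Crest.Agent.R296.Cat

/-!
# Row 296: embeddings, pulling tasks back and pushing `StepOK` forward.
-/

set_option autoImplicit false

namespace Crest.Agent.R296

universe u

variable {C D : MCat.{u}}

theorem Emb.le_iff (j : Emb C D) {a b z : ℕ} (u : C.Hom a z) (v : C.Hom b z) :
    D.Le (j.ι u) (j.ι v) ↔ C.Le u v := by
  constructor
  · rintro ⟨g, hg⟩
    obtain ⟨g', rfl⟩ := j.fac g v u hg
    exact ⟨g', j.inj _ _ (by rw [j.map_comp, hg])⟩
  · rintro ⟨g, rfl⟩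
    exact ⟨j.ι g, (j.map_comp _ _).symm⟩

/-- A lower bound in `D` of two arrows of `C` lies below a lower bound in `C`. -/
theorem Emb.lower (j : Emb C D) {a b d z : ℕ} (u : C.Hom a z) (v : C.Hom b z) (i : D.Hom d z)
    (hu : D.Le i (j.ι u)) (hv : D.Le i (j.ι v)) :
    ∃ (c : ℕ) (i₀ : C.Hom c z), C.Le i₀ u ∧ C.Le i₀ v ∧ D.Le i (j.ι i₀) := by
  obtain ⟨c, i₀, h⟩ := MCat.exists_isMeet u v
  exact ⟨c, i₀, h.1, h.2.1, (j.meet _ _ _ h).2.2 i hu hv⟩

/-- The image of a point. -/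
def Emb.pt (j : Emb C D) {z : ℕ} (t : C.Pt z) : D.Pt z := ⟨t.1, j.ι t.2⟩

/-- A task of `D` whose data lie in the range of `j`, read in `C`. -/
noncomputable def Task.pull (j : Emb C D) (τ : Task D) (h : τ.Old j.rng) : Task C where
  v := τ.v
  w := τ.w
  ax := τ.ax
  ax' := τ.ax'
  am := τ.am
  x := h.1.choose
  x' := h.2.1.choose
  ρ := fun l => (h.2.2.1 l).choose
  m := h.2.2.2.1.choose
  T := j.pt ⁻¹' τ.T
  T_ne := by
    obtain ⟨t, ht⟩ := τ.T_ne
    obtain ⟨g, hg⟩ := h.2.2.2.2 t ht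
    refine ⟨⟨t.1, g⟩, ?_⟩
    change (⟨t.1, j.ι g⟩ : D.Pt τ.w) ∈ τ.T
    rw [hg]; exact ht
  T_dir := by
    intro t ht t' ht'
    obtain ⟨t'', h'', h1, h2⟩ := τ.T_dir _ ht _ ht'
    obtain ⟨g, hg⟩ := h.2.2.2.2 t'' h''
    refine ⟨⟨t''.1, g⟩, ?_, ?_, ?_⟩
    · change (⟨t''.1, j.ι g⟩ : D.Pt τ.w) ∈ τ.T
      rw [hg]; exact h''
    · rw [← j.le_iff, hg]; exact h1
    · rw [← j.le_iff, hg]; exact h2
  m_le := by
    intro t ht
    rw [← j.le_iff, h.2.2.2.1.choose_spec]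
    exact τ.m_le _ ht
  ρ_le := by
    intro l
    rw [← j.le_iff, h.2.2.2.1.choose_spec, (h.2.2.1 l).choose_spec]
    exact τ.ρ_le l
  m_not := by
    intro l
    rw [← j.le_iff, h.2.2.2.1.choose_spec, (h.2.2.1 l).choose_spec]
    exact τ.m_not l
  h1 := by
    intro d i hi
    apply j.inj
    rw [j.map_comp, j.map_comp, (h.2.2.1 false).choose_spec, (h.2.2.1 true).choose_spec]
    apply τ.h1
    rw [← j.le_iff, j.map_comp, h.1.choose_spec, h.2.1.choose_spec] at hi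
    exact hi
  h2 := by
    intro d i i' hi
    rw [← j.le_iff, j.map_comp, h.1.choose_spec, h.2.1.choose_spec]
    apply τ.h2 (j.ι i) (j.ι i')
    have := congrArg j.ι hi
    rw [j.map_comp, j.map_comp, (h.2.2.1 false).choose_spec, (h.2.2.1 true).choose_spec] at this
    exact this

theorem Task.pull_x (j : Emb C D) (τ : Task D) (h : τ.Old j.rng) : j.ι (τ.pull j h).x = τ.x :=
  h.1.choose_spec
theorem Task.pull_x' (j : Emb C D) (τ : Task D) (h : τ.Old j.rng) : j.ι (τ.pull j h).x' = τ.x' :=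
  h.2.1.choose_spec
theorem Task.pull_ρ (j : Emb C D) (τ : Task D) (h : τ.Old j.rng) (l : Bool) :
    j.ι ((τ.pull j h).ρ l) = τ.ρ l := (h.2.2.1 l).choose_spec
theorem Task.pull_m (j : Emb C D) (τ : Task D) (h : τ.Old j.rng) : j.ι (τ.pull j h).m = τ.m :=
  h.2.2.2.1.choose_spec
theorem Task.mem_pull_T (j : Emb C D) (τ : Task D) (h : τ.Old j.rng) (t : C.Pt τ.w) :
    t ∈ (τ.pull j h).T ↔ j.pt t ∈ τ.T := Iff.rfl

/-- `StepOK` transfers along an embedding. -/
theorem StepOK.transfer (j : Emb C D) (old : C.APred) (h : StepOK C old (fun _ _ _ => True))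
    (old' cur' : D.APred)
    (hold : ∀ {a z : ℕ} (f : D.Hom a z), old' f ↔ ∃ g, old g ∧ j.ι g = f)
    (hcur : ∀ {a z : ℕ} (f : D.Hom a z), cur' f ↔ ∃ g, j.ι g = f) :
    StepOK D old' cur' := by
  classical
  obtain ⟨s, hnew, htask⟩ := h
  let s' : StepData D :=
    { Γ := Option s.Γ
      γ := fun f => if h : ∃ g, j.ι g = f then some (s.γ h.choose) else none
      dep := fun f => if h : ∃ g, j.ι g = f then s.dep h.choose else 0
      tg := fun {a z} f => if h : ∃ g, j.ι g = f then j.pt (s.tg h.choose) else ⟨a, D.id a⟩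
      β := fun {a z} f => if h : ∃ g, j.ι g = f then j.pt (s.β h.choose) else ⟨z, D.id z⟩
      kk := fun g l z => match g with
        | some g => j.pt (s.kk g l z)
        | none => ⟨z, D.id z⟩ }
  have hch : ∀ {a z : ℕ} (g : C.Hom a z) (h : ∃ g', j.ι g' = j.ι g), h.choose = g :=
    fun g h => j.inj _ _ h.choose_spec
  have hγ : ∀ {a z : ℕ} (g : C.Hom a z), s'.γ (j.ι g) = some (s.γ g) := by
    intro a z g
    have : ∃ g', j.ι g' = j.ι g := ⟨g, rfl⟩
    simp only [s', dif_pos this, hch g this]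
  have hdep : ∀ {a z : ℕ} (g : C.Hom a z), s'.dep (j.ι g) = s.dep g := by
    intro a z g
    have : ∃ g', j.ι g' = j.ι g := ⟨g, rfl⟩
    simp only [s', dif_pos this, hch g this]
  have htg : ∀ {a z : ℕ} (g : C.Hom a z), s'.tg (j.ι g) = j.pt (s.tg g) := by
    intro a z g
    have : ∃ g', j.ι g' = j.ι g := ⟨g, rfl⟩
    simp only [s', dif_pos this, hch g this]
  have hβ : ∀ {a z : ℕ} (g : C.Hom a z), s'.β (j.ι g) = j.pt (s.β g) := by
    intro a z g
    have : ∃ g', j.ι g' = j.ι g := ⟨g, rfl⟩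
    simp only [s', dif_pos this, hch g this]
  have hold1 : ∀ {a z : ℕ} (g : C.Hom a z), old' (j.ι g) ↔ old g := by
    intro a z g
    rw [hold]
    exact ⟨fun ⟨g', h1, h2⟩ => j.inj _ _ h2 ▸ h1, fun h => ⟨g, h, rfl⟩⟩
  have htr : ∀ {a z : ℕ} (g : C.Hom a z), ∀ P : ∀ b, D.Hom b a → Prop,
      P (s.tg g).1 (j.ι (s.tg g).2) → P (s'.tg (j.ι g)).1 (s'.tg (j.ι g)).2 := by
    intro a z g P hP; rw [htg]; exact hP
  have hbe : ∀ {a z : ℕ} (g : C.Hom a z), ∀ P : ∀ b, D.Hom b z → Prop,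
      P (s.β g).1 (j.ι (s.β g).2) → P (s'.β (j.ι g)).1 (s'.β (j.ι g)).2 := by
    intro a z g P hP; rw [hβ]; exact hP
  refine ⟨s', ?_, ?_⟩
  · intro a z q hq hq'
    obtain ⟨q, rfl⟩ := (hcur q).1 hq
    rw [hold1] at hq'
    have N := hnew q trivial hq'
    refine ⟨?_, ?_, ?_, ?_, ?_, ?_, ?_, ?_, ?_, ?_⟩
    · exact htr q (fun _ t => old' t) ((hold1 _).2 N.old_tg)
    · refine htr q (fun _ t => old' (D.comp t (j.ι q))) ?_
      rw [← j.map_comp]; exact (hold1 _).2 N.old_tr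
    · exact hbe q (fun _ t => old' t) ((hold1 _).2 N.old_β)
    · refine htr q (fun _ t => D.Le (D.comp t (j.ι q)) (s'.β (j.ι q)).2) ?_
      refine hbe q (fun _ b => D.Le (D.comp (j.ι (s.tg q).2) (j.ι q)) b) ?_
      rw [← j.map_comp, j.le_iff]; exact N.tr_le_β
    · refine htr q (fun _ t => ¬ D.Le (s'.β (j.ι q)).2 (D.comp t (j.ι q))) ?_
      refine hbe q (fun _ b => ¬ D.Le b (D.comp (j.ι (s.tg q).2) (j.ι q))) ?_
      rw [← j.map_comp, j.le_iff]; exact N.β_not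
    · intro d i hi hle
      obtain ⟨i, -, rfl⟩ := (hold i).1 hi
      refine htr q (fun _ t => D.Le (j.ι i) (D.comp t (j.ι q))) ?_
      rw [← j.map_comp, j.le_iff]
      exact N.tr_max i ((hold1 _).1 hi) ((j.le_iff _ _).1 hle)
    · intro b u hu hle
      obtain ⟨u, -, rfl⟩ := (hold u).1 hu
      refine hbe q (fun _ b => D.Le b (j.ι u)) ?_
      rw [j.le_iff]
      exact N.β_le u ((hold1 _).1 hu) ((j.le_iff _ _).1 hle)
    · intro b u hu hle d i h1 h2
      obtain ⟨u, -, rfl⟩ := (hold u).1 hu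
      obtain ⟨c, i₀, k1, k2, k3⟩ := j.lower _ _ i h1 h2
      refine htr q (fun _ t => D.Le i (D.comp t (j.ι q))) ?_
      refine k3.trans ?_
      rw [← j.map_comp, j.le_iff]
      exact N.meet_old u ((hold1 _).1 hu) (fun h => hle ((j.le_iff _ _).2 h)) i₀ k1 k2
    · intro b q' hq1 hq2 hne d i h1 h2
      obtain ⟨q', rfl⟩ := (hcur q').1 hq1
      rw [hold1] at hq2
      rw [hγ, hγ] at hne
      obtain ⟨c, i₀, k1, k2, k3⟩ := j.lower _ _ i h1 h2
      rcases N.meet_new q' trivial hq2 (fun h => hne (congrArg some h)) i₀ k1 k2 with h | h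
      · left
        refine htr q (fun _ t => D.Le i (D.comp t (j.ι q))) ?_
        refine k3.trans ?_
        rw [← j.map_comp, j.le_iff]; exact h
      · right
        refine htr q' (fun _ t => D.Le i (D.comp t (j.ι q'))) ?_
        refine k3.trans ?_
        rw [← j.map_comp, j.le_iff]; exact h
    · obtain ⟨l, f, h1, -, h3⟩ := N.decomp
      rw [hγ, hdep]
      refine ⟨l, j.ι f, ?_, (hcur _).2 ⟨f, rfl⟩, ?_⟩
      · change D.comp (j.ι f) (j.ι (s.kk (s.γ q) l z).2) = j.ι q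
        rw [← j.map_comp, h1]
      · rcases h3 with h3 | h3
        · exact Or.inl ((hold1 _).2 h3)
        · right
          have := hdep f
          exact this ▸ h3
  · intro τ hτ
    have hr : τ.Old j.rng := by
      refine ⟨?_, ?_, fun l => ?_, ?_, fun t ht => ?_⟩
      · obtain ⟨g, -, hg⟩ := (hold _).1 hτ.1; exact ⟨g, hg⟩
      · obtain ⟨g, -, hg⟩ := (hold _).1 hτ.2.1; exact ⟨g, hg⟩
      · obtain ⟨g, -, hg⟩ := (hold _).1 (hτ.2.2.1 l); exact ⟨g, hg⟩
      · obtain ⟨g, -, hg⟩ := (hold _).1 hτ.2.2.2.1; exact ⟨g, hg⟩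
      · obtain ⟨g, -, hg⟩ := (hold _).1 (hτ.2.2.2.2 t ht); exact ⟨g, hg⟩
    have hx := τ.pull_x j hr
    have hx' := τ.pull_x' j hr
    have hρ := τ.pull_ρ j hr
    have hm := τ.pull_m j hr
    obtain ⟨k, -, hs, hk⟩ := htask (τ.pull j hr) (by
      refine ⟨?_, ?_, fun l => ?_, ?_, fun t ht => ?_⟩
      · rw [← hold1, hx]; exact hτ.1
      · rw [← hold1, hx']; exact hτ.2.1
      · rw [← hold1, hρ]; exact hτ.2.2.1 l
      · rw [← hold1, hm]; exact hτ.2.2.2.1
      · rw [← hold1]; exact hτ.2.2.2.2 _ ht)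
    refine ⟨fun l => j.ι (k l), fun l => (hcur _).2 ⟨_, rfl⟩, ⟨?_, ?_, ?_, ?_, ?_, ?_⟩, ?_⟩
    · intro l; rw [← hx, ← hρ, ← hs.root l, j.map_comp]; rfl
    · rw [← hx']
      have := congrArg j.ι hs.glue
      rw [j.map_comp, j.map_comp] at this
      exact this
    · intro d i i' hi
      obtain ⟨c, i₀, ⟨g, hg⟩, ⟨g', hg'⟩, k3⟩ :=
        j.lower (k false) (k true) (D.comp i (j.ι (k false))) ⟨i, rfl⟩ ⟨i', hi.symm⟩
      have h1 := hs.inter g g' (hg.trans hg'.symm)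
      rw [← hg, j.map_comp] at k3
      replace k3 := (MCat.le_comp_right_iff _).1 k3
      rw [← hx']
      exact k3.trans ((j.le_iff _ _).2 h1)
    · intro l t ht
      obtain ⟨g, hg⟩ := hr.2.2.2.2 t ht
      have : (⟨t.1, g⟩ : C.Pt τ.w) ∈ (τ.pull j hr).T := by
        change (⟨t.1, j.ι g⟩ : D.Pt τ.w) ∈ τ.T
        rw [hg]; exact ht
      rw [← hg]
      exact (j.le_iff _ _).2 (hs.le_T l _ this)
    · intro l a u0 hu0
      obtain ⟨u, hu, rfl⟩ := (hold u0).1 hu0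
      rcases hs.sep l u hu with ⟨t, ht, hle⟩ | h
      · exact Or.inl ⟨j.pt t, ht, (j.le_iff _ _).2 hle⟩
      · right
        intro d i h1 h2
        obtain ⟨c, i₀, k1, k2, k3⟩ := j.lower (k l) u i h1 h2
        rw [← hρ]
        exact k3.trans ((j.le_iff _ _).2 (h i₀ k1 k2))
    · intro l d i0 hi0 hle
      obtain ⟨i, hi, rfl⟩ := (hold i0).1 hi0
      rw [← hρ]
      exact (j.le_iff _ _).2 (hs.trace l i hi ((j.le_iff _ _).1 hle))
    · intro l
      rcases hk l with h | ⟨h1, h2⟩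
      · left; rw [← hρ]; exact (j.le_iff _ _).2 h
      · right
        refine ⟨fun h => h1 ((hold1 _).1 h), ?_⟩
        intro b q hq hq' hg
        obtain ⟨q, rfl⟩ := (hcur q).1 hq
        rw [hold1] at hq'
        have hg' : s.γ q = s.γ (k l) := by
          have h3 := hγ q
          have h4 := hγ (k l)
          exact Option.some.inj (h3.symm.trans (hg.trans h4))
        refine hbe q (fun _ b => D.Le b τ.m) ?_
        rw [← hm]
        exact (j.le_iff _ _).2 (h2 q trivial hq' hg')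

end Crest.Agent.R296
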