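import Mathlib

/-!
# The well-order `ω₁` as a type, with the handful of facts used for row 296.
-/

set_option autoImplicit false

namespace Crest.Agent.R296

open Set

/-- The first uncountable well-order. -/
def W1 : Type := (Cardinal.aleph 1 : Cardinal.{0}).ord.ToType

noncomputable instance : LinearOrder W1 := linearOrder_toType _
instance : WellFoundedLT W1 := wellFoundedLT_toType _

instance : Nonempty W1 := by
  unfold W1
  rw [Ordinal.nonempty_toType_iff]
  intro h
  have := congrArg Ordinal.card h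
  simp at this
  exact (Cardinal.aleph_pos 1).ne' this

noncomputable instance : OrderBot W1 := WellFoundedLT.toOrderBot W1

namespace W1

set_option linter.deprecated false in
theorem countable_Iio (a : W1) : (Iio a).Countable := by
  have h := Cardinal.mk_Iio_toType_ord_lt (c := (Cardinal.aleph 1 : Cardinal.{0})) a
  rw [← Cardinal.le_aleph0_iff_set_countable]
  have h2 : (Cardinal.aleph 1 : Cardinal.{0}) = Order.succ Cardinal.aleph0 := by
    rw [Cardinal.succ_aleph0]
  exact Order.lt_succ_iff.mp (h.trans_eq h2)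

theorem countable_Iic (a : W1) : (Iic a).Countable := by
  rw [← Iio_insert]
  exact (countable_Iio a).insert a

theorem not_countable_univ : ¬ (univ : Set W1).Countable := by
  rw [← Cardinal.le_aleph0_iff_set_countable, Cardinal.mk_univ]
  unfold W1
  rw [Cardinal.mk_toType, Cardinal.card_ord]
  exact not_le.mpr Cardinal.aleph0_lt_aleph_one

/-- Countable sets are strictly bounded. -/
theorem bdd {S : Set W1} (hS : S.Countable) : ∃ b, ∀ a ∈ S, a < b := by
  by_contra h
  push Not at h
  apply not_countable_univ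
  refine (hS.biUnion (fun a _ => countable_Iic a)).mono ?_
  intro b _
  obtain ⟨a, ha, hb⟩ := h b
  exact mem_biUnion ha hb

theorem bdd_fun {ι : Type*} [Countable ι] (f : ι → W1) : ∃ b, ∀ i, f i < b := by
  obtain ⟨b, hb⟩ := bdd (countable_range f)
  exact ⟨b, fun i => hb _ ⟨i, rfl⟩⟩

theorem exists_gt' (a : W1) : ∃ b, a < b := by
  obtain ⟨b, hb⟩ := bdd (countable_singleton a)
  exact ⟨b, hb a rfl⟩

instance : NoMaxOrder W1 := ⟨exists_gt'⟩

/-- Unbounded subsets. -/
def Unb (S : Set W1) : Prop := ∀ b, ∃ a ∈ S, b < a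

theorem unb_univ : Unb univ := fun b => (exists_gt b).imp fun _ h => ⟨trivial, h⟩

theorem Unb.mono {S T : Set W1} (h : Unb S) (hST : S ⊆ T) : Unb T :=
  fun b => (h b).imp fun _ ha => ⟨hST ha.1, ha.2⟩

theorem unb_iff {S : Set W1} : Unb S ↔ ¬ S.Countable := by
  constructor
  · intro h hc
    obtain ⟨b, hb⟩ := bdd hc
    obtain ⟨a, ha, hba⟩ := h b
    exact lt_asymm hba (hb a ha)
  · intro h b
    by_contra hn
    push Not at hn
    exact h ((countable_Iic b).mono fun a ha => hn a ha)

/-- Pigeonhole: a countable colouring of an unbounded set has an unbounded colour class. -/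
theorem Unb.pigeon {S : Set W1} (h : Unb S) {ι : Type*} (c : W1 → ι) (I : Set ι)
    (hI : I.Countable) (hc : ∀ a ∈ S, c a ∈ I) : ∃ i ∈ I, Unb {a | a ∈ S ∧ c a = i} := by
  by_contra hn
  push Not at hn
  apply unb_iff.mp h
  refine (hI.biUnion (t := fun i _ => {a | a ∈ S ∧ c a = i}) (fun i hi => ?_)).mono ?_
  · by_contra hc'
    exact hn i hi (unb_iff.mpr hc')
  · intro a ha
    exact mem_biUnion (hc a ha) ⟨ha, rfl⟩

theorem Unb.or {S : Set W1} (h : Unb S) (P : W1 → Prop) :
    Unb {a | a ∈ S ∧ P a} ∨ Unb {a | a ∈ S ∧ ¬ P a} := by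
  classical
  obtain ⟨i, -, hi⟩ := h.pigeon (fun a => decide (P a)) univ countable_univ (fun _ _ => trivial)
  cases i
  · right; refine hi.mono fun a ha => ⟨ha.1, by simpa using ha.2⟩
  · left; refine hi.mono fun a ha => ⟨ha.1, by simpa using ha.2⟩

/-- Dependent choice along `ω₁`. -/
theorem exists_seq {A : Type*} (R : (α : W1) → (W1 → A) → A → Prop)
    (hR : ∀ α (f g : W1 → A) (a : A), (∀ β < α, f β = g β) → R α f a → R α g a)
    (h : ∀ α (f : W1 → A), (∀ β < α, R β f (f β)) → ∃ a, R α f a) [Nonempty A] :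
    ∃ f : W1 → A, ∀ α, R α f (f α) := by
  classical
  let ext : (α : W1) → ((β : W1) → β < α → A) → W1 → A :=
    fun α g β => if hβ : β < α then g β hβ else Classical.arbitrary A
  let F : (α : W1) → ((β : W1) → β < α → A) → A :=
    fun α g => Classical.epsilon (fun a => R α (ext α g) a)
  let f : W1 → A := WellFounded.fix (wellFounded_lt (α := W1)) F
  have hf : ∀ α, f α = F α (fun β _ => f β) := fun α => WellFounded.fix_eq _ F α
  refine ⟨f, fun α => ?_⟩
  induction α using WellFoundedLT.induction with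
  | ind α ih =>
    obtain ⟨a, ha⟩ := h α f ih
    have hagree : ∀ β < α, f β = ext α (fun β _ => f β) β := by
      intro β hβ; simp [ext, hβ]
    have ha' := hR α _ _ a hagree ha
    have := Classical.epsilon_spec (p := fun a => R α (ext α (fun β _ => f β)) a) ⟨a, ha'⟩
    rw [hf α]
    exact hR α _ _ _ (fun β hβ => (hagree β hβ).symm) this

/-- Thinning an unbounded set along a function. -/
theorem Unb.thin {S : Set W1} (h : Unb S) (b : W1 → W1) :
    ∃ S' ⊆ S, Unb S' ∧ ∀ α ∈ S', ∀ β ∈ S', β < α → b β < α := by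
  obtain ⟨f, hf⟩ := exists_seq (A := W1)
    (fun α f a => a ∈ S ∧ ∀ β < α, f β < a ∧ b (f β) < a)
    (fun α f g a hfg ha => ⟨ha.1, fun β hβ => hfg β hβ ▸ ha.2 β hβ⟩)
    (fun α f _ => by
      have : Countable (Iio α) := (countable_Iio α).to_subtype
      obtain ⟨c, hc⟩ := bdd_fun (fun β : Iio α => max (f β) (b (f β)))
      obtain ⟨a, ha, hca⟩ := h c
      refine ⟨a, ha, fun β hβ => ?_⟩
      have := (hc ⟨β, hβ⟩).trans hca
      exact max_lt_iff.mp this)
  have hmono : StrictMono f := fun β α hβ => ((hf α).2 β hβ).1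
  refine ⟨range f, ?_, ?_, ?_⟩
  · rintro _ ⟨α, rfl⟩; exact (hf α).1
  · rw [unb_iff]
    intro hc
    apply not_countable_univ
    have := hc.preimage_of_injOn (f := f) (hmono.injective.injOn)
    simpa using this
  · rintro _ ⟨α, rfl⟩ _ ⟨β, rfl⟩ hlt
    exact ((hf α).2 β (hmono.lt_iff_lt.mp hlt)).2

/-- Least upper bound of a sequence. -/
theorem exists_lub (f : ℕ → W1) : ∃ d, (∀ n, f n ≤ d) ∧ ∀ a < d, ∃ n, a < f n := by
  obtain ⟨b, hb⟩ := bdd_fun f
  obtain ⟨d, hd, hmin⟩ := (wellFounded_lt (α := W1)).has_min {d | ∀ n, f n ≤ d}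
    ⟨b, fun n => (hb n).le⟩
  refine ⟨d, hd, fun a ha => ?_⟩
  by_contra hn
  push Not at hn
  exact hmin a hn ha

end W1

end Crest.Agent.R296
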