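import Crest.Agent.R296.Formula

/-!
# Forcing over a small category: every postulate of ZF is forced.

RECIPE (all tools are in `Force.lean`, `Formula.lean`: `mkE`, `fmem_mkE`, `fmem_mkE_of`, `Occ`,
`Ch.exists_occ`, `Occ.res`, `FEq.ext`, `FEq.ext_ch`, `Dense.bind`, `force_all_iff`, `force_ex_of`,
`force_sup`, `force_alls`, `force_liftAt`, `Force.congr`, `Force.of_dense`).
Closed numerals `(2 : Fin 3)` in valuations `snc (snc ..)`: use `show`/`rfl` lemmas
(`snc (snc v a) b 1 = b` is `rfl` for literal lengths) or `simp [snc, Fin.snoc]`.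
* ext: `FEq.ext`.  pair: `mkE X (ULift Bool) (fun _ => X) (fun _ => 𝟙 X) (cond · a b)`.
* union of `a`: index `Σ o : Occ a, Occ o.c`, stage `o'.Y`, arrow `o'.h ≫ o.h`, element `o'.c`.
* power of `a`: index `Σ (Y) (h : Y ⟶ X), Set (Occ (a.res h))`, element
  `mkE Y S (·.Y) (·.h) (·.c)`; a forced subset `z` of `a.res h` equals the element for
  `S = {o | FMem o.Y o.c (z.res o.h)}`.
* infinity: `num X 0 := mkE X PEmpty ..`, `num X (n+1) :=` children of `num X n` and `num X n` itself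
  (index `Option (Occ (num X n))`), `ω := mkE X (ULift ℕ) .. (num X ·)`.
* foundation: by `Elt.induction` on `x`: if `FMem Y x a` then at some later stage some `y ∈ a` has
  no later common member with `a` (either `x` works, or a child of `x` lies in `a`).
* separation: index `{o : Occ a // Force φ o.Y (snc (vres v o.h) o.c)}`.
* replacement (only the existence half of the hypothesis is used): index
  `{o : Occ a // ∃ y, Force φ o.Y (snc (snc (vres v o.h) o.c) y)}`, element := the chosen `y`.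
-/

set_option autoImplicit false

namespace Crest.Agent.R296

open CategoryTheory FirstOrder FirstOrder.Language Crest.LogicCS.SetTheory Elt

universe u

variable {C : Type u} [SmallCategory C]

variable {n : ℕ} {X Y W : C}

theorem ZF_occ {a : Elt X} {h : W ⟶ X} {c : Elt W} (e : FMem W c (a.res h)) :
    ∃ (o : Occ a) (k : o.Y ⟶ W), o.h = k ≫ h ∧ FEq o.Y (c.res k) o.c := by
  obtain ⟨V, k, d, hd, he⟩ := e.exists
  rw [res_res] at hd
  obtain ⟨i, s, hs, rfl⟩ := hd.exists_occ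
  exact ⟨⟨V, k ≫ h, i, s, hs⟩, k, rfl, he⟩

theorem ZF_occ_mem {a : Elt X} (o : Occ a) (s : W ⟶ o.Y) :
    FMem W (o.c.res s) (a.res (s ≫ o.h)) := by
  simpa using o.ch.fmem.res s

theorem ZF_pair (a b : Elt X) : ∃ w, IsUP X w a b := by
  refine ⟨mkE X (ULift Bool) (fun _ => X) (fun _ => 𝟙 X) fun i => cond i.down a b,
    fun Y h z => ?_⟩
  rw [fmem_mkE]
  constructor
  · refine fun H => H.mono ?_
    rintro V k ⟨⟨_ | _⟩, s, hs, e⟩ <;> rw [Category.comp_id] at hs <;> subst hs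
    · exact Or.inr e
    · exact Or.inl e
  · refine fun H => H.mono ?_
    rintro V k (e | e)
    · exact ⟨⟨true⟩, _, Category.comp_id _, e⟩
    · exact ⟨⟨false⟩, _, Category.comp_id _, e⟩

theorem ZF_union (a : Elt X) : ∃ u : Elt X, ∀ (Y : C) (h : Y ⟶ X) (z : Elt Y),
    FMem Y z (u.res h) ↔
      Dense Y fun V k => ∃ y, FMem V y (a.res (k ≫ h)) ∧ FMem V (z.res k) y := by
  refine ⟨mkE X (Σ o : Occ a, Occ o.c) (fun i => i.2.Y) (fun i => i.2.h ≫ i.1.h) fun i => i.2.c,
    fun Y h z => ?_⟩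
  rw [fmem_mkE]
  constructor
  · refine fun H => H.mono ?_
    rintro V k ⟨⟨o, o'⟩, s, hs, e⟩
    refine ⟨o.c.res (s ≫ o'.h), ?_, (ZF_occ_mem o' s).congr_left e.symm⟩
    rw [← hs, ← Category.assoc]
    exact ZF_occ_mem o _
  · refine fun H => H.bind ?_
    rintro V k ⟨y, h1, h2⟩
    obtain ⟨o, l, e1, e2⟩ := ZF_occ h1
    obtain ⟨o', m, e3, e4⟩ := ZF_occ (a := o.c) (h := 𝟙 _)
      (by simpa using (h2.res l).congr_right e2)
    exact ⟨_, m ≫ l, ⟨o, o'⟩, 𝟙 _, by simp [e1, e3], by simpa using e4⟩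

/-- the children of `a` at the occurrences in `S` -/
def ZF_sep (a : Elt X) (S : Set (Occ a)) : Elt X :=
  mkE X S (fun o => o.1.Y) (fun o => o.1.h) fun o => o.1.c

theorem ZF_sep_sub {a : Elt X} {S : Set (Occ a)} {h : Y ⟶ X} {z : Elt Y}
    (H : FMem Y z ((ZF_sep a S).res h)) : FMem Y z (a.res h) := by
  refine FMem.of_dense (((fmem_mkE h z).1 H).mono ?_)
  rintro V k ⟨o, s, hs, e⟩
  rw [res_res, ← hs]
  exact (ZF_occ_mem o.1 s).congr_left e.symm

theorem ZF_sep_iff (a : Elt X) (P : ∀ Y : C, (Y ⟶ X) → Elt Y → Prop)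
    (hres : ∀ Y h c W (k : W ⟶ Y), P Y h c → P W (k ≫ h) (c.res k))
    (hcongr : ∀ Y h c c', FEq Y c c' → P Y h c → P Y h c')
    (hdense : ∀ Y h c, Dense Y (fun V k => P V (k ≫ h) (c.res k)) → P Y h c)
    (h : Y ⟶ X) (z : Elt Y) :
    FMem Y z ((ZF_sep a {o | P o.Y o.h o.c}).res h) ↔ FMem Y z (a.res h) ∧ P Y h z := by
  refine ⟨fun H => ⟨ZF_sep_sub H, hdense _ _ _ (((fmem_mkE h z).1 H).mono ?_)⟩, fun H => ?_⟩
  · rintro V k ⟨o, s, hs, e⟩
    rw [← hs]
    exact hcongr _ _ _ _ e.symm (hres _ _ _ _ s o.2)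
  · refine (fmem_mkE h z).2 fun W l => ?_
    obtain ⟨o, k, e1, e2⟩ := ZF_occ (a := a) (h := l ≫ h) (by simpa using H.1.res l)
    refine ⟨_, k, ⟨o, hcongr _ _ _ _ e2 ?_⟩, 𝟙 _, by simp [e1], by simpa using e2⟩
    rw [e1]
    exact hres _ _ _ _ k (hres _ _ _ _ l H.2)

theorem ZF_power (a : Elt X) : ∃ p : Elt X, ∀ (Y : C) (h : Y ⟶ X) (z : Elt Y),
    FMem Y z (p.res h) ↔ ∀ (W : C) (k : W ⟶ Y) (x : Elt W),
      FMem W x (z.res k) → FMem W x (a.res (k ≫ h)) := by
  refine ⟨mkE X (Σ (Y : C) (h : Y ⟶ X), Set (Occ (a.res h))) (fun i => i.1) (fun i => i.2.1)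
    fun i => ZF_sep _ i.2.2, fun Y h z => ⟨fun H W k x hx => ?_, fun H => ?_⟩⟩
  · refine FMem.of_dense ((((fmem_mkE h z).1 H).res k).mono ?_)
    rintro V l ⟨⟨Y', h', S⟩, s, hs, e⟩
    have := ZF_sep_sub (FMem.congr_right (by simpa using hx.res l) e)
    rw [res_res, hs] at this
    simpa using this
  · refine FMem.congr_left (c := (ZF_sep (a.res h) {o | FMem o.Y o.c (z.res o.h)}).res (𝟙 Y))
      (Ch.fmem ((ch_mkE _ _).2 ⟨⟨Y, h, _⟩, 𝟙 Y, Category.id_comp _, rfl⟩)) ?_
    rw [res_id]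
    refine FEq.ext fun W k x => ?_
    rw [ZF_sep_iff (a.res h) (fun V l c => FMem V c (z.res l))
      (fun _ _ _ _ m e => by simpa using e.res m) (fun _ _ _ _ e e' => e'.congr_left e)
      fun _ _ _ e => FMem.of_dense (by simpa using e)]
    exact and_iff_right_of_imp fun e => by simpa using H W k x e

theorem ZF_succ (a : Elt X) : ∃ b : Elt X, ∀ (Y : C) (h : Y ⟶ X) (z : Elt Y),
    FMem Y z (b.res h) ↔
      Dense Y fun V k => FMem V (z.res k) (a.res (k ≫ h)) ∨ FEq V (z.res k) (a.res (k ≫ h)) := by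
  refine ⟨mkE X (Option (Occ a)) (fun i => i.rec X fun o => o.Y)
    (fun i => i.rec (𝟙 X) fun o => o.h) fun i => i.rec a fun o => o.c, fun Y h z => ?_⟩
  rw [fmem_mkE]
  constructor
  · refine fun H => H.mono ?_
    rintro V k ⟨_ | o, s, hs, e⟩
    · rw [← hs]
      exact Or.inr (by simpa using e)
    · rw [← hs]
      exact Or.inl ((ZF_occ_mem o s).congr_left e.symm)
  · refine fun H => H.bind ?_
    rintro V k (e | e)
    · obtain ⟨o, l, e1, e2⟩ := ZF_occ e
      exact ⟨_, l, some o, 𝟙 _, by simp [e1], by simpa using e2⟩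
    · exact ⟨V, 𝟙 V, none, k ≫ h, by simp, by simpa using e⟩

theorem ZF_found (X : C) (x : Elt X) : ∀ a : Elt X, FMem X x a → ∃ (V : C) (k : V ⟶ X) (y : Elt V),
    FMem V y (a.res k) ∧ ∀ (W : C) (l : W ⟶ V) (z : Elt W),
      FMem W z (y.res l) → ¬ FMem W z (a.res (l ≫ k)) := by
  induction X, x using Elt.induction with
  | step X x ih =>
    intro a ha
    by_cases H : ∀ (W : C) (l : W ⟶ X) (z : Elt W), FMem W z (x.res l) → ¬ FMem W z (a.res l)
    · exact ⟨X, 𝟙 X, x, by simpa using ha, by simpa using H⟩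
    · push Not at H
      obtain ⟨W, l, z, h1, h2⟩ := H
      obtain ⟨V, k, d, hd, e⟩ := h1.exists
      obtain ⟨U, m, y, h3, h4⟩ := ih V (k ≫ l) d (by simpa using hd) (a.res (k ≫ l))
        (by simpa using (h2.res k).congr_left e)
      exact ⟨U, m ≫ k ≫ l, y, by simpa using h3, by simpa using h4⟩

theorem ZF_coll (a : Elt X) (R : ∀ Y : C, (Y ⟶ X) → Elt Y → Elt Y → Prop)
    (hcongr : ∀ Y h c c' y, FEq Y c c' → R Y h c y → R Y h c' y)
    (hres : ∀ Y h c y W (k : W ⟶ Y), R Y h c y → R W (k ≫ h) (c.res k) (y.res k)) :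
    ∃ b : Elt X, ∀ (Y : C) (h : Y ⟶ X) (x y : Elt Y), FMem Y x (a.res h) → R Y h x y →
      ∃ (V : C) (k : V ⟶ Y) (y' : Elt V), FMem V y' (b.res (k ≫ h)) ∧ R V (k ≫ h) (x.res k) y' := by
  refine ⟨mkE X {o : Occ a // ∃ y, R o.Y o.h o.c y} (fun o => o.1.Y) (fun o => o.1.h)
    fun o => o.2.choose, fun Y h x y h1 h2 => ?_⟩
  obtain ⟨o, k, e1, e2⟩ := ZF_occ h1
  have ho : ∃ y, R o.Y o.h o.c y := ⟨_, e1 ▸ hcongr _ _ _ _ _ e2 (hres _ _ _ _ _ k h2)⟩
  refine ⟨_, k, ho.choose, ?_, e1 ▸ hcongr _ _ _ _ _ e2.symm ho.choose_spec⟩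
  exact Ch.fmem ((ch_mkE _ _).2 ⟨⟨o, ho⟩, 𝟙 _, by simp [e1], (res_id _).symm⟩)

theorem ZF_snc (v : Fin n → Elt X) (a : Elt X) (i : Fin (n + 1)) :
    snc v a i = if h : i.val < n then v ⟨i, h⟩ else a := by
  refine Fin.lastCases ?_ (fun i => ?_) i <;> simp

theorem ZF_congr {v : Fin n → Elt X} {c c' : Elt X} (e : FEq X c c') (i : Fin (n + 1)) :
    FEq X (snc v c i) (snc v c' i) := by
  refine Fin.lastCases ?_ (fun i => ?_) i
  · simpa using e
  · simpa using FEq.refl _ _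

theorem ZF_lift1 (φ : setL.BoundedFormula Empty (n + 1)) (v : Fin n → Elt X) (a b x : Elt X) :
    Force (n := n + 1 + 1 + 1) (φ.liftAt 2 n) X (snc (snc (snc v a) b) x) ↔ Force φ X (snc v x) := by
  refine (force_liftAt φ _ (by omega)).trans (iff_of_eq (congrArg _ (funext fun i => ?_)))
  have := i.isLt
  by_cases hi : i.val < n
  · simp [ZF_snc, hi, show i.val < n + 1 by omega, show i.val < n + 1 + 1 by omega]
  · simp [ZF_snc, hi, show ¬ i.val + 2 < n + 1 + 1 by omega]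

theorem ZF_lift2 (φ : setL.BoundedFormula Empty (n + 2)) (v : Fin n → Elt X) (a x y : Elt X) :
    Force (n := n + 1 + 1 + 1) (φ.liftAt 1 n) X (snc (snc (snc v a) x) y) ↔
      Force φ X (snc (snc v x) y) := by
  refine (force_liftAt φ _ (by omega)).trans (iff_of_eq (congrArg _ (funext fun i => ?_)))
  have := i.isLt
  by_cases hi : i.val < n
  · simp [ZF_snc, hi, show i.val < n + 1 by omega, show i.val < n + 1 + 1 by omega]
  · simp [ZF_snc, hi]

theorem ZF_lift3 (φ : setL.BoundedFormula Empty (n + 2)) (v : Fin n → Elt X) (a b x y : Elt X) :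
    Force (n := n + 1 + 1 + 1 + 1) (φ.liftAt 2 n) X (snc (snc (snc (snc v a) b) x) y) ↔
      Force φ X (snc (snc v x) y) := by
  refine (force_liftAt φ _ (by omega)).trans (iff_of_eq (congrArg _ (funext fun i => ?_)))
  have := i.isLt
  by_cases hi : i.val < n
  · simp [ZF_snc, hi, show i.val < n + 1 by omega, show i.val < n + 1 + 1 by omega,
      show i.val < n + 1 + 1 + 1 by omega]
  · simp [ZF_snc, hi, show ¬ i.val + 2 < n + 1 + 1 by omega,
      show i.val + 2 < n + 1 + 1 + 1 ↔ i.val < n + 1 by omega]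

theorem ZF_extAx (v : Fin 0 → Elt X) : Force (n := 0) extAx X v := by
  refine (force_all_all _ v).2 fun Y h a b W k H => ?_
  rw [force_all_iff] at H
  exact FEq.ext H

theorem ZF_pairAx (v : Fin 0 → Elt X) : Force (n := 0) pairAx X v := by
  refine (force_all_all _ v).2 fun Y h a b => ?_
  obtain ⟨w, hw⟩ := ZF_pair a b
  exact force_ex_of _ _ w ((force_isUPair (2 : Fin 3) 0 1 _).2 hw)

theorem ZF_unionAx (v : Fin 0 → Elt X) : Force (n := 0) unionAx X v := by
  intro Y h a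
  obtain ⟨u, hu⟩ := ZF_union a
  refine force_ex_of _ _ u ((force_all_iff _ _ _).2 fun W k z => (hu W k z).trans ?_)
  simp only [force_ex, force_inf, vres_snc, res_res]
  rfl

theorem ZF_powerAx (v : Fin 0 → Elt X) : Force (n := 0) powerAx X v := by
  intro Y h a
  obtain ⟨p, hp⟩ := ZF_power a
  refine force_ex_of _ _ p ((force_all_iff _ _ _).2 fun W k z => (hp W k z).trans ?_)
  simp only [force_all_imp, vres_snc, res_res]
  rfl

theorem ZF_infAx (v : Fin 0 → Elt X) : Force (n := 0) infAx X v := by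
  choose suc hs using ZF_succ (X := X)
  let e : Elt X := mkE X PEmpty (fun _ => X) (fun _ => 𝟙 X) fun i => i.elim
  refine force_ex_of _ _ (mkE X (ULift ℕ) (fun _ => X) (fun _ => 𝟙 X) fun i => suc^[i.down] e)
    ((force_inf _ _ _).2 ⟨force_ex_of _ _ e ((force_inf _ _ _).2 ⟨fun Y h a W k H => ?_, ?_⟩),
      (force_all_imp _ _ _).2 fun Y h y H => ?_⟩)
  · simp only [vres_snc, res_res] at H
    obtain ⟨V, l, i, -⟩ := ((fmem_mkE _ _).1 H).exists
    exact i.elim
  · have := fmem_mkE_of (ι := ULift ℕ) (Y := fun _ => X) (g := fun _ => 𝟙 X)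
      (a := fun i => suc^[i.down] e) (h := 𝟙 X) ⟨0⟩ (𝟙 X) (by simp)
    rw [res_id, res_id] at this
    exact this
  · rw [vres_snc] at H
    refine (force_ex _ _).2 (((fmem_mkE _ _).1 H).mono ?_)
    rintro V k ⟨⟨i⟩, s, hs', e'⟩
    rw [Category.comp_id] at hs'
    subst hs'
    refine ⟨(suc^[i + 1] e).res (k ≫ h), (force_inf _ _ _).2 ⟨?_, (force_all_iff _ _ _).2 fun W l z => ?_⟩⟩
    · simp only [vres_snc, res_res]
      exact Ch.fmem ((ch_mkE (k ≫ h) _).2 ⟨⟨i + 1⟩, k ≫ h, Category.comp_id _, rfl⟩)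
    · simp only [vres_snc, res_res, force_sup, Function.iterate_succ_apply']
      refine (hs _ W _ z).trans ⟨fun H => H.mono fun U m H => ?_, fun H => H.mono fun U m H => ?_⟩
      · have e2 := (e'.res (m ≫ l)).symm
        simp only [res_res, Category.assoc] at e2
        exact H.imp (fun H => H.congr_right e2) fun H => H.trans e2
      · have e2 := e'.res (m ≫ l)
        simp only [res_res, Category.assoc] at e2
        exact H.imp (fun H => FMem.congr_right H e2) fun H => FEq.trans H e2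

theorem ZF_foundAx (v : Fin 0 → Elt X) : Force (n := 0) foundAx X v := by
  intro Y h a W k H
  rw [force_ex] at H ⊢
  refine H.bind ?_
  rintro V l ⟨x, hx⟩
  simp only [vres_snc, res_res] at hx ⊢
  obtain ⟨U, m, y, h1, h2⟩ := ZF_found V x (a.res (l ≫ k)) hx
  refine ⟨U, m, y, (force_inf _ _ _).2 ⟨?_, fun T t H => ?_⟩⟩
  · rw [res_res] at h1
    rw [Category.assoc]
    exact h1
  · obtain ⟨S, s, z, hz⟩ := ((force_ex _ _).1 H).exists
    simp only [vres_snc, res_res, force_inf, Category.assoc] at hz h2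
    exact h2 S (s ≫ t) z hz.1 (by rw [Category.assoc]; exact hz.2)

theorem ZF_sepAx (k : ℕ) (φ : setL.BoundedFormula Empty (k + 1)) (v₀ : Fin 0 → Elt X) :
    Force (n := 0) (sepAx k φ) X v₀ := by
  refine force_alls _ X v₀ fun X' v' X g a => ?_
  generalize vres v' g = v
  refine force_ex_of _ _ (ZF_sep a {o | Force φ o.Y (snc (vres v o.h) o.c)})
    ((force_all_iff _ _ _).2 fun Y h z => ?_)
  have := ZF_sep_iff a (fun V l c => Force φ V (snc (vres v l) c))
    (fun _ _ _ _ m e => by simpa using e.res m) (fun _ _ _ _ e e' => e'.congr (ZF_congr e))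
    (fun _ _ _ e => Force.of_dense (by simpa using e)) h z
  simpa [force_inf, ZF_lift1, ZF_snc] using this

theorem ZF_replAx (k : ℕ) (φ : setL.BoundedFormula Empty (k + 2)) (v₀ : Fin 0 → Elt X) :
    Force (n := 0) (replAx k φ) X v₀ := by
  refine force_alls _ X v₀ fun X' v' => (force_all_imp _ _ _).2 fun X g a H => ?_
  generalize vres v' g = v at H
  obtain ⟨b, hb⟩ := ZF_coll a (fun V l c y => Force φ V (snc (snc (vres v l) c) y))
    (fun V l c c' y e e' => e'.congr fun i => by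
      refine Fin.lastCases ?_ (fun i => ?_) i
      · simpa using FEq.refl _ _
      · simpa using ZF_congr e i)
    fun _ _ _ _ _ m e => by simpa using e.res m
  refine force_ex_of _ _ b ((force_all_imp _ _ _).2 fun Y h x hx => ?_)
  have hx' : FMem Y x (a.res h) := by simpa [ZF_snc] using hx
  have H' := (force_ex _ _).1 ((force_all_imp _ _ _).1 H Y h x (by simpa [ZF_snc] using hx'))
  refine (force_ex _ _).2 (H'.bind ?_)
  rintro V l ⟨y, hy⟩
  have hy' := ((force_inf _ _ _).1 hy).1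
  simp only [vres_snc, vres_vres, res_res, ZF_lift2] at hy'
  obtain ⟨U, m, y', h1, h2⟩ := hb V (l ≫ h) (x.res l) y (by simpa using hx'.res l) hy'
  exact ⟨U, m, y', by simpa [force_inf, ZF_lift3, ZF_snc] using And.intro h1 h2⟩

theorem force_ZF (φ : setL.Sentence) (hφ : φ ∈ ZF) (X : C) (v : Fin 0 → Elt X) :
    Force (n := 0) φ X v := by
  simp only [ZF, Set.mem_union, Set.mem_insert_iff, Set.mem_singleton_iff, Set.mem_iUnion,
    Set.mem_range] at hφ
  rcases hφ with ((rfl | rfl | rfl | rfl | rfl | rfl) | ⟨k, ψ, rfl⟩) | ⟨k, ψ, rfl⟩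
  exacts [ZF_extAx v, ZF_pairAx v, ZF_unionAx v, ZF_powerAx v, ZF_infAx v, ZF_foundAx v,
    ZF_sepAx k ψ v, ZF_replAx k ψ v]

end Crest.Agent.R296
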